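import Vale.Agent.P210.Stm

open Set Filter Topology MeasureTheory Metric
open scoped ENNReal NNReal ContDiff

namespace Vale.Agent.P210

namespace AprAux

theorem mx {a b d R : ℝ} (hR : 0 < R) (hd : 0 ≤ d) (h : b ≤ a + d) :
    max 0 (1 - a / R) ≤ max 0 (1 - b / R) + d / R := by
  have h1 : b / R ≤ a / R + d / R := by
    rw [← add_div]; exact div_le_div_of_nonneg_right h hR.le
  have h2 : 0 ≤ d / R := div_nonneg hd hR.le
  have h3 := le_max_left 0 (1 - b / R)
  have h4 := le_max_right 0 (1 - b / R)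
  exact max_le (by linarith) (by linarith)

theorem mx1 {a R : ℝ} (hR : 0 < R) (ha : 0 ≤ a) : max 0 (1 - a / R) ≤ 1 :=
  max_le zero_le_one (by linarith [div_nonneg ha hR.le])

end AprAux

open AprAux in
theorem pfApr : AprS := by
  intro n ν s q A hq hA h
  have hR : ∀ k : ℤ, (0 : ℝ) < 2 ^ k := fun k => by positivity
  have hRs : ∀ k : ℤ, (0 : ℝ) < ((2 : ℝ) ^ k) ^ s := fun k => Real.rpow_pos_of_pos (hR k) s
  have hq' : 0 ≤ 1 / q := by positivity
  have b0 : ∀ y k, 0 ≤ bF ν s q y k := fun y k =>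
    Real.rpow_nonneg (div_nonneg ENNReal.toReal_nonneg (hRs k).le) _
  have b1 : ∀ y k, bF ν s q y k ≤ A ^ (1 / q) := fun y k => by
    refine Real.rpow_le_rpow (div_nonneg ENNReal.toReal_nonneg (hRs k).le) ?_ hq'
    rw [div_le_iff₀ (hRs k)]
    exact ENNReal.toReal_le_of_le_ofReal (mul_pos hA (hRs k)).le (h y _ (hR k))
  have t1 : ∀ (x y : E n) (k : ℤ),
      bF ν s q y k * max 0 (1 - ‖x - y‖ / (2 : ℝ) ^ k) ≤ bF ν s q y k := fun x y k =>
    mul_le_of_le_one_right (b0 y k) (mx1 (hR k) (norm_nonneg _))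
  have bd : ∀ (x : E n) (k : ℤ), BddAbove
      (range fun y : E n => bF ν s q y k * max 0 (1 - ‖x - y‖ / (2 : ℝ) ^ k)) := fun x k =>
    ⟨A ^ (1 / q), by rintro _ ⟨y, rfl⟩; exact (t1 x y k).trans (b1 y k)⟩
  have a1 : ∀ x k, bF ν s q x k ≤ aF ν s q x k := fun x k => by
    refine le_trans (le_of_eq ?_) (le_ciSup (bd x k) x)
    simp
  have a0 : ∀ x k, 0 ≤ aF ν s q x k := fun x k => (b0 x k).trans (a1 x k)
  have lp : ∀ x y k, aF ν s q x k ≤ aF ν s q y k + A ^ (1 / q) * ‖x - y‖ / (2 : ℝ) ^ k := by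
    intro x y k
    refine ciSup_le fun z => ?_
    have h1 : max 0 (1 - ‖x - z‖ / (2 : ℝ) ^ k) ≤
        max 0 (1 - ‖y - z‖ / (2 : ℝ) ^ k) + ‖x - y‖ / (2 : ℝ) ^ k := by
      refine mx (hR k) (norm_nonneg _) ?_
      have := norm_sub_le_norm_sub_add_norm_sub y x z
      rw [norm_sub_rev y x] at this
      linarith
    have h2 := mul_le_mul_of_nonneg_left h1 (b0 z k)
    have h3 : bF ν s q z k * max 0 (1 - ‖y - z‖ / (2 : ℝ) ^ k) ≤ aF ν s q y k :=
      le_ciSup (bd y k) z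
    have h4 := mul_le_mul_of_nonneg_right (b1 z k) (div_nonneg (norm_nonneg (x - y)) (hR k).le)
    rw [mul_add] at h2
    rw [mul_div_assoc]
    linarith
  refine ⟨a1, a0, fun x k => ciSup_le fun y => (t1 x y k).trans (b1 y k), fun x y k => ?_,
    fun x k => ?_⟩
  · have h1 := lp x y k
    have h2 := lp y x k
    rw [norm_sub_rev y x] at h2
    exact abs_sub_le_iff.2 ⟨by linarith, by linarith⟩
  · have fin : ν (ball x ((2 : ℝ) ^ (k + 1))) ≠ ⊤ :=
      ne_top_of_le_ne_top ENNReal.ofReal_ne_top (h x _ (hR _))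
    have m0 : 0 ≤ (ν (ball x ((2 : ℝ) ^ (k + 1)))).toReal / ((2 : ℝ) ^ k) ^ s :=
      div_nonneg ENNReal.toReal_nonneg (hRs k).le
    have h1 : aF ν s q x k ≤
        ((ν (ball x ((2 : ℝ) ^ (k + 1)))).toReal / ((2 : ℝ) ^ k) ^ s) ^ (1 / q) := by
      refine ciSup_le fun y => ?_
      rcases le_or_gt ((2 : ℝ) ^ k) ‖x - y‖ with h2 | h2
      · rw [max_eq_left (sub_nonpos.2 ((one_le_div (hR k)).2 h2)), mul_zero]
        exact Real.rpow_nonneg m0 _
      · refine (t1 x y k).trans (Real.rpow_le_rpow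
          (div_nonneg ENNReal.toReal_nonneg (hRs k).le) ?_ hq')
        refine div_le_div_of_nonneg_right (ENNReal.toReal_mono fin (measure_mono ?_)) (hRs k).le
        refine ball_subset_ball' ?_
        rw [dist_eq_norm, norm_sub_rev, zpow_add_one₀ two_ne_zero]
        linarith
    have h2 := Real.rpow_le_rpow (a0 x k) h1 hq.le
    rw [one_div, Real.rpow_inv_rpow m0 hq.ne', le_div_iff₀ (hRs k)] at h2
    exact ENNReal.ofReal_le_of_le_toReal h2

end Vale.Agent.P210
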