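import Vale.Agent.P210.Stm

open Set Filter Topology MeasureTheory Metric
open scoped ENNReal NNReal ContDiff

namespace Vale.Agent.P210

namespace AvgAux

theorem ind {I : Type} (d t : I → ℝ) (c : I → ℝ≥0∞) (r : ℝ) (i : I) :
    {i | |d i - r| ≤ t i}.indicator c i =
      (Icc (d i - t i) (d i + t i)).indicator (fun _ => c i) r := by
  have : i ∈ {i | |d i - r| ≤ t i} ↔ r ∈ Icc (d i - t i) (d i + t i) := by
    rw [mem_setOf_eq, abs_le, mem_Icc]
    constructor <;> rintro ⟨h1, h2⟩ <;> constructor <;> linarith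
  by_cases h : i ∈ {i | |d i - r| ≤ t i}
  · rw [indicator_of_mem h, indicator_of_mem (this.1 h)]
  · rw [indicator_of_notMem h, indicator_of_notMem fun h' => h (this.2 h')]

end AvgAux

theorem pfAvg : AvgS := by
  intro I _ d t c a b hab ht
  simp only [AvgAux.ind]
  have hm : ∀ i, Measurable ((Icc (d i - t i) (d i + t i)).indicator fun _ : ℝ => c i) :=
    fun i => measurable_const.indicator measurableSet_Icc
  have hv : volume (Icc a b) = ENNReal.ofReal (b - a) := Real.volume_Icc
  have h0 : volume (Icc a b) ≠ 0 := by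
    rw [hv]
    exact (ENNReal.ofReal_pos.2 (sub_pos.2 hab)).ne'
  have h1 : volume (Icc a b) ≠ ⊤ := by
    rw [hv]
    exact ENNReal.ofReal_ne_top
  obtain ⟨r, hr, h⟩ := exists_le_setLAverage h0 h1
    (f := fun r => ∑' i, (Icc (d i - t i) (d i + t i)).indicator (fun _ => c i) r)
    (Measurable.ennreal_tsum hm).aemeasurable
  refine ⟨r, hr, ?_⟩
  rw [setLAverage_eq, ENNReal.le_div_iff_mul_le (Or.inl h0) (Or.inl h1), hv] at h
  refine h.trans ((setLIntegral_le_lintegral _ _).trans ?_)
  rw [lintegral_tsum fun i => (hm i).aemeasurable]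
  refine ENNReal.tsum_le_tsum fun i => ?_
  rw [lintegral_indicator_const measurableSet_Icc, Real.volume_Icc]
  exact le_of_eq (by congr 2; ring)

end Vale.Agent.P210
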