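import Vale.Agent.P210.Stm

open Set Filter Topology MeasureTheory Metric
open scoped ENNReal NNReal ContDiff

namespace Vale.Agent.P210

theorem pfBot : BotS := by
  rintro n A a P a0 hl hP ⟨o, ho⟩ x
  have h1 : ¬ Summable fun i : ℕ => a x i := fun h => ho (by
    have h2 : Summable fun i : ℕ => A * ‖o - x‖ * (1 / 2 : ℝ) ^ i :=
      summable_geometric_two.mul_left _
    refine Summable.of_nonneg_of_le (fun i => a0 _ _) (fun i => ?_) (h.add h2)
    have h3 := (abs_le.1 (hl o x i)).2
    rw [zpow_natCast] at h3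
    rw [one_div, inv_pow, ← div_eq_mul_inv]
    linarith)
  have h2 := (not_summable_iff_tendsto_nat_atTop_of_nonneg fun i : ℕ => a0 x i).1 h1
  have h3 : ∀ N : ℕ, P x ((N : ℤ) - 1) = P x (-1) - ∑ i ∈ Finset.range N, a x i := fun N => by
    induction N with
    | zero => simp
    | succ N ih =>
      have h4 := hP x ((N : ℤ) - 1)
      rw [sub_add_cancel] at h4
      rw [Finset.sum_range_succ, Nat.cast_succ, add_sub_cancel_right]
      linarith
  have h4 : Antitone (P x) := antitone_int_of_succ_le fun k => by linarith [hP x k, a0 x (k + 1)]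
  refine tendsto_atTop_atBot.2 fun b => ?_
  obtain ⟨N, hN⟩ := (h2.eventually_ge_atTop (P x (-1) - b)).exists
  exact ⟨(N : ℤ) - 1, fun k hk => (h4 hk).trans (by rw [h3]; linarith)⟩

end Vale.Agent.P210
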