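import Vale.Agent.P210.Stm

open Set Filter Topology MeasureTheory Metric
open scoped ENNReal NNReal ContDiff

namespace Vale.Agent.P210

namespace CaccAux

theorem cancel {α : Type} [MeasurableSpace α] {μ : Measure α} {A T Z : α → ℝ}
    (hA : ∀ x, 0 ≤ A x) (hZ : Integrable Z μ) (h0 : ∫ x, Z x ∂μ = 0)
    (h : ∀ᵐ x ∂μ, A x + Z x ≤ T x) :
    ∫⁻ x, ENNReal.ofReal (A x) ∂μ ≤ ∫⁻ x, ENNReal.ofReal (T x) ∂μ := by
  have f1 := hZ.lintegral_lt_top.ne
  have f2 : ∫⁻ x, ENNReal.ofReal (-Z x) ∂μ ≠ ⊤ := hZ.neg.lintegral_lt_top.ne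
  rw [integral_eq_lintegral_pos_part_sub_lintegral_neg_part hZ, sub_eq_zero,
    ENNReal.toReal_eq_toReal_iff' f1 f2] at h0
  have m2 : AEMeasurable (fun x => ENNReal.ofReal (-Z x)) μ := hZ.aemeasurable.neg.ennreal_ofReal
  rw [← ENNReal.add_le_add_iff_right f1, ← lintegral_add_right' _ hZ.aemeasurable.ennreal_ofReal,
    h0, ← lintegral_add_right' _ m2]
  refine lintegral_mono_ae (h.mono fun x hx => ?_)
  rcases le_total 0 (Z x) with hz | hz
  · rw [← ENNReal.ofReal_add (hA x) hz]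
    exact (ENNReal.ofReal_le_ofReal hx).trans le_self_add
  · rw [ENNReal.ofReal_of_nonpos hz, add_zero]
    exact (ENNReal.ofReal_le_ofReal (by linarith)).trans ENNReal.ofReal_add_le

theorem norm_sq {n : ℕ} (f : E n → ℝ) (x : E n) : ‖fderiv ℝ f x‖ ^ 2 = ∑ i, pd i f x ^ 2 := by
  simpa only [EuclideanSpace.basisFun_apply, pd] using
    (EuclideanSpace.basisFun (Fin n) ℝ).norm_dual (fderiv ℝ f x)

end CaccAux

theorem pfCacc (hIbp : IbpS) (hLip : LipS) : CaccS := by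
  intro n Ω w ζ G β c K p hΩ hw hc hpde hG G0 hG' hζ cs hs ζ0 hp
  obtain ⟨q, rfl⟩ := Nat.exists_eq_add_of_le' hp
  have off : ∀ x, x ∉ tsupport ζ → G (w x) * ζ x ^ (q + 2) = 0 := fun x hx => by
    rw [image_eq_zero_of_notMem_tsupport hx, zero_pow (by omega), mul_zero]
  have w1 : ∀ x ∈ Ω, ContDiffAt ℝ 1 w x := fun x hx =>
    (hw.contDiffAt (hΩ.mem_nhds hx)).of_le (by simp)
  obtain ⟨K', hψ⟩ := hLip n Ω (fun x => G (w x) * ζ x ^ (q + 2)) _ hΩ cs hs off fun x hx => by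
    have c1 : ContDiffAt ℝ 1 (fun z : E n × ℝ => G (w z.1) * z.2 ^ (q + 2)) (x, ζ x) :=
      (hG.contDiffAt.comp (x, ζ x) (ContDiffAt.comp (g := w) (f := Prod.fst) (x, ζ x) (w1 x hx)
        contDiffAt_fst)).mul (contDiffAt_snd.pow _)
    obtain ⟨M, t, ht, hM⟩ := c1.exists_lipschitzOnWith
    have l := LipschitzWith.id.prodMk hζ
    obtain ⟨r, r0, hr⟩ := Metric.mem_nhds_iff.1 (l.continuous.continuousAt.preimage_mem_nhds ht)
    refine ⟨r, r0, M * (max 1 K : ℝ≥0), fun y hy z hz => ?_⟩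
    rw [mul_assoc, ← dist_eq_norm, ← Real.dist_eq]
    exact (hM.dist_le_mul _ (hr hy) _ (hr hz)).trans
      (mul_le_mul_of_nonneg_left (l.dist_le_mul y z) M.2)
  have sub : tsupport (fun x => G (w x) * ζ x ^ (q + 2)) ⊆ tsupport ζ :=
    closure_minimal (fun x hx => by_contra fun h => hx (off x h)) (isClosed_tsupport _)
  obtain ⟨i1, i2, e⟩ := hIbp n Ω w _ K' hΩ hw hψ (cs.of_isClosed_subset (isClosed_tsupport _) sub)
    (sub.trans hs)
  refine CaccAux.cancel (fun x => mul_nonneg hc (mul_nonneg (mul_nonneg (G0 _) (Real.exp_pos _).le)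
    (pow_nonneg (ζ0 x) _))) (i1.add i2).integrableOn ?_ ?_
  · rw [setIntegral_eq_integral_of_forall_compl_eq_zero fun x hx => ?_]
    · simp only [Pi.add_apply]
      rw [integral_add i1 i2, e, neg_add_cancel]
    have h1 := fderiv_of_notMem_tsupport ℝ fun h => hx (hs (sub h))
    simp only [Pi.add_apply, off x fun h => hx (hs h), zero_mul, pd, h1,
      zero_apply, Finset.sum_const_zero, add_zero]
  filter_upwards [ae_restrict_mem hΩ.measurableSet, ae_restrict_of_ae hζ.ae_differentiableAt]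
    with x hx hd
  have d := ((hG.differentiable one_ne_zero (w x)).hasDerivAt.comp_hasFDerivAt x
    ((w1 x hx).differentiableAt one_ne_zero).hasFDerivAt).fun_mul 
    ((hasDerivAt_pow (q + 2) (ζ x)).comp_hasFDerivAt x hd.hasFDerivAt)
  have e1 : ∀ i, pd i (fun x => G (w x) * ζ x ^ (q + 2)) x =
      G (w x) * ((q + 2) * ζ x ^ (q + 1) * pd i ζ x) + ζ x ^ (q + 2) * (deriv G (w x) * pd i w x) :=
    fun i => by
      have := congrArg (fun L => L (EuclideanSpace.single i 1)) d.fderiv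
      simpa [pd] using this
  have z0 := pow_nonneg (ζ0 x) q
  have z2 := pow_nonneg (ζ0 x) (q + 2)
  have e2 : ∑ i, pd i (fun x => G (w x) * ζ x ^ (q + 2)) x * pd i w x ≤
      ∑ i, ((β + 1 / 4) * (G (w x) * ζ x ^ (q + 2)) * pd i w x ^ 2 +
        ((q:ℝ) + 2) ^ 2 * (G (w x) * ζ x ^ q) * pd i ζ x ^ 2) := Finset.sum_le_sum fun i _ => by
    have a1 := mul_le_mul_of_nonneg_right (hG' (w x)) (mul_nonneg z2 (sq_nonneg (pd i w x)))
    have a2 := mul_nonneg (mul_nonneg (G0 (w x)) z0)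
      (sq_nonneg (ζ x * pd i w x / 2 - (q + 2) * pd i ζ x))
    rw [e1]
    simp only [pow_succ (ζ x)] at a1 ⊢
    linarith
  rw [Finset.sum_add_distrib, ← Finset.mul_sum, ← Finset.mul_sum, ← gsq,
    ← CaccAux.norm_sq ζ] at e2
  have a3 := mul_le_mul_of_nonneg_left (hpde x hx) (mul_nonneg (G0 (w x)) z2)
  simp only [Pi.add_apply, Nat.add_sub_cancel, Nat.cast_add, Nat.cast_ofNat]
  linarith

end Vale.Agent.P210
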