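import Vale.Agent.P210.Stm

open Set Filter Topology MeasureTheory Metric
open scoped ENNReal NNReal ContDiff

namespace Vale.Agent.P210

namespace CellPAux

/-- The full skeleton. -/
def sk (V : Type) (m : ℕ) : AbstractSimplicialComplex V where
  faces := {s | s.Nonempty ∧ s.card ≤ m + 1}
  isRelLowerSet_faces := fun {_} hs =>
    ⟨hs.1, fun {_} hts ht => ⟨ht, (Finset.card_le_card hts).trans hs.2⟩⟩
  singleton_mem := fun v => ⟨Finset.singleton_nonempty v, by simp⟩

theorem loc {V : Type} {a : V → ℝ} {S : Finset V} (h0 : ∀ v, 0 ≤ a v) (h1 : ∃ v, 0 < a v)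
    (hS : ∀ v, 0 < a v → v ∈ S) :
    ∑ᶠ v, a v = ∑ v ∈ S, a v ∧ 0 < ∑ v ∈ S, a v ∧ S.Nonempty ∧
      (fun v => a v / ∑ᶠ v, a v) ∈ cell S := by
  obtain ⟨v0, hv0⟩ := h1
  have e : ∑ᶠ v, a v = ∑ v ∈ S, a v :=
    finsum_eq_sum_of_support_subset _ fun v hv => hS v ((h0 v).lt_of_ne' hv)
  have p : 0 < ∑ v ∈ S, a v :=
    hv0.trans_le (Finset.single_le_sum (fun v _ => h0 v) (hS v0 hv0))
  refine ⟨e, p, ⟨v0, hS v0 hv0⟩, fun v => ?_, fun v hv => ?_, ?_⟩
  · rw [e]
    exact div_nonneg (h0 v) p.le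
  · have : a v = 0 := le_antisymm (not_lt.1 fun h => hv (hS v h)) (h0 v)
    show a v / _ = 0
    rw [this, zero_div]
  · rw [← Finset.sum_div, e, div_self p.ne']

end CellPAux

open CellPAux in
theorem pfCell : CellS := by
  intro X _ V m g hc h0 h1 hS
  have hm : ∀ x, (fun v => g v x / ∑ᶠ v, g v x) ∈ space (sk V m) := by
    intro x
    obtain ⟨S, hc, hx⟩ := hS x
    have := loc (fun v => h0 v x) (h1 x) hx.self_of_nhds
    exact cell_subset (sk V m) ⟨S, this.2.2.1, hc⟩ this.2.2.2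
  refine ⟨sk V m, fun x => ⟨_, hm x⟩, fun s hs => hs.2, ?_, fun x y hxy => ?_⟩
  · letI := spaceTop (sk V m)
    refine continuous_iff_continuousAt.2 fun x0 => ?_
    obtain ⟨S, hcard, hx⟩ := hS x0
    have hne := (loc (fun v => h0 v x0) (h1 x0) hx.self_of_nhds).2.2.1
    refine ContinuousOn.continuousAt (s := {x | ∀ v, 0 < g v x → v ∈ S}) ?_ hx
    rw [continuousOn_iff_continuous_restrict]
    have hi : Continuous (Set.inclusion (cell_subset (sk V m) ⟨S, hne, hcard⟩)) :=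
      continuous_iSup_rng (i := (⟨S, hne, hcard⟩ : (sk V m).faces)) continuous_coinduced_rng
    have hh : Continuous fun x : {x | ∀ v, 0 < g v x → v ∈ S} =>
        (⟨fun v => g v x / ∑ᶠ v, g v x, (loc (fun v => h0 v x) (h1 x) x.2).2.2.2⟩ : cell S) := by
      refine Continuous.subtype_mk (continuous_pi fun v => ?_) _
      have e : (fun x : {x | ∀ v, 0 < g v x → v ∈ S} => g v x / ∑ᶠ v, g v x) =
          fun x : {x | ∀ v, 0 < g v x → v ∈ S} => g v x / ∑ v ∈ S, g v x :=
        funext fun x => by rw [(loc (fun v => h0 v x) (h1 x) x.2).1]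
      rw [e]
      exact ((hc v).comp continuous_subtype_val).div
        (continuous_finsetSum _ fun v _ => (hc v).comp continuous_subtype_val)
        fun x => (loc (fun v => h0 v x) (h1 x) x.2).2.1.ne'
    exact hi.comp hh
  · obtain ⟨v, hv⟩ := h1 x
    refine ⟨v, hv, (h0 v y).lt_of_ne' fun hy => ?_⟩
    have e : g v x / ∑ᶠ v, g v x = g v y / ∑ᶠ v, g v y := congrFun (congrArg Subtype.val hxy) v
    obtain ⟨S, -, hx⟩ := hS x
    have := loc (fun v => h0 v x) (h1 x) hx.self_of_nhds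
    rw [hy, zero_div, this.1] at e
    exact (div_pos hv this.2.1).ne' e

end Vale.Agent.P210
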