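import Vale.Agent.P210.Stm

open Set Filter Topology MeasureTheory Metric
open scoped ENNReal NNReal ContDiff

namespace Vale.Agent.P210

namespace ClosedAux

lemma near (hLoc : LocS) (hMid : MidS) {n : ℕ} {Ω : Set (E n)} {ρ : E n → ℝ}
    {d : E n → E n → ℝ} (hM : Met Ω ρ d) {o : E n} (ho : o ∈ Ω) {R : ℝ} (hR : 0 < R)
    (hc : ∀ R' < R, IsCompact (KB Ω d o R')) (f : Ultrafilter (E n))
    (hf : (f : Filter (E n)) ≤ 𝓟 (KB Ω d o R)) {ε : ℝ} (hε : 0 < ε) :
    ∃ t ∈ Ω, ∀ᶠ y in (f : Filter (E n)), d t y < ε := by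
  have hR' : max 0 (R - ε / 3) < R := max_lt hR (by linarith)
  have hz : ∀ y, ∃ z, y ∈ KB Ω d o R → z ∈ KB Ω d o (max 0 (R - ε / 3)) ∧ d z y ≤ 2 * ε / 3 := by
    intro y
    by_cases hy : y ∈ KB Ω d o R
    · by_cases h1 : d o y ≤ max 0 (R - ε / 3)
      · refine ⟨y, fun _ => ⟨⟨hy.1, h1⟩, ?_⟩⟩
        rw [hM.self]
        positivity
      · obtain ⟨z, hz1, hz2⟩ := hMid n Ω ρ d hM o ho _ (le_max_left 0 (R - ε / 3)) y hy.1
          (not_le.1 h1).le (ε / 3) (by positivity)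
        refine ⟨z, fun _ => ⟨hz1, ?_⟩⟩
        have := le_max_right 0 (R - ε / 3)
        have := hy.2
        linarith
    · exact ⟨y, fun h => absurd h hy⟩
  choose z hz using hz
  have hK : ∀ᶠ y in (f : Filter (E n)), y ∈ KB Ω d o R := le_principal_iff.1 hf
  obtain ⟨t, ht, hle⟩ := (isCompact_iff_ultrafilter_le_nhds.1 (hc _ hR')) (f.map z) (by
    rw [Ultrafilter.coe_map, le_principal_iff, mem_map]
    filter_upwards [hK] with y hy
    exact (hz y hy).1)
  refine ⟨t, ht.1, ?_⟩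
  have hca : ContinuousAt (d t) t :=
    ((hLoc n Ω ρ d hM).2.2.2 t ht.1).continuousAt (hM.op.mem_nhds ht.1)
  have h3 : ∀ᶠ w in 𝓝 t, d t w < ε / 3 :=
    hca.eventually_lt continuousAt_const (by rw [hM.self]; positivity)
  have h4 : ∀ᶠ y in (f : Filter (E n)), d t (z y) < ε / 3 := by
    have := hle h3
    rw [Ultrafilter.coe_map, mem_map] at this
    exact this
  filter_upwards [hK, h4] with y hy h5
  have := hM.tri t ht.1 (z y) (hz y hy).1.1 y hy.1
  have := (hz y hy).2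
  linarith

end ClosedAux

open ClosedAux in
theorem pfClosed (hLoc : LocS) (hMid : MidS) : ClosedS := by
  intro n Ω ρ d hM o ho R hR hc
  refine isCompact_iff_ultrafilter_le_nhds.2 fun f hf => ?_
  have hK : ∀ᶠ y in (f : Filter (E n)), y ∈ KB Ω d o R := le_principal_iff.1 hf
  have h1 : ∀ k : ℕ, ∃ t ∈ Ω, ∀ᶠ y in (f : Filter (E n)), d t y < 1 / ((k : ℝ) + 1) :=
    fun k => near hLoc hMid hM ho hR hc f hf (by positivity)
  choose t ht hty using h1
  have hsmall : ∀ ε > 0, ∃ N : ℕ, ∀ a ≥ N, 1 / ((a : ℝ) + 1) < ε := fun ε hε => by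
    obtain ⟨N, hN⟩ := exists_nat_one_div_lt hε
    exact ⟨N, fun a ha => lt_of_le_of_lt (Nat.one_div_le_one_div ha) hN⟩
  obtain ⟨x, hx, hlim⟩ := hM.cpl t ht (by
    intro ε hε
    obtain ⟨N, hN⟩ := hsmall (ε / 2) (by positivity)
    refine ⟨N, fun a ha b hb => ?_⟩
    obtain ⟨y, hy, h2, h3⟩ := (hK.and ((hty a).and (hty b))).exists
    have h4 := hM.tri (t a) (ht a) y hy.1 (t b) (ht b)
    rw [hM.symm y (t b)] at h4
    have := hN a ha
    have := hN b hb
    linarith)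
  have hd : ∀ δ > 0, ∀ᶠ y in (f : Filter (E n)), d x y < δ := by
    intro δ hδ
    obtain ⟨N, hN⟩ := hsmall (δ / 2) (by positivity)
    obtain ⟨k, hk1, hk2⟩ := ((hlim.eventually (gt_mem_nhds (half_pos hδ))).and
      (eventually_ge_atTop N)).exists
    filter_upwards [hK, hty k] with y hy h2
    have h4 := hM.tri x hx (t k) (ht k) y hy.1
    rw [hM.symm x (t k)] at h4
    have := hN k hk2
    linarith
  refine ⟨x, ⟨hx, ?_⟩, ?_⟩
  · refine le_of_forall_pos_le_add fun δ hδ => ?_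
    obtain ⟨y, hy, h2⟩ := (hK.and (hd δ hδ)).exists
    have h4 := hM.tri o ho y hy.1 x hx
    rw [hM.symm y x] at h4
    have := hy.2
    linarith
  · obtain ⟨r, hr, c, hc0, hb⟩ := (hLoc n Ω ρ d hM).2.1 x hx
    refine (Metric.nhds_basis_ball.ge_iff).2 fun η hη => ?_
    filter_upwards [hK, hd (c * min η r) (mul_pos hc0 (lt_min hη hr))] with y hy h2
    have h3 := lt_of_mul_lt_mul_left ((hb y hy.1).trans_lt h2) hc0.le
    rw [mem_ball, dist_eq_norm]
    by_contra h4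
    exact absurd (min_le_min_right r (not_lt.1 h4)) (not_le.2 h3)

end Vale.Agent.P210
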