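import Vale.Agent.P210.Stm

open Set Filter Topology MeasureTheory Metric
open scoped ENNReal NNReal ContDiff

namespace Vale.Agent.P210

namespace CoreAux

theorem big {n : ℕ} (x y : E n) (k : ℤ) :
    volume (ball y ((2 : ℝ) ^ (k + 1))) / ENNReal.ofReal ((2 : ℝ) ^ n * 4) =
      volume (ball x ((2 : ℝ) ^ k)) / 4 := by
  have h1 : (0 : ℝ) < 2 ^ k := zpow_pos two_pos k
  have h2 : (0 : ℝ) < 2 ^ (k + 1) := zpow_pos two_pos _
  have h3 : (0 : ℝ) < 2 ^ n := pow_pos two_pos n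
  have h4 : ((2 : ℝ) ^ (k + 1)) ^ n = 2 ^ n * ((2 : ℝ) ^ k) ^ n := by
    rw [zpow_add_one₀ two_ne_zero, mul_pow, mul_comm]
  rw [Measure.addHaar_ball_of_pos volume y h2, Measure.addHaar_ball_of_pos volume x h1,
    finrank_euclideanSpace_fin, h4, ENNReal.ofReal_mul h3.le, ENNReal.ofReal_mul h3.le, mul_assoc,
    ENNReal.mul_div_mul_left _ _ (ENNReal.ofReal_pos.2 h3).ne' ENNReal.ofReal_ne_top,
    ENNReal.ofReal_ofNat]

theorem quarter {W : ℝ≥0∞} (h0 : W ≠ 0) (h1 : W ≠ ⊤) : ¬W ≤ W / 4 + W / 4 := by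
  intro h
  have h2 : W / 4 ≠ ⊤ := ENNReal.div_ne_top h1 (by norm_num)
  have h3 := ENNReal.toReal_mono (ENNReal.add_ne_top.2 ⟨h2, h2⟩) h
  rw [ENNReal.toReal_add h2 h2, ENNReal.toReal_div, ENNReal.toReal_ofNat] at h3
  have h4 := ENNReal.toReal_pos h0 h1
  linarith

end CoreAux

open CoreAux in
theorem pfCore (hMark : MarkS) : CoreS := by
  intro n q hq
  obtain ⟨C, hC, hM⟩ := hMark n q hq
  have hl : (0 : ℝ) < 2 ^ n * 4 := by positivity
  refine ⟨2 ^ n * 4 * C, by positivity, ?_⟩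
  intro Ω ρ d a hd hν ha x hx y hy k M₁ M₂ hxy s1 s2
  have h1 : (0 : ℝ) < 2 ^ k := zpow_pos two_pos k
  have h2 : (2 : ℝ) ^ (k + 1) = 2 ^ k + 2 ^ k := by
    rw [zpow_add_one₀ two_ne_zero]
    ring
  have m1 := hM Ω ρ d hd hν x hx (k + 1) (fun i => a x (k + 1 - i)) M₁ _ hl
    (fun i => ha x _) s1.summable s1.tsum_eq.le
  have m2 := hM Ω ρ d hd hν y hy (k + 1) (fun i => a y (k + 1 - i)) M₂ _ hl
    (fun i => ha y _) s2.summable s2.tsum_eq.le
  rw [big x x k] at m1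
  rw [big x y k] at m2
  by_contra hcon
  refine quarter (measure_ball_pos volume x h1).ne' measure_ball_lt_top.ne
    (le_trans (le_trans (measure_mono ?_) (measure_union_le _ _)) (add_le_add m1 m2))
  intro z hz
  have hz' : dist z x < 2 ^ k := hz
  have b1 : z ∈ ball x ((2 : ℝ) ^ (k + 1)) := by
    rw [mem_ball, h2]
    linarith
  have b2 : z ∈ ball y ((2 : ℝ) ^ (k + 1)) := by
    have h3 := dist_triangle z x y
    rw [dist_eq_norm x y] at h3
    rw [mem_ball, h2]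
    linarith
  by_cases g1 : z ∈ Ω ∧ d x z ≤ 2 ^ n * 4 * (C * (M₁ + 1))
  · refine Or.inr ⟨b2, fun g2 => hcon ?_⟩
    have h3 := hd.tri x hx z g1.1 y hy
    rw [hd.symm z y] at h3
    have h4 := g1.2
    have h5 := g2.2
    have h6 : 2 ^ n * 4 * C * (M₁ + M₂ + 2) =
        2 ^ n * 4 * (C * (M₁ + 1)) + 2 ^ n * 4 * (C * (M₂ + 1)) := by ring
    rw [h6]
    linarith
  · exact Or.inl ⟨b1, g1⟩

end Vale.Agent.P210
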