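import Vale.Agent.P210.Stm

open Set Filter Topology MeasureTheory Metric
open scoped ENNReal NNReal ContDiff

namespace Vale.Agent.P210

namespace CutAux

/-- Truncation to the unit interval. -/
def cl (t : ℝ) : ℝ := min 1 (max 0 t)

theorem cl0 (t : ℝ) : 0 ≤ cl t := le_min zero_le_one (le_max_left _ _)

theorem cl1 (t : ℝ) : cl t ≤ 1 := min_le_left _ _

theorem cl_one {t : ℝ} (h : 1 ≤ t) : cl t = 1 := min_eq_left (h.trans (le_max_right _ _))

theorem cl_zero {t : ℝ} (h : t ≤ 0) : cl t = 0 := by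
  rw [cl, max_eq_left h, min_eq_right zero_le_one]

theorem cl_lip (s t : ℝ) : |cl s - cl t| ≤ |s - t| := by
  have h1 := abs_min_sub_min_le_max 1 (max 0 s) 1 (max 0 t)
  have h2 := abs_max_sub_max_le_max 0 s 0 t
  rw [sub_self, abs_zero] at h1 h2
  exact h1.trans (max_le (abs_nonneg _) (h2.trans (max_le (abs_nonneg _) le_rfl)))

theorem prod_lip (a b c e : ℝ) :
    |cl a * cl b - cl c * cl e| ≤ |a - c| + |b - e| := by
  have h : cl a * cl b - cl c * cl e = (cl a - cl c) * cl b + cl c * (cl b - cl e) := by ring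
  rw [h]
  refine (abs_add_le _ _).trans (add_le_add ?_ ?_)
  · rw [abs_mul, abs_of_nonneg (cl0 b)]
    exact (mul_le_of_le_one_right (abs_nonneg _) (cl1 b)).trans (cl_lip a c)
  · rw [abs_mul, abs_of_nonneg (cl0 c)]
    exact (mul_le_of_le_one_left (abs_nonneg _) (cl1 c)).trans (cl_lip b e)

theorem quo {a b r M : ℝ} (hr : 0 < r) (h : |a - b| ≤ M) :
    |(2 - a / r) - (2 - b / r)| ≤ M / r := by
  have e : (2 - a / r) - (2 - b / r) = -((a - b) / r) := by ring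
  rw [e, abs_neg, abs_div, abs_of_pos hr]
  exact div_le_div_of_nonneg_right h hr.le

end CutAux

open CutAux in
theorem pfCut (hLoc : LocS) (hProper : ProperS) (hLip : LipS) : CutS := by
  intro n Ω ρ d hM o ho x r R hr hR
  obtain ⟨ζ, hζ⟩ : ∃ ζ : E n → ℝ,
      ζ = Ω.indicator fun y => cl (2 - ‖y - x‖ / r) * cl (2 - d o y / R) := ⟨_, rfl⟩
  have hin : ∀ y ∈ Ω, ζ y = cl (2 - ‖y - x‖ / r) * cl (2 - d o y / R) := fun y hy => by
    rw [hζ, indicator_of_mem hy]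
  have hout : ∀ y, y ∉ Ω → ζ y = 0 := fun y hy => by rw [hζ, indicator_of_notMem hy]
  have hC := hProper n Ω ρ d hM o ho (2 * R)
  have hz : ∀ y, y ∉ KB Ω d o (2 * R) → ζ y = 0 := by
    intro y hy
    by_cases h : y ∈ Ω
    · have h2 : 2 * R < d o y := not_le.1 fun h3 => hy ⟨h, h3⟩
      have h3 : 2 - d o y / R ≤ 0 := by
        rw [sub_nonpos, le_div_iff₀ hR]; exact h2.le
      rw [hin y h, cl_zero h3, mul_zero]
    · exact hout y h
  have hs : tsupport ζ ⊆ KB Ω d o (2 * R) :=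
    closure_minimal (fun y hy => by_contra fun h => hy (hz y h)) hC.isClosed
  have hd : ∀ y ∈ Ω, ∀ z ∈ Ω, |ζ y - ζ z| ≤ ‖y - z‖ / r + d y z / R := by
    intro y hy z hz'
    rw [hin y hy, hin z hz']
    refine (prod_lip _ _ _ _).trans (add_le_add (quo hr ?_) (quo hR ?_))
    · have := abs_norm_sub_norm_le (y - x) (z - x)
      rwa [sub_sub_sub_cancel_right] at this
    · have h1 := hM.tri o ho y hy z hz'
      have h2 := hM.tri o ho z hz' y hy
      rw [hM.symm z y] at h2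
      rw [abs_le]
      constructor <;> linarith
  have hl : ∀ y₀ ∈ Ω, ∀ ε > 0, ∃ s > 0, ∀ y ∈ ball y₀ s, ∀ z ∈ ball y₀ s,
      |ζ y - ζ z| ≤ (1 / r + (ρ y₀ + ε) / R) * ‖y - z‖ := by
    intro y₀ h0 ε hε
    obtain ⟨s, hs0, hsΩ, h⟩ := (hLoc n Ω ρ d hM).1 y₀ h0 ε hε
    refine ⟨s, hs0, fun y hy z hz' => (hd y (hsΩ hy) z (hsΩ hz')).trans ?_⟩
    have h1 := div_le_div_of_nonneg_right (h y hy z hz') hR.le
    have e : (1 / r + (ρ y₀ + ε) / R) * ‖y - z‖ = ‖y - z‖ / r + (ρ y₀ + ε) * ‖y - z‖ / R := by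
      ring
    rw [e]
    linarith
  obtain ⟨K, hK⟩ := hLip n Ω ζ _ hM.op hC (fun y hy => hy.1) hz fun y₀ h0 => by
    obtain ⟨s, hs0, h⟩ := hl y₀ h0 1 one_pos
    exact ⟨s, hs0, _, h⟩
  refine ⟨ζ, K, hK, hC.of_isClosed_subset (isClosed_tsupport ζ) hs, fun y hy => (hs hy).1,
    fun y => ?_, fun y hy => ?_, fun y hy => ?_, fun y hy => ?_⟩
  · by_cases h : y ∈ Ω
    · rw [hin y h]
      exact ⟨mul_nonneg (cl0 _) (cl0 _), mul_le_one₀ (cl1 _) (cl0 _) (cl1 _)⟩
    · rw [hout y h]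
      exact ⟨le_rfl, zero_le_one⟩
  · have h1 : ‖y - x‖ / r ≤ 1 := (div_le_one hr).2 (mem_ball_iff_norm.1 hy.1).le
    have h2 : d o y / R ≤ 1 := (div_le_one hR).2 hy.2.2
    rw [hin y hy.2.1, cl_one (by linarith), cl_one (by linarith), mul_one]
  · by_cases h : y ∈ Ω
    · have h2 : 2 * r ≤ ‖y - x‖ := not_lt.1 fun h3 => hy (mem_ball_iff_norm.2 h3)
      have h3 : 2 - ‖y - x‖ / r ≤ 0 := by
        rw [sub_nonpos, le_div_iff₀ hr]; exact h2
      rw [hin y h, cl_zero h3, zero_mul]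
    · exact hout y h
  · refine le_of_forall_pos_le_add fun ε hε => ?_
    obtain ⟨s, hs0, h⟩ := hl y hy (ε * R) (mul_pos hε hR)
    have e : 1 / r + ρ y / R + ε = 1 / r + (ρ y + ε * R) / R := by
      field_simp
      ring
    have hp := hM.pos y hy
    rw [e]
    refine norm_fderiv_le_of_lip' ℝ (by positivity) ?_
    filter_upwards [ball_mem_nhds y hs0] with z hz'
    exact h z hz' y (mem_ball_self hs0)

end Vale.Agent.P210
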