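import Vale.Agent.P210.Stm

open Set Filter Topology MeasureTheory Metric
open scoped ENNReal NNReal ContDiff

namespace Vale.Agent.P210

namespace DLbAux

variable {n : ℕ} {Ω : Set (E n)} {ρ h : E n → ℝ}

theorem cont_at (hu : UG Ω ρ h) {x : E n} (hx : x ∈ Ω) : ContinuousAt h x := by
  refine tendsto_iff_norm_sub_tendsto_zero.2
    (squeeze_zero' (Eventually.of_forall fun _ => norm_nonneg _) (hu x hx 1 one_pos) ?_)
  have : Tendsto (fun y : E n => (ρ x + 1) * ‖y - x‖) (𝓝 x) (𝓝 ((ρ x + 1) * ‖x - x‖)) :=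
    Continuous.tendsto (by fun_prop) x
  simpa using this

theorem slope_lt (hu : UG Ω ρ h) {γ : ℝ → E n} (hγ : ContDiff ℝ 1 γ) {t r : ℝ} (ht : γ t ∈ Ω)
    (hr : ρ (γ t) * ‖deriv γ t‖ < r) : ∀ᶠ z in 𝓝[>] t, slope (h ∘ γ) t z < r := by
  have a1 : Tendsto (fun ε : ℝ => (ρ (γ t) + ε) * ‖deriv γ t‖) (𝓝[>] 0)
      (𝓝 ((ρ (γ t) + 0) * ‖deriv γ t‖)) :=
    Tendsto.mono_left (Continuous.tendsto (by fun_prop) 0) nhdsWithin_le_nhds
  rw [add_zero] at a1
  obtain ⟨ε, e1, e0⟩ := ((a1.eventually (gt_mem_nhds hr)).and self_mem_nhdsWithin).exists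
  have a2 := (hasDerivAt_iff_tendsto_slope_left_right.1
    (hγ.differentiable one_ne_zero t).hasDerivAt).2
  have a3 := (a2.norm.const_mul (ρ (γ t) + ε)).eventually (gt_mem_nhds e1)
  have a4 := ((hγ.continuous.tendsto t).eventually (hu _ ht ε e0)).filter_mono
    (nhdsWithin_le_nhds (s := Ioi t))
  filter_upwards [a3, a4, self_mem_nhdsWithin] with z z1 z2 z3
  have z4 : 0 < (z - t)⁻¹ := inv_pos.2 (sub_pos.2 z3)
  refine lt_of_le_of_lt ?_ z1
  rw [slope, slope, vsub_eq_sub, vsub_eq_sub, norm_smul, Real.norm_of_nonneg z4.le, smul_eq_mul,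
    mul_left_comm]
  exact mul_le_mul_of_nonneg_left ((le_abs_self _).trans z2) z4.le

theorem curve (hc : ContinuousOn ρ Ω) (h0 : ∀ y, 0 ≤ ρ y) (hu : UG Ω ρ h) {γ : ℝ → E n}
    (hγ : ContDiff ℝ 1 γ) (hm : MapsTo γ (Icc 0 1) Ω) : ENNReal.ofReal (h (γ 1) - h (γ 0)) ≤
      ∫⁻ t in Icc (0 : ℝ) 1, ENNReal.ofReal (ρ (γ t) * ‖deriv γ t‖) := by
  have c1 : ContinuousOn (fun t => ρ (γ t) * ‖deriv γ t‖) (Icc 0 1) :=
    (hc.comp hγ.continuous.continuousOn hm).mul (hγ.continuous_deriv le_rfl).norm.continuousOn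
  obtain ⟨φ, c2, c3⟩ : ∃ φ : ℝ → ℝ, Continuous φ ∧
      ∀ t ∈ Icc (0 : ℝ) 1, φ t = ρ (γ t) * ‖deriv γ t‖ :=
    ⟨IccExtend zero_le_one (domRestrict (Icc 0 1) fun t => ρ (γ t) * ‖deriv γ t‖),
      (continuousOn_iff_continuous_domRestrict.1 c1).Icc_extend', fun t ht => IccExtend_of_mem _ _ ht⟩
  have d1 : ∀ t, HasDerivAt (fun u => h (γ 0) + ∫ s in (0 : ℝ)..u, φ s) (φ t) t := fun t =>
    (intervalIntegral.integral_hasDerivAt_right (c2.intervalIntegrable _ _)
      (c2.stronglyMeasurableAtFilter _ _) c2.continuousAt).const_add _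
  have k := image_le_of_liminf_slope_right_le_deriv_boundary (f := h ∘ γ) (a := 0) (b := 1)
    (B := fun u => h (γ 0) + ∫ s in (0 : ℝ)..u, φ s) (B' := φ)
    (fun t ht => ((cont_at hu (hm ht)).comp hγ.continuous.continuousAt).continuousWithinAt)
    (by simp) (fun t _ => (d1 t).continuousAt.continuousWithinAt)
    (fun t _ => (d1 t).hasDerivWithinAt)
    (fun t ht r hr => (slope_lt hu hγ (hm (Ico_subset_Icc_self ht))
      (c3 t (Ico_subset_Icc_self ht) ▸ hr)).frequently) (right_mem_Icc.2 zero_le_one)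
  have k2 : h (γ 1) - h (γ 0) ≤ ∫ t in Icc (0 : ℝ) 1, ρ (γ t) * ‖deriv γ t‖ := by
    rw [← setIntegral_congr_fun measurableSet_Icc c3, integral_Icc_eq_integral_Ioc,
      ← intervalIntegral.integral_of_le zero_le_one]
    exact sub_le_iff_le_add'.2 k
  refine (ENNReal.ofReal_le_ofReal k2).trans (le_of_eq ?_)
  exact ofReal_integral_eq_lintegral_ofReal (c1.integrableOn_compact isCompact_Icc)
    (Eventually.of_forall fun t => mul_nonneg (h0 _) (norm_nonneg _))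

end DLbAux

theorem pfDLb (hDSeg : DSegS) : DLbS := by
  intro n Ω w h _ hw hu x y
  have a : ∀ x y, ENNReal.ofReal (h y - h x) ≤ arc Ω (conf w) x y := fun x y => by
    refine le_iInf fun γ => le_iInf fun hγ => le_iInf fun h0 => le_iInf fun h1 =>
      le_iInf fun hm => ?_
    rw [(hDSeg n Ω w).1 γ, ← h0, ← h1]
    exact DLbAux.curve (ρ := fun y => Real.exp (w y)) hw.rexp (fun _ => (Real.exp_pos _).le) hu
      hγ hm
  have b : ∀ (p : ℕ → E n) (N : ℕ), ENNReal.ofReal (h (p N) - h (p 0)) ≤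
      ∑ i ∈ Finset.range N, arc Ω (conf w) (p i) (p (i + 1)) := fun p N => by
    induction N with
    | zero => simp
    | succ N ih =>
      rw [Finset.sum_range_succ, ← sub_add_sub_cancel' (h (p N)) (h (p 0)) (h (p (N + 1)))]
      exact ENNReal.ofReal_add_le.trans (add_le_add ih (a _ _))
  refine le_iInf fun N => le_iInf fun p => le_iInf fun h0 => le_iInf fun h1 => ?_
  rw [← h0, ← h1]
  exact b p N

end Vale.Agent.P210
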