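import Vale.Agent.P210.Stm

open Set Filter Topology MeasureTheory Metric
open scoped ENNReal NNReal ContDiff

namespace Vale.Agent.P210

namespace DSegAux

theorem sq_conf {n : ℕ} (w : E n → ℝ) (z v : E n) :
    Real.sqrt (∑ i, ∑ j, conf w z i j * v i * v j) = Real.exp (w z) * ‖v‖ := by
  have e : ∑ i, ∑ j, conf w z i j * v i * v j = (Real.exp (w z) * ‖v‖) ^ 2 := by
    rw [mul_pow, EuclideanSpace.real_norm_sq_eq, Finset.mul_sum]
    refine Finset.sum_congr rfl fun i _ => ?_
    rw [Finset.sum_eq_single i]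
    · simp only [conf, Matrix.smul_apply, Matrix.one_apply_eq, smul_eq_mul, mul_one]
      rw [two_mul, Real.exp_add]
      ring
    · intro j _ hj
      simp only [conf, Matrix.smul_apply, Matrix.one_apply_ne hj.symm, smul_zero, zero_mul]
    · intro hi
      exact absurd (Finset.mem_univ i) hi
  rw [e, Real.sqrt_sq (by positivity)]

theorem len_conf {n : ℕ} (w : E n → ℝ) (γ : ℝ → E n) : len (conf w) γ =
    ∫⁻ t in Icc (0 : ℝ) 1, ENNReal.ofReal (Real.exp (w (γ t)) * ‖deriv γ t‖) := by
  unfold len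
  simp only [sq_conf]

theorem der {n : ℕ} (x v : E n) (t : ℝ) : deriv (fun s : ℝ => x + s • v) t = v := by
  have h : HasDerivAt (fun s : ℝ => x + s • v) ((1 : ℝ) • v) t :=
    ((hasDerivAt_id t).smul_const v).const_add x
  rw [h.deriv, one_smul]

end DSegAux

theorem pfDSeg : DSegS := by
  intro n Ω w
  refine ⟨DSegAux.len_conf w, fun x y hs => ?_⟩
  have h1 : ContDiff ℝ 1 (fun s : ℝ => x + s • (y - x)) :=
    contDiff_const.add (contDiff_id.smul contDiff_const)
  have h2 : MapsTo (fun s : ℝ => x + s • (y - x)) (Icc 0 1) Ω := fun s hs' => by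
    apply hs
    rw [segment_eq_image']
    exact ⟨s, hs', rfl⟩
  unfold arc
  refine iInf_le_of_le (fun s : ℝ => x + s • (y - x)) (iInf_le_of_le h1
    (iInf_le_of_le (by simp) (iInf_le_of_le (by simp) (iInf_le_of_le h2 ?_))))
  rw [DSegAux.len_conf]
  simp only [DSegAux.der, le_refl]

end Vale.Agent.P210
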