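import Vale.Agent.P210.Stm

open Set Filter Topology MeasureTheory Metric
open scoped ENNReal NNReal ContDiff

namespace Vale.Agent.P210

namespace DTriAux

variable {n : ℕ} (Ω : Set (E n)) (g : E n → Matrix (Fin n) (Fin n) ℝ)

theorem rdist_le {x y : E n} (N : ℕ) (p : ℕ → E n) (h0 : p 0 = x) (hN : p N = y) :
    rdist Ω g x y ≤ ∑ i ∈ Finset.range N, arc Ω g (p i) (p (i + 1)) :=
  iInf_le_of_le N (iInf_le_of_le p (iInf_le_of_le h0 (iInf_le_of_le hN le_rfl)))

theorem lint_rev (F : ℝ → ℝ≥0∞) :
    ∫⁻ t in Icc (0 : ℝ) 1, F (1 - t) = ∫⁻ t in Icc (0 : ℝ) 1, F t := by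
  have h := (Measure.measurePreserving_sub_left (volume : Measure ℝ) 1).setLIntegral_comp_preimage_emb
    (Homeomorph.subLeft (1 : ℝ)).measurableEmbedding F (Icc 0 1)
  have e : (fun t : ℝ => 1 - t) ⁻¹' Icc 0 1 = Icc 0 1 := by
    ext t
    simp only [mem_preimage, mem_Icc]
    constructor <;> rintro ⟨a, b⟩ <;> constructor <;> linarith
  rw [e] at h
  exact h

theorem len_rev (γ : ℝ → E n) : len g (fun t => γ (1 - t)) = len g γ := by
  unfold len
  rw [← lint_rev fun t => ENNReal.ofReal
    (Real.sqrt (∑ i, ∑ j, g (γ t) i j * deriv γ t i * deriv γ t j))]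
  refine lintegral_congr fun t => ?_
  rw [deriv_comp_const_sub]
  simp

theorem arc_le (x y : E n) : arc Ω g x y ≤ arc Ω g y x := by
  refine le_iInf fun γ => le_iInf fun h1 => le_iInf fun h2 => le_iInf fun h3 =>
    le_iInf fun h4 => ?_
  rw [← len_rev g γ]
  refine iInf_le_of_le (fun t => γ (1 - t)) (iInf_le_of_le
    (h1.comp (contDiff_const.sub contDiff_id)) (iInf_le_of_le (by simpa using h3)
    (iInf_le_of_le (by simpa using h2) (iInf_le_of_le (fun t ht => h4 ?_) le_rfl))))
  exact ⟨by linarith [ht.2], by linarith [ht.1]⟩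

theorem symm_le (x y : E n) : rdist Ω g x y ≤ rdist Ω g y x := by
  refine le_iInf fun N => le_iInf fun p => le_iInf fun h0 => le_iInf fun hN => ?_
  refine (rdist_le Ω g N (fun i => p (N - i)) (by simpa using hN) (by simpa using h0)).trans ?_
  rw [← Finset.sum_range_reflect (fun i => arc Ω g (p i) (p (i + 1))) N]
  refine Finset.sum_le_sum fun i hi => ?_
  have hi' := Finset.mem_range.1 hi
  rw [show N - 1 - i + 1 = N - i by omega, show N - 1 - i = N - (i + 1) by omega]
  exact arc_le Ω g _ _

theorem tri (x y z : E n) : rdist Ω g x z ≤ rdist Ω g x y + rdist Ω g y z := by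
  conv_rhs => unfold rdist
  simp only [ENNReal.iInf_add, ENNReal.add_iInf, le_iInf_iff]
  intro N' p' h0' hN' N p h0 hN
  refine (rdist_le Ω g (N + N') (fun i => if i ≤ N then p i else p' (i - N)) (by simpa using h0)
    ?_).trans (le_of_eq ?_)
  · split_ifs with h
    · obtain rfl : N' = 0 := by omega
      rw [add_zero, hN, ← h0', hN']
    · rw [Nat.add_sub_cancel_left, hN']
  · rw [Finset.sum_range_add]
    congr 1
    · refine Finset.sum_congr rfl fun i hi => ?_
      have hi' := Finset.mem_range.1 hi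
      rw [if_pos hi'.le, if_pos (by omega)]
    · refine Finset.sum_congr rfl fun i _ => ?_
      have e : (if N + i ≤ N then p (N + i) else p' (N + i - N)) = p' i := by
        split_ifs with h
        · obtain rfl : i = 0 := by omega
          rw [add_zero, hN, h0']
        · rw [Nat.add_sub_cancel_left]
      rw [e, if_neg (by omega), show N + i + 1 - N = i + 1 by omega]

end DTriAux

theorem pfDTri : DTriS := by
  intro n Ω g
  refine ⟨fun x => le_antisymm ?_ zero_le, DTriAux.tri Ω g,
    fun x y => le_antisymm (DTriAux.symm_le Ω g x y) (DTriAux.symm_le Ω g y x), fun x y => ?_⟩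
  · simpa using DTriAux.rdist_le Ω g 0 (fun _ => x) rfl rfl
  · simpa using DTriAux.rdist_le Ω g 1 (fun k => if k = 0 then x else y) (x := x) (y := y)
      (by simp) (by simp)

end Vale.Agent.P210
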