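import Vale.Agent.P210.Stm

open Set Filter Topology MeasureTheory Metric
open scoped ENNReal NNReal ContDiff

namespace Vale.Agent.P210

namespace DilAux

theorem scale {n : ℕ} (g : E n → ℝ≥0∞) (hg : Measurable g) (x : E n) (t : ℝ) (ht : 0 < t) :
    ∫⁻ y, g (x + t • (y - x)) =
      ENNReal.ofReal ((t ^ Module.finrank ℝ (E n))⁻¹) * ∫⁻ y, g y := by
  have h1 : ∫⁻ y, g (x + t • (y - x)) = ∫⁻ z, g (x + t • z) :=
    lintegral_sub_right_eq_self (μ := (volume : Measure (E n))) (fun z => g (x + t • z)) x
  have hm : Measurable (fun z : E n => g (x + z)) := hg.comp (measurable_const_add x)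
  have h2 : ∫⁻ z, g (x + t • z) =
      ∫⁻ z, g (x + z) ∂(Measure.map (fun z : E n => t • z) volume) :=
    (lintegral_map hm (measurable_const_smul t)).symm
  have h3 : ∫⁻ z, g (x + z) = ∫⁻ z, g z :=
    lintegral_add_left_eq_self (μ := (volume : Measure (E n))) g x
  rw [h1, h2, Measure.map_addHaar_smul volume ht.ne', lintegral_smul_measure, h3,
    abs_of_pos (inv_pos.2 (pow_pos ht _)), smul_eq_mul]

theorem vol {n : ℕ} (x : E n) (t R : ℝ) (ht : 0 < t) :
    volume (ball x (t * R)) = ENNReal.ofReal (t ^ Module.finrank ℝ (E n)) * volume (ball x R) := by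
  rw [Measure.addHaar_ball_mul_of_pos volume x ht R, Measure.addHaar_ball_center volume x R]

end DilAux

theorem pfDil : DilS := by
  intro n f x t R M hf ht hR h
  have hg : Measurable ((ball x (t * R)).indicator f) := hf.indicator measurableSet_ball
  have key := DilAux.scale _ hg x t ht
  rw [lintegral_indicator measurableSet_ball] at key
  have e : (fun y => (ball x (t * R)).indicator f (x + t • (y - x))) =
      (ball x R).indicator (fun y => f (x + t • (y - x))) := by
    funext y
    have hiff : x + t • (y - x) ∈ ball x (t * R) ↔ y ∈ ball x R := by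
      rw [mem_ball_iff_norm, mem_ball_iff_norm, add_sub_cancel_left, norm_smul,
        Real.norm_eq_abs, abs_of_pos ht]
      exact mul_lt_mul_iff_right₀ ht
    by_cases hy : y ∈ ball x R
    · rw [indicator_of_mem hy, indicator_of_mem (hiff.2 hy)]
    · rw [indicator_of_notMem hy, indicator_of_notMem (fun h' => hy (hiff.1 h'))]
  rw [e, lintegral_indicator measurableSet_ball] at key
  rw [key]
  have hp : 0 < t ^ Module.finrank ℝ (E n) := pow_pos ht _
  refine (mul_le_mul_right h _).trans (le_of_eq ?_)
  rw [DilAux.vol x t R ht, ← mul_assoc, ← mul_assoc, ← ENNReal.ofReal_mul (inv_pos.2 hp).le,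
    inv_mul_cancel₀ hp.ne', ENNReal.ofReal_one, one_mul]

end Vale.Agent.P210
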