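import Vale.Agent.P210.Stm

open Set Filter Topology MeasureTheory Metric
open scoped ENNReal NNReal ContDiff

namespace Vale.Agent.P210

namespace DivAux

theorem sumZ {f : ℤ → ℝ} (h0 : ∀ k, 0 ≤ f k) {M : ℝ} {k₀ : ℤ}
    (hs : ∀ k ≤ k₀, f k ≤ M * (2 : ℝ) ^ k) (h : Summable fun i : ℕ => f i) : Summable f := by
  refine Summable.of_nat_of_neg h ?_
  refine Summable.of_norm_bounded_eventually_nat (g := fun i : ℕ => M * (1 / 2 : ℝ) ^ i)
    (summable_geometric_two.mul_left M) ?_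
  filter_upwards [eventually_ge_atTop k₀.natAbs] with i hi
  rw [Real.norm_eq_abs, abs_of_nonneg (h0 _)]
  refine (hs _ (by omega)).trans (le_of_eq ?_)
  rw [zpow_neg, zpow_natCast, one_div, inv_pow]

theorem big {n : ℕ} (hn : 0 < n) (o : E n) {V : ℝ≥0∞} (hV : V ≠ ⊤)
    (h : ∀ k : ℤ, volume (ball o ((2 : ℝ) ^ k)) ≤
      volume (ball o ((2 : ℝ) ^ k)) / ENNReal.ofReal 2 + V) : False := by
  have hc : 0 < (volume (ball (0 : E n) 1)).toReal :=
    ENNReal.toReal_pos (measure_ball_pos _ _ one_pos).ne' measure_ball_lt_top.ne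
  obtain ⟨k, hk⟩ := pow_unbounded_of_one_lt
    (2 * V.toReal / (volume (ball (0 : E n) 1)).toReal) (one_lt_two (α := ℝ))
  have h1 := h k
  have hf : volume (ball o ((2 : ℝ) ^ (k : ℤ))) ≠ ⊤ := measure_ball_lt_top.ne
  have hd : volume (ball o ((2 : ℝ) ^ (k : ℤ))) / ENNReal.ofReal 2 ≠ ⊤ :=
    ENNReal.div_ne_top hf (by simp)
  have h2 := ENNReal.toReal_mono (ENNReal.add_ne_top.2 ⟨hd, hV⟩) h1
  rw [ENNReal.toReal_add hd hV, ENNReal.toReal_div, ENNReal.toReal_ofReal (by norm_num),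
    Measure.addHaar_ball_of_pos _ _ (by positivity), ENNReal.toReal_mul,
    ENNReal.toReal_ofReal (by positivity), finrank_euclideanSpace_fin, zpow_natCast] at h2
  have h3 : (2 : ℝ) ^ k ≤ ((2 : ℝ) ^ k) ^ n :=
    le_self_pow₀ (one_le_pow₀ (by norm_num)) hn.ne'
  rw [div_lt_iff₀ hc] at hk
  nlinarith [mul_le_mul_of_nonneg_right h3 hc.le]

end DivAux

open DivAux in
theorem pfDiv (hMark : MarkS) (hProper : ProperS) : DivS := by
  intro n q hn hq Ω ρ d a hM hfin hab o ho ⟨M, k₀, hsm⟩ hsum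
  obtain ⟨C, -, hC⟩ := hMark n q hq
  have a0 : ∀ k, 0 ≤ a o k := fun k =>
    le_trans (Real.rpow_nonneg (div_nonneg ENNReal.toReal_nonneg (by positivity)) _) (hab o k)
  have hZ : Summable (a o) := sumZ a0 hsm hsum
  have hV : volume (KB Ω d o (2 * (C * (∑' k, a o k + 1)))) ≠ ⊤ :=
    (hProper n Ω ρ d hM o ho _).measure_lt_top.ne
  refine big hn o hV fun k => ?_
  have hi : Function.Injective fun i : ℕ => k - (i : ℤ) := fun i j h => by
    dsimp only at h
    omega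
  have hs : Summable fun i : ℕ => a o (k - i) := hZ.comp_injective hi
  have hT : ∑' i : ℕ, a o (k - i) ≤ ∑' k, a o k :=
    hs.tsum_le_tsum_of_inj _ hi (fun c _ => a0 c) (fun _ => le_rfl) hZ
  have h1 := hC Ω ρ d hM hfin o ho k (fun i => a o (k - i)) _ 2 two_pos (fun i => hab o _) hs hT
  refine le_trans (measure_mono fun y hy => ?_)
    ((measure_union_le _ _).trans (add_le_add h1 le_rfl))
  by_cases h : y ∈ Ω ∧ d o y ≤ 2 * (C * (∑' k, a o k + 1))
  · exact Or.inr h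
  · exact Or.inl ⟨hy, h⟩

end Vale.Agent.P210
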