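import Vale.Agent.P210.Stm

open Set Filter Topology MeasureTheory Metric
open scoped ENNReal NNReal ContDiff

namespace Vale.Agent.P210

namespace FinAAux

theorem th (n : ℕ) : ∃ θ : E n → ℝ, Function.Injective θ ∧ ∀ y, 0 < θ y ∧ θ y < 1 :=
  ⟨fun y => Real.sigmoid (embeddingReal (E n) y),
    Real.sigmoid_strictMono.injective.comp (measurableEmbedding_embeddingReal (E n)).injective,
    fun _ => ⟨Real.sigmoid_pos _, Real.sigmoid_lt_one _⟩⟩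

end FinAAux

theorem pfFinA (hFinA1 : FinA1S) (hFinA2 : FinA2S) : FinAS := by
  intro n
  obtain ⟨θ, h1, h2⟩ := FinAAux.th n
  refine ⟨θ, fun m Ω A L a P Φ σ l hΩ hL hP hS hl x₀ hx => ?_⟩
  have key : ∃ S : Finset (ℤ × E n), S.card ≤ m + 1 ∧ ∀ᶠ x in 𝓝 x₀, labF θ Φ L l x ∈ S := by
    by_cases h : Int.fract (Φ x₀ / L - 3) = 0
    · exact hFinA2 n m θ Ω A L a P Φ σ l h2 hΩ hL hP hS hl x₀ hx h
    · exact hFinA1 n m θ Ω A L a P Φ σ l h1 hΩ hL hP hS hl x₀ hx h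
  obtain ⟨S, hc, hS'⟩ := key
  obtain ⟨r, hr, h⟩ := Metric.eventually_nhds_iff_ball.1 hS'
  exact ⟨r, hr, S, hc, h⟩

end Vale.Agent.P210
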