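import Vale.Agent.P210.Stm

open Set Filter Topology MeasureTheory Metric
open scoped ENNReal NNReal ContDiff

namespace Vale.Agent.P210

namespace FinA1Aux

end FinA1Aux

theorem pfFinA1 (hPos : PosS) : FinA1S := by
  classical
  intro n m θ Ω A L a P Φ σ l hθ hΩ hL hP hS hl x₀ hx₀ hfr
  have hpos := hPos n Ω A L a P Φ σ hL hP hS x₀ hx₀
  have hc : ContinuousAt (fun x => Φ x / L - 3) x₀ :=
    ((hP.cont.continuousAt (hΩ.mem_nhds hx₀)).div_const L).sub continuousAt_const
  unfold labF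
  generalize hφ : (fun x => Φ x / L - 3) = φ at hc
  have e : ∀ x, Φ x / L - 3 = φ x := fun x => congrFun hφ x
  simp only [e] at hfr hpos ⊢
  obtain ⟨j, hj⟩ : ∃ j, j = ⌊φ x₀⌋ := ⟨_, rfl⟩
  rw [← hj] at hpos
  have f0 : Int.fract (φ x₀) = φ x₀ - j := by rw [hj]; rfl
  have h1 : (j : ℝ) < φ x₀ := by
    have := lt_of_le_of_ne (Int.fract_nonneg (φ x₀)) hfr.symm
    linarith
  have h2 : φ x₀ < j + 1 := by rw [hj]; exact Int.lt_floor_add_one _
  obtain ⟨S0, hS0, hS1⟩ := hl.few (j + 1) x₀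
  refine ⟨insert (j, l j (Function.invFun θ (φ x₀ - j)))
    (S0.image fun b => if θ b ≤ φ x₀ - j then (j + 1, b) else (j, l j b)), ?_, ?_⟩
  · exact (Finset.card_insert_le _ _).trans
      (Nat.add_le_add_right (Finset.card_image_le.trans hS0) 1)
  have hc' : ContinuousAt (fun x => φ x - j) x₀ := hc.sub continuousAt_const
  have e1 : ∀ᶠ x in 𝓝 x₀, ∀ b ∈ S0, (θ b < φ x₀ - j → θ b < φ x - j) ∧
      (φ x₀ - j < θ b → φ x - j < θ b) := by
    rw [Filter.eventually_all_finset]
    intro b _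
    refine Eventually.and ?_ ?_
    · by_cases h : θ b < φ x₀ - j
      · exact (hc'.eventually_const_lt h).mono fun x hx _ => hx
      · exact Eventually.of_forall fun x h' => absurd h' h
    · by_cases h : φ x₀ - j < θ b
      · exact (hc'.eventually_lt_const h).mono fun x hx _ => hx
      · exact Eventually.of_forall fun x h' => absurd h' h
  filter_upwards [e1, hc.eventually_const_lt h1, hc.eventually_lt_const h2,
    ball_mem_nhds x₀ hpos] with x g1 g2 g3 g4
  have fl : ⌊φ x⌋ = j := Int.floor_eq_iff.2 ⟨g2.le, g3⟩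
  have fr : Int.fract (φ x) = φ x - j := by rw [← fl]; rfl
  have hb := hS1 x g4
  rw [fl, fr]
  generalize l (j + 1) x = b at hb
  obtain ⟨g5, g6⟩ := g1 b hb
  rw [Finset.mem_insert, Finset.mem_image]
  rcases lt_trichotomy (θ b) (φ x₀ - j) with h | h | h
  · exact Or.inr ⟨b, hb, by rw [if_pos h.le, if_pos (g5 h).le]⟩
  · by_cases h' : θ b ≤ φ x - j
    · exact Or.inr ⟨b, hb, by rw [if_pos h.le, if_pos h']⟩
    · left
      rw [if_neg h', ← h, Function.leftInverse_invFun hθ b]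
  · exact Or.inr ⟨b, hb, by rw [if_neg (not_le.2 h), if_neg (not_le.2 (g6 h))]⟩

end Vale.Agent.P210
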