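import Vale.Agent.P210.Stm

open Set Filter Topology MeasureTheory Metric
open scoped ENNReal NNReal ContDiff

namespace Vale.Agent.P210

namespace FinA2Aux

theorem lab_ge {n : ℕ} (θ Φ : E n → ℝ) (L : ℝ) (l : ℤ → E n → E n) (x : E n) (j : ℤ)
    (h1 : (j : ℝ) ≤ Φ x / L - 3) (h2 : Φ x / L - 3 < j + 1)
    (h3 : Φ x / L - 3 - j < θ (l (j + 1) x)) :
    labF θ Φ L l x = (j, l j (l (j + 1) x)) := by
  have hf : ⌊Φ x / L - 3⌋ = j := Int.floor_eq_iff.2 ⟨h1, h2⟩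
  unfold labF
  rw [Int.fract, hf, if_neg (not_le.2 h3)]

theorem lab_lt {n : ℕ} (θ Φ : E n → ℝ) (L : ℝ) (l : ℤ → E n → E n) (x : E n) (j : ℤ)
    (h1 : (j : ℝ) - 1 ≤ Φ x / L - 3) (h2 : Φ x / L - 3 < j)
    (h3 : θ (l j x) ≤ Φ x / L - 3 - j + 1) :
    labF θ Φ L l x = (j, l j x) := by
  have hf : ⌊Φ x / L - 3⌋ = j - 1 := by
    refine Int.floor_eq_iff.2 ⟨?_, ?_⟩
    · push_cast; exact h1
    · push_cast; linarith
  unfold labF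
  rw [Int.fract, hf, sub_add_cancel, if_pos]
  push_cast
  linarith

end FinA2Aux

open FinA2Aux in
theorem pfFinA2 (hPos : PosS) : FinA2S := by
  classical
  intro n m θ Ω A L a P Φ σ l hθ hΩ hL hP hS hl x₀ hx₀ hfr
  have hs2 := hPos n Ω A L a P Φ σ hL hP hS x₀ hx₀
  obtain ⟨j, hj⟩ : ∃ j : ℤ, j = ⌊Φ x₀ / L - 3⌋ := ⟨_, rfl⟩
  rw [← hj] at hs2
  have hval : Φ x₀ / L - 3 = j := by
    rw [Int.fract, ← hj] at hfr
    linarith
  have hs1 : σ (j + 1 + 1) x₀ ≤ σ (j + 1) x₀ := hS.anti _ _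
  obtain ⟨S1, -, hS1⟩ := hl.few (j + 1) x₀
  obtain ⟨S2, hc2, hS2⟩ := hl.few j x₀
  have hΦ : ContinuousAt Φ x₀ := hP.cont.continuousAt (hΩ.mem_nhds hx₀)
  have hφ : Tendsto (fun x => Φ x / L - 3) (𝓝 x₀) (𝓝 (j : ℝ)) := by
    rw [← hval]
    exact (hΦ.div_const L).sub continuousAt_const
  refine ⟨S2.image (fun v => (j, v)), (Finset.card_image_le).trans (hc2.trans (Nat.le_succ m)), ?_⟩
  have e1 : ∀ᶠ x in 𝓝 x₀, Φ x / L - 3 < j + 1 := hφ.eventually (gt_mem_nhds (by linarith))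
  have e2 : ∀ᶠ x in 𝓝 x₀, (j : ℝ) - 1 < Φ x / L - 3 := hφ.eventually (lt_mem_nhds (by linarith))
  have e3 : ∀ᶠ x in 𝓝 x₀, x ∈ ball x₀ (σ (j + 1 + 1) x₀) := ball_mem_nhds x₀ hs2
  have e4 : ∀ᶠ x in 𝓝 x₀, x ∈ ball x₀ (σ (j + 1) x₀ / 2) := ball_mem_nhds x₀ (by linarith)
  have e5 : ∀ᶠ x in 𝓝 x₀, ∀ v ∈ S1, Φ x / L - 3 < j + θ v :=
    (Filter.eventually_all_finset S1).2 fun v _ =>
      hφ.eventually (gt_mem_nhds (by linarith [(hθ v).1]))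
  have e6 : ∀ᶠ x in 𝓝 x₀, ∀ v ∈ S2, (j : ℝ) - 1 + θ v < Φ x / L - 3 :=
    (Filter.eventually_all_finset S2).2 fun v _ =>
      hφ.eventually (lt_mem_nhds (by linarith [(hθ v).2]))
  filter_upwards [e1, e2, e3, e4, e5, e6] with x h1 h2 h3 h4 h5 h6
  rw [mem_ball, dist_eq_norm] at h4
  rcases le_or_gt (j : ℝ) (Φ x / L - 3) with hle | hlt
  · have hm : l (j + 1) x ∈ S1 := hS1 x h3
    rw [lab_ge θ Φ L l x j hle h1 (by linarith [h5 _ hm])]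
    refine Finset.mem_image_of_mem _ (hS2 _ ?_)
    rw [mem_ball, dist_eq_norm]
    have hn := hl.near (j + 1) x
    have hlp := (hS.lp (j + 1)).lip x x₀
    have ht : ‖l (j + 1) x - x₀‖ ≤ ‖l (j + 1) x - x‖ + ‖x - x₀‖ := norm_sub_le_norm_sub_add_norm_sub _ _ _
    linarith
  · have hm : l j x ∈ S2 := by
      refine hS2 x ?_
      rw [mem_ball, dist_eq_norm]
      linarith
    rw [lab_lt θ Φ L l x j h2.le hlt (by linarith [h6 _ hm])]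
    exact Finset.mem_image_of_mem _ hm

end Vale.Agent.P210
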