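import Vale.Agent.P210.Stm

open Set Filter Topology MeasureTheory Metric
open scoped ENNReal NNReal ContDiff

namespace Vale.Agent.P210

namespace FinBAux

lemma lab_bd (hPos : PosS) {n m : ℕ} {θ : E n → ℝ} {Ω : Set (E n)} {A L : ℝ}
    {a P : E n → ℤ → ℝ} {Φ : E n → ℝ} {σ : ℤ → E n → ℝ} {l : ℤ → E n → E n} (hL : 0 < L)
    (hP : Pot Ω A a P Φ) (hS : Sig P L σ) (hl : Lev m σ l) {x : E n} (hx : x ∈ Ω)
    {i : ℤ} {c : E n} (h : labF θ Φ L l x = (i, c)) :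
    0 < σ i x ∧ ‖c - x‖ ≤ 21 / 100 * σ i x ∧ Φ x ≤ (i + 4) * L := by
  have h0 := hPos n Ω A L a P Φ σ hL hP hS x hx
  have hf := Int.lt_floor_add_one (Φ x / L - 3)
  set j := ⌊Φ x / L - 3⌋ with hj
  have h1 := hS.anti (j + 1) x
  have h2 := hS.anti j x
  have h3 : Φ x ≤ (j + 4) * L := by
    rw [← div_le_iff₀ hL]
    linarith
  have h4 := hl.near (j + 1) x
  unfold labF at h
  rw [← hj] at h
  split_ifs at h
  · obtain ⟨rfl, rfl⟩ := Prod.mk.inj h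
    refine ⟨by linarith, by linarith, ?_⟩
    push_cast
    nlinarith
  · obtain ⟨rfl, rfl⟩ := Prod.mk.inj h
    refine ⟨by linarith, ?_, h3⟩
    have h5 := hl.near j (l (j + 1) x)
    have h6 := (hS.lp j).lip (l (j + 1) x) x
    have h7 := norm_sub_le_norm_sub_add_norm_sub (l j (l (j + 1) x)) (l (j + 1) x) x
    linarith

lemma near_bd {n : ℕ} {Ω : Set (E n)} {A t : ℝ} {a P : E n → ℤ → ℝ} {Φ : E n → ℝ}
    (hP : Pot Ω A a P Φ) {x y : E n} {k : ℤ} (h : ‖x - y‖ ≤ (2 : ℝ) ^ k) (ht : t ≤ P y k) :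
    t - 2 * A ≤ P x (k + 1) := by
  have hA : 0 ≤ A := (hP.a0 x k).trans (hP.a1 x k)
  have h2 : (0 : ℝ) < 2 ^ k := by positivity
  have h1 : A * ‖x - y‖ / (2 : ℝ) ^ k ≤ A := by
    rw [div_le_iff₀ h2]
    exact mul_le_mul_of_nonneg_left h hA
  have h3 := (abs_le.1 ((hP.lip x y k).trans h1)).1
  have h4 := hP.step x k
  have h5 := hP.a1 x (k + 1)
  linarith

lemma half (hPos : PosS) {n m : ℕ} {θ : E n → ℝ} {Ω : Set (E n)} {A L : ℝ}
    {a P : E n → ℤ → ℝ} {Φ : E n → ℝ} {σ : ℤ → E n → ℝ} {l : ℤ → E n → E n} (hL : 0 < L)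
    (hP : Pot Ω A a P Φ) (hS : Sig P L σ) (hl : Lev m σ l) {x y : E n} (hx : x ∈ Ω) (hy : y ∈ Ω)
    {i : ℤ} {c : E n} (h1 : labF θ Φ L l x = (i, c)) (h2 : labF θ Φ L l y = (i, c))
    (hxy : σ i y ≤ σ i x) : ∃ k : ℤ, ‖x - y‖ ≤ (2 : ℝ) ^ k ∧
      Φ x - P x (k + 1) ≤ 4 * L + 2 * A ∧ Φ y - P y (k + 1) ≤ 4 * L + 2 * A := by
  obtain ⟨a1, a2, a3⟩ := lab_bd hPos hL hP hS hl hx h1
  obtain ⟨-, b2, b3⟩ := lab_bd hPos hL hP hS hl hy h2
  obtain ⟨z, k, c1, c2⟩ := hS.wit i x a1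
  have d1 := norm_sub_le_norm_sub_add_norm_sub x c y
  rw [norm_sub_rev x c] at d1
  have d2 := norm_sub_le_norm_sub_add_norm_sub y x z
  rw [norm_sub_rev y x] at d2
  have d3 := norm_nonneg (x - z)
  have e1 := near_bd hP (x := x) (y := z) (k := k) (by linarith) c1
  have e2 := near_bd hP (x := y) (y := z) (k := k) (by linarith) c1
  exact ⟨k, by linarith, by linarith, by linarith⟩

end FinBAux

theorem pfFinB (hPos : PosS) : FinBS := by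
  intro n m θ Ω A L a P Φ σ l hL hP hS hl x hx y hy h
  rcases hc : labF θ Φ L l y with ⟨i, c⟩
  rw [hc] at h
  rcases le_total (σ i y) (σ i x) with h1 | h1
  · exact FinBAux.half hPos hL hP hS hl hx hy h hc h1
  · obtain ⟨k, a1, a2, a3⟩ := FinBAux.half hPos hL hP hS hl hy hx hc h h1
    exact ⟨k, by rwa [norm_sub_rev], a3, a2⟩

end Vale.Agent.P210
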