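import Vale.Agent.P210.Stm

open Set Filter Topology MeasureTheory Metric
open scoped ENNReal NNReal ContDiff

namespace Vale.Agent.P210

namespace GeoAux

theorem tele {f p : ℤ → ℝ} (h : ∀ k, p k - p (k + 1) = f (k + 1)) (K : ℤ) (D : ℕ) :
    p (K - D) - p K = ∑ j ∈ Finset.range D, f (K - j) := by
  induction D with
  | zero => simp
  | succ D ih =>
    have h1 := h (K - (D + 1 : ℕ))
    rw [show K - ((D + 1 : ℕ) : ℤ) + 1 = K - D by push_cast; ring] at h1
    rw [Finset.sum_range_succ, ← ih]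
    linarith

theorem pw (γ : ℝ) (j : ℕ) : ((2 : ℝ) ^ (-(j : ℤ))) ^ γ = ((2 : ℝ) ^ (-γ)) ^ j := by
  rw [← Real.rpow_intCast, ← Real.rpow_natCast, ← Real.rpow_mul (by norm_num),
    ← Real.rpow_mul (by norm_num)]
  congr 1
  push_cast
  ring

end GeoAux

theorem pfGeo : GeoS := by
  intro A γ κ N hγ hκ
  have r0 : (0 : ℝ) ≤ 2 ^ (-γ) := by positivity
  have r1 : (2 : ℝ) ^ (-γ) < 1 := Real.rpow_lt_one_of_one_lt_of_neg (by norm_num) (by linarith)
  have r2 : 0 < (1 - (2 : ℝ) ^ (-γ))⁻¹ := inv_pos.2 (by linarith)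
  refine ⟨N * |A| + κ * (1 - (2 : ℝ) ^ (-γ))⁻¹ + 1, by positivity, fun f p k K h h0 hA hL => ?_⟩
  have r3 : 0 ≤ N * |A| + κ * (1 - (2 : ℝ) ^ (-γ))⁻¹ := by positivity
  by_contra hn
  push Not at hn
  rcases le_total K k with hk | hk
  · have h1 := GeoAux.tele h k (k - K).toNat
    rw [show k - ((k - K).toNat : ℤ) = K by omega] at h1
    have h2 : 0 ≤ ∑ j ∈ Finset.range (k - K).toNat, f (k - j) := Finset.sum_nonneg fun _ _ => h0 _
    linarith
  have h1 := GeoAux.tele h K (K - k).toNat
  rw [show K - ((K - k).toNat : ℤ) = k by omega] at h1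
  have h2 : ∑ j ∈ Finset.range (K - k).toNat, f (K - j) ≤
      ∑ j ∈ Finset.range (K - k).toNat,
        (κ * ((2 : ℝ) ^ (-γ)) ^ j + if j ∈ Finset.range N then |A| else 0) := by
    refine Finset.sum_le_sum fun j hj => ?_
    have hj' := Finset.mem_range.1 hj
    have a0 : 0 ≤ κ * ((2 : ℝ) ^ (-γ)) ^ j := by positivity
    split_ifs with hN
    · linarith [hA (K - j), le_abs_self A]
    · have a1 := hn (K - j) (by omega) (by have := Finset.mem_range.not.1 hN; omega)
      rw [show K - j - K = -(j : ℤ) by ring, GeoAux.pw] at a1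
      linarith
  rw [Finset.sum_add_distrib, ← Finset.mul_sum, ← Finset.sum_filter, Finset.sum_const,
    nsmul_eq_mul] at h2
  have h3 := (summable_geometric_of_lt_one r0 r1).sum_le_tsum (Finset.range (K - k).toNat)
    fun _ _ => by positivity
  rw [tsum_geometric_of_lt_one r0 r1] at h3
  have h4 : (((Finset.range (K - k).toNat).filter (· ∈ Finset.range N)).card : ℝ) ≤ N := by
    have := Finset.card_le_card (s := (Finset.range (K - k).toNat).filter (· ∈ Finset.range N))
      (t := Finset.range N) fun j hj => (Finset.mem_filter.1 hj).2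
    rw [Finset.card_range] at this
    exact_mod_cast this
  have h5 := mul_le_mul_of_nonneg_left h3 hκ.le
  have h6 := mul_le_mul_of_nonneg_right h4 (abs_nonneg A)
  linarith

end Vale.Agent.P210
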