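import Vale.Agent.P210.Stm

open Set Filter Topology MeasureTheory Metric
open scoped ENNReal NNReal ContDiff

namespace Vale.Agent.P210

namespace HolAux

lemma key (n : ℕ) (q N V R w : ℝ) (hq : 1 < q) (hN : 0 ≤ N) (hR : 0 < R) (hw : 0 < w)
    (hV : w * (R / 2) ^ n ≤ V) :
    N ^ (1 / q) * V ^ (1 - 1 / q) ≤
      V * (((2 : ℝ) ^ n / w) ^ (1 / q) * (N / R ^ ((n : ℝ) - q)) ^ (1 / q) / R) := by
  have hq0 : 0 < q := by linarith
  have hV0 : 0 < V := lt_of_lt_of_le (by positivity) hV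
  have hq1 : 0 ≤ 1 / q := by positivity
  have h1 : (N / R ^ ((n : ℝ) - q)) ^ (1 / q) = N ^ (1 / q) * R / (R ^ n) ^ (1 / q) := by
    rw [Real.div_rpow hN (by positivity), Real.rpow_sub hR, Real.div_rpow (by positivity)
      (by positivity), Real.rpow_natCast, ← Real.rpow_mul hR.le, mul_one_div_cancel hq0.ne',
      Real.rpow_one]
    have : 0 < (R ^ n) ^ (1 / q) := by positivity
    field_simp
  have h2 : V = V ^ (1 - 1 / q) * V ^ (1 / q) := by
    rw [← Real.rpow_add hV0]; simp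
  have h3 : (R ^ n) ^ (1 / q) ≤ V ^ (1 / q) * ((2 : ℝ) ^ n / w) ^ (1 / q) := by
    rw [← Real.mul_rpow hV0.le (by positivity)]
    refine Real.rpow_le_rpow (by positivity) ?_ hq1
    rw [div_pow] at hV
    have h2n : (0 : ℝ) < 2 ^ n := by positivity
    calc R ^ n = (w * (R ^ n / 2 ^ n)) * (2 ^ n / w) := by field_simp
      _ ≤ V * (2 ^ n / w) := mul_le_mul_of_nonneg_right hV (by positivity)
  have h4 : 0 < (R ^ n) ^ (1 / q) := by positivity
  have h5 : 1 ≤ V ^ (1 / q) * ((2 : ℝ) ^ n / w) ^ (1 / q) / (R ^ n) ^ (1 / q) :=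
    (one_le_div h4).2 h3
  rw [h1]
  have h6 : V * (((2 : ℝ) ^ n / w) ^ (1 / q) * (N ^ (1 / q) * R / (R ^ n) ^ (1 / q)) / R) =
      N ^ (1 / q) * V ^ (1 - 1 / q) *
        (V ^ (1 / q) * ((2 : ℝ) ^ n / w) ^ (1 / q) / (R ^ n) ^ (1 / q)) := by
    generalize V ^ (1 - 1 / q) = a at h2
    generalize V ^ (1 / q) = b at h2
    rw [h2]
    field_simp
  rw [h6]
  exact le_mul_of_one_le_right (by positivity) h5

lemma meas {n : ℕ} (Ω : Set (E n)) (ρ : E n → ℝ) (ho : IsOpen Ω) (hc : ContinuousOn ρ Ω) :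
    Measurable (Ω.indicator ρ) := by
  classical
  have h := ContinuousOn.measurable_piecewise (s := Ω) (f := ρ) (g := fun _ => (0 : ℝ)) hc
    continuousOn_const ho.measurableSet
  have e : Ω.indicator ρ = Ω.piecewise ρ (fun _ => (0 : ℝ)) := by
    funext y
    by_cases hy : y ∈ Ω <;> simp [hy]
  rw [e]
  exact h

lemma nu_eq {n : ℕ} (Ω : Set (E n)) (ρ : E n → ℝ) (q : ℝ) (hq : 0 < q) (ho : IsOpen Ω)
    (hp : ∀ x ∈ Ω, 0 < ρ x) (s : Set (E n)) (hs : MeasurableSet s) :
    ∫⁻ y in s, ENNReal.ofReal (Ω.indicator ρ y) ^ q = nu Ω ρ q s := by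
  unfold nu
  rw [withDensity_apply _ hs, Measure.restrict_restrict hs, inter_comm,
    ← Measure.restrict_restrict ho.measurableSet, ← lintegral_indicator ho.measurableSet]
  refine lintegral_congr fun y => ?_
  by_cases hy : y ∈ Ω
  · simp only [indicator_of_mem hy]
    exact ENNReal.ofReal_rpow_of_pos (hp y hy)
  · simp only [indicator_of_notMem hy, ENNReal.ofReal_zero]
    exact ENNReal.zero_rpow_of_pos hq

end HolAux

theorem pfHol : HolS := by
  intro n q hq
  have hq0 : 0 < q := by linarith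
  have hw1 : volume (ball (0 : E n) 1) ≠ ⊤ := measure_ball_lt_top.ne
  have hw0 : 0 < (volume (ball (0 : E n) 1)).toReal :=
    ENNReal.toReal_pos (measure_ball_pos volume _ one_pos).ne' hw1
  refine ⟨((2 : ℝ) ^ n / (volume (ball (0 : E n) 1)).toReal) ^ (1 / q), by positivity, ?_⟩
  intro Ω ρ ho hc hp hfin x j r h1 h2
  have hR : (0 : ℝ) < (2 : ℝ) ^ j := by positivity
  have hr : 0 < r := lt_of_lt_of_le (by positivity) h1
  have hpq : q.HolderConjugate (Real.conjExponent q) := Real.HolderConjugate.conjExponent hq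
  have hf : Measurable fun y => ENNReal.ofReal (Ω.indicator ρ y) :=
    (HolAux.meas Ω ρ ho hc).ennreal_ofReal
  have H := ENNReal.lintegral_mul_le_Lp_mul_Lq (volume.restrict (ball x r)) hpq
    (f := fun y => ENNReal.ofReal (Ω.indicator ρ y)) (g := fun _ => 1) hf.aemeasurable
    aemeasurable_const
  simp only [Pi.mul_apply, mul_one, ENNReal.one_rpow, lintegral_const, one_mul,
    Measure.restrict_apply MeasurableSet.univ, univ_inter] at H
  rw [HolAux.nu_eq Ω ρ q hq0 ho hp _ measurableSet_ball] at H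
  have he : 1 / Real.conjExponent q = 1 - 1 / q := by
    rw [one_div, one_div]; exact hpq.one_sub_inv.symm
  rw [he] at H
  have hVt : volume (ball x r) ≠ ⊤ := measure_ball_lt_top.ne
  have hV : (volume (ball (0 : E n) 1)).toReal * ((2 : ℝ) ^ j / 2) ^ n ≤
      (volume (ball x r)).toReal := by
    rw [Measure.addHaar_ball_of_pos volume x hr, ENNReal.toReal_mul,
      ENNReal.toReal_ofReal (by positivity), finrank_euclideanSpace_fin, mul_comm]
    exact mul_le_mul_of_nonneg_right (pow_le_pow_left₀ (by positivity) h1 n) hw0.le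
  have K := HolAux.key n q (nu Ω ρ q (ball x ((2 : ℝ) ^ j))).toReal (volume (ball x r)).toReal
    ((2 : ℝ) ^ j) _ hq ENNReal.toReal_nonneg hR hw0 hV
  have hq1 : 0 ≤ 1 / q := by positivity
  have hq2 : 0 ≤ 1 - 1 / q := by
    have : 1 / q ≤ 1 := by rw [div_le_one hq0]; exact hq.le
    linarith
  refine H.trans ?_
  calc nu Ω ρ q (ball x r) ^ (1 / q) * volume (ball x r) ^ (1 - 1 / q)
      ≤ nu Ω ρ q (ball x ((2 : ℝ) ^ j)) ^ (1 / q) * volume (ball x r) ^ (1 - 1 / q) :=
        mul_le_mul_left (ENNReal.rpow_le_rpow (measure_mono (ball_subset_ball h2)) hq1) _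
    _ = ENNReal.ofReal ((nu Ω ρ q (ball x ((2 : ℝ) ^ j))).toReal ^ (1 / q) *
          (volume (ball x r)).toReal ^ (1 - 1 / q)) := by
        rw [ENNReal.ofReal_mul (by positivity),
          ← ENNReal.ofReal_rpow_of_nonneg ENNReal.toReal_nonneg hq1,
          ← ENNReal.ofReal_rpow_of_nonneg ENNReal.toReal_nonneg hq2,
          ENNReal.ofReal_toReal (hfin _ _), ENNReal.ofReal_toReal hVt]
    _ ≤ _ := by
        refine (ENNReal.ofReal_le_ofReal K).trans (le_of_eq ?_)
        rw [ENNReal.ofReal_mul ENNReal.toReal_nonneg, ENNReal.ofReal_toReal hVt]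
        rfl

end Vale.Agent.P210
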