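import Vale.Agent.P210.Stm

open Set Filter Topology MeasureTheory Metric
open scoped ENNReal NNReal ContDiff

namespace Vale.Agent.P210

namespace IbpAux

variable {n : ℕ}

theorem ext {Ω C : Set (E n)} {w : E n → ℝ} (hΩ : IsOpen Ω) (hw : ContDiffOn ℝ ∞ w Ω)
    (hC : IsCompact C) (hs : C ⊆ Ω) : ∃ W : E n → ℝ, ContDiff ℝ ∞ W ∧ HasCompactSupport W ∧
      ∀ x ∈ C, W =ᶠ[𝓝 x] w := by
  obtain ⟨L, hL, h1, h2⟩ := exists_compact_between hC hΩ hs
  obtain ⟨f, f1, f0, -⟩ := exists_contMDiffMap_one_nhds_of_subset_interior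
    (modelWithCornersSelf ℝ (E n)) (n := ⊤) hC.isClosed h1
  have hf : ContDiff ℝ ∞ f := f.contMDiff.contDiff
  refine ⟨fun x => f x * w x, contDiff_iff_contDiffAt.2 fun x => ?_,
    HasCompactSupport.intro hL fun x hx => by rw [f0 x hx, zero_mul], fun x hx => ?_⟩
  · by_cases hx : x ∈ L
    · exact hf.contDiffAt.mul (hw.contDiffAt (hΩ.mem_nhds (h2 hx)))
    · refine (contDiffAt_const (c := (0 : ℝ))).congr_of_eventuallyEq ?_
      filter_upwards [hL.isClosed.isOpen_compl.mem_nhds hx] with y hy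
      rw [f0 y hy, zero_mul]
  · filter_upwards [f1.filter_mono (nhds_le_nhdsSet hx)] with y hy
    rw [hy, one_mul]

theorem pd_congr {f g : E n → ℝ} {x : E n} (h : f =ᶠ[𝓝 x] g) (i : Fin n) :
    pd i f =ᶠ[𝓝 x] pd i g := by
  filter_upwards [h.fderiv (𝕜 := ℝ)] with y hy
  rw [pd, pd, hy]

theorem pd_sm {f : E n → ℝ} (h : ContDiff ℝ ∞ f) (i : Fin n) : ContDiff ℝ ∞ (pd i f) :=
  (h.fderiv_right (m := ∞) le_rfl).clm_apply contDiff_const

theorem pd_cs {f : E n → ℝ} (h : HasCompactSupport f) (i : Fin n) : HasCompactSupport (pd i f) :=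
  h.fderiv_apply ℝ _

theorem one {f ψ : E n → ℝ} {K : ℝ≥0} (hf : ContDiff ℝ ∞ f) (hc : HasCompactSupport f)
    (hψ : LipschitzWith K ψ) (hs : HasCompactSupport ψ) (i : Fin n) :
    Integrable (fun x => ψ x * pd i f x) ∧ Integrable (fun x => pd i ψ x * f x) ∧
      ∫ x, ψ x * pd i f x = -∫ x, pd i ψ x * f x := by
  obtain ⟨D, hD⟩ := ContDiff.lipschitzWith_of_hasCompactSupport hc hf (by simp)
  have e : (fun x => lineDeriv ℝ ψ x (EuclideanSpace.single i 1) * f x) =ᵐ[volume]
      fun x => pd i ψ x * f x := by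
    filter_upwards [hψ.ae_differentiableAt (μ := volume)] with x hx
    rw [hx.lineDeriv_eq_fderiv, pd]
  refine ⟨(hψ.continuous.mul (pd_sm hf i).continuous).integrable_of_hasCompactSupport hs.mul_right,
    ((hψ.locallyIntegrable_lineDeriv _).integrable_smul_right_of_hasCompactSupport
      hf.continuous hc).congr e, ?_⟩
  have h1 := hD.integral_lineDeriv_mul_eq (μ := volume) hψ hs (EuclideanSpace.single i 1)
  simp only [lineDeriv_neg, neg_mul, integral_neg] at h1
  rw [← integral_congr_ae e, ← h1]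
  refine integral_congr_ae (Eventually.of_forall fun x => ?_)
  simp only
  rw [(hf.differentiable (by simp) x).lineDeriv_eq_fderiv, mul_comm, pd]

end IbpAux

theorem pfIbp : IbpS := by
  intro n Ω w ψ K hΩ hw hψ hs hsub
  obtain ⟨W, hW, hc, he⟩ := IbpAux.ext hΩ hw hs hsub
  have key := fun i => IbpAux.one (IbpAux.pd_sm hW i) (IbpAux.pd_cs hc i) hψ hs i
  have e1 : (fun x => ψ x * lap w x) = fun x => ∑ i, ψ x * pd i (pd i W) x := by
    funext x
    rw [lap, Finset.mul_sum]
    refine Finset.sum_congr rfl fun i _ => ?_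
    by_cases hx : x ∈ tsupport ψ
    · rw [(IbpAux.pd_congr (IbpAux.pd_congr (he x hx) i) i).eq_of_nhds]
    · rw [image_eq_zero_of_notMem_tsupport hx, zero_mul, zero_mul]
  have e2 : (fun x => ∑ i, pd i ψ x * pd i w x) = fun x => ∑ i, pd i ψ x * pd i W x := by
    funext x
    refine Finset.sum_congr rfl fun i _ => ?_
    by_cases hx : x ∈ tsupport ψ
    · rw [(IbpAux.pd_congr (he x hx) i).eq_of_nhds]
    · have h0 : pd i ψ x = 0 := by
        rw [pd, (notMem_tsupport_iff_eventuallyEq.1 hx).fderiv_eq]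
        simp
      rw [h0, zero_mul, zero_mul]
  rw [e1, e2]
  refine ⟨integrable_finsetSum _ fun i _ => (key i).1,
    integrable_finsetSum _ fun i _ => (key i).2.1, ?_⟩
  rw [integral_finsetSum _ fun i _ => (key i).1, integral_finsetSum _ fun i _ => (key i).2.1,
    ← Finset.sum_neg_distrib]
  exact Finset.sum_congr rfl fun i _ => (key i).2.2

end Vale.Agent.P210
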