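import Vale.Agent.P210.Stm

open Set Filter Topology MeasureTheory Metric
open scoped ENNReal NNReal ContDiff

namespace Vale.Agent.P210

namespace IterAux

open Classical in
theorem card_succ (p : ℕ → Prop) (c : ℕ) :
    ((Finset.range (c + 1)).filter p).card =
      if p c then ((Finset.range c).filter p).card + 1 else ((Finset.range c).filter p).card := by
  rw [Finset.range_add_one, Finset.filter_insert]
  by_cases h : p c
  · rw [if_pos h, if_pos h, Finset.card_insert_of_notMem]
    simp
  · rw [if_neg h, if_neg h]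

open Classical in
theorem ind (hStep : StepS) (n : ℕ) (ε : ℝ) (σ : E n → ℝ) (I : Type) (hI : Countable I)
    (x : I → E n) (t : I → ℝ) (wt : I → ℝ≥0∞) (Z : ℕ → Set (E n)) (h0 : 0 < ε)
    (h1 : ε ≤ 1 / 10) (hL : Lp σ) (ht : ∀ i, 0 < t i ∧ t i ≤ ε / 10 * σ (x i))
    (hZ : ∀ c, Net σ ε (Z c)) (c : ℕ) :
    ∃ r : ℕ → E n → ℝ, (∀ c' < c, Rad σ ε (Z c') (r c')) ∧ ∀ (z : E n) (u : ℝ), 0 ≤ u →
      u + 4 * ε * c ≤ 1 / 2 →
      Wt x (fun i => wt i * ENNReal.ofReal (σ (x i) / t i) ^
        ((Finset.range c).filter (fun c' => Hit (Z c') (r c') x t i)).card)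
        (ball z (u * σ z)) ≤
        ENNReal.ofReal (1 + 16 / ε) ^ c * Wt x wt (ball z ((u + 4 * ε * c) * σ z)) := by
  induction c with
  | zero =>
    refine ⟨fun _ _ => 0, fun c' hc' => absurd hc' (Nat.not_lt_zero _), fun z u _ _ => ?_⟩
    simp
  | succ c ih =>
    obtain ⟨r, hr, hw⟩ := ih
    obtain ⟨r0, hr0, hs⟩ := hStep n ε σ I hI x t
      (fun i => wt i * ENNReal.ofReal (σ (x i) / t i) ^
        ((Finset.range c).filter (fun c' => Hit (Z c') (r c') x t i)).card) (Z c) h0 h1 hL ht
      (hZ c)
    refine ⟨Function.update r c r0, fun c' hc' => ?_, fun z u hu hu' => ?_⟩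
    · rcases Nat.lt_succ_iff_lt_or_eq.mp hc' with h | h
      · rw [Function.update_of_ne h.ne]
        exact hr c' h
      · subst h
        rw [Function.update_self]
        exact hr0
    · have hc0 : (0 : ℝ) ≤ 4 * ε * c := by positivity
      have hcast : (((c + 1 : ℕ) : ℝ)) = c + 1 := by push_cast; ring
      rw [hcast] at hu' ⊢
      have e1 : (fun i => wt i * ENNReal.ofReal (σ (x i) / t i) ^
          ((Finset.range (c + 1)).filter
            (fun c' => Hit (Z c') (Function.update r c r0 c') x t i)).card) =
          (fun i => if Hit (Z c) r0 x t i then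
            (wt i * ENNReal.ofReal (σ (x i) / t i) ^
              ((Finset.range c).filter (fun c' => Hit (Z c') (r c') x t i)).card) *
              ENNReal.ofReal (σ (x i) / t i)
            else wt i * ENNReal.ofReal (σ (x i) / t i) ^
              ((Finset.range c).filter (fun c' => Hit (Z c') (r c') x t i)).card) := by
        funext i
        have e2 : (Finset.range c).filter
            (fun c' => Hit (Z c') (Function.update r c r0 c') x t i) =
            (Finset.range c).filter (fun c' => Hit (Z c') (r c') x t i) := by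
          apply Finset.filter_congr
          intro c' hc'
          rw [Function.update_of_ne (Finset.mem_range.mp hc').ne]
        rw [card_succ (fun c' => Hit (Z c') (Function.update r c r0 c') x t i) c, e2]
        simp only [Function.update_self]
        by_cases h : Hit (Z c) r0 x t i
        · rw [if_pos h, if_pos h, pow_succ, mul_assoc]
        · rw [if_neg h, if_neg h]
      rw [e1]
      refine (hs z u hu (by nlinarith)).trans ?_
      have h2 := hw z (u + 4 * ε) (by positivity) (by linarith)
      have e3 : u + 4 * ε + 4 * ε * c = u + 4 * ε * (c + 1) := by ring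
      rw [e3] at h2
      rw [pow_succ', mul_assoc]
      exact mul_le_mul_right h2 _

end IterAux

theorem pfIter (hStep : StepS) : IterS := by
  intro n N ε σ I hI x t wt Z h0 h1 hN hL ht hZ
  obtain ⟨r, hr, hw⟩ := IterAux.ind hStep n ε σ I hI x t wt Z h0 h1 hL ht hZ N
  refine ⟨r, hr, fun i => ?_⟩
  have hu : 0 < 1 / 2 - 4 * ε * N := by linarith
  have h2 := hw (x i) (1 / 2 - 4 * ε * N) hu.le (by linarith)
  have e : (1 / 2 - 4 * ε * N + 4 * ε * N) * σ (x i) = σ (x i) / 2 := by ring
  rw [e] at h2
  refine le_trans ?_ h2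
  have hσ : 0 < σ (x i) := by
    have := (ht i).1.trans_le (ht i).2
    by_contra hneg
    have h3 : σ (x i) ≤ 0 := not_lt.mp hneg
    nlinarith
  unfold Wt
  refine le_trans ?_ (ENNReal.le_tsum i)
  rw [Set.indicator_of_mem]
  exact mem_ball_self (mul_pos hu hσ)

end Vale.Agent.P210
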