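import Vale.Agent.P210.Stm

open Set Filter Topology MeasureTheory Metric
open scoped ENNReal NNReal ContDiff

namespace Vale.Agent.P210

namespace LabAux

theorem key {s t B : ℝ} {m h N : ℕ} {W : ℝ≥0∞} (ht : 0 < t) (hts : t ≤ s) (hB : 0 < B)
    (hW : W ≤ ENNReal.ofReal ((B ^ N)⁻¹ / 2))
    (H : ENNReal.ofReal ((t / s) ^ m) * ENNReal.ofReal (s / t) ^ h ≤ ENNReal.ofReal B ^ N * W) :
    h < m := by
  by_contra hm
  obtain ⟨k, rfl⟩ := Nat.exists_eq_add_of_le (not_lt.1 hm)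
  have hs : 0 < s := ht.trans_le hts
  have h1 : ENNReal.ofReal B ^ N * W ≤ ENNReal.ofReal (1 / 2) := by
    refine (mul_le_mul_right hW _).trans (le_of_eq ?_)
    rw [← ENNReal.ofReal_pow hB.le, ← ENNReal.ofReal_mul (by positivity)]
    refine congrArg _ ?_
    field_simp
  have h2 := H.trans h1
  rw [← ENNReal.ofReal_pow (by positivity), ← ENNReal.ofReal_mul (by positivity),
    ENNReal.ofReal_le_ofReal_iff (by norm_num), pow_add, ← mul_assoc, ← mul_pow] at h2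
  have h3 : t / s * (s / t) = 1 := by field_simp
  have h4 : 1 ≤ (s / t) ^ k := one_le_pow₀ ((one_le_div ht).2 hts)
  rw [h3, one_pow, one_mul] at h2
  linarith

end LabAux

theorem pfLab (hNet : NetS) (hIter : IterS) (hLabel : LabelS) : LabS := by
  intro n m
  obtain ⟨N, hN, H⟩ := hNet n
  have hN1 : (1 : ℝ) ≤ N := by exact_mod_cast hN
  obtain ⟨ε, hε0, hε1, hε2⟩ : ∃ ε : ℝ, 0 < ε ∧ ε ≤ 1 / 10 ∧ 4 * ε * N < 1 / 2 := by
    refine ⟨1 / (10 * N), by positivity, one_div_le_one_div_of_le (by norm_num) (by linarith), ?_⟩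
    have : 4 * (1 / (10 * (N : ℝ))) * N = 2 / 5 := by field_simp; norm_num
    rw [this]; norm_num
  refine ⟨ε / 10, by positivity, ((1 + 16 / ε) ^ N)⁻¹ / 2, by positivity, ?_⟩
  intro σ I hI x t hσ ht hW
  obtain ⟨Z, hZ, hc⟩ := H ε hε0 hε1 σ hσ
  obtain ⟨r, hr, h2⟩ := hIter n N ε σ I hI x t (fun i => ENNReal.ofReal ((t i / σ (x i)) ^ m)) Z
    hε0 hε1 hε2 hσ ht hZ
  refine hLabel n N m ε σ I x t Z r hε0 hε1 hσ ht hZ hc hr fun i => ?_
  refine LabAux.key (ht i).1 ?_ (by positivity) (hW (x i)) (h2 i)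
  have h3 := hσ.nn (x i)
  have h4 := (ht i).2
  nlinarith

end Vale.Agent.P210
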