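import Vale.Agent.P210.Stm

open Set Filter Topology MeasureTheory Metric
open scoped ENNReal NNReal ContDiff

namespace Vale.Agent.P210

theorem pfLev (hLab : LabS) (hVit : VitS) (hScale : ScaleS) : LevS := by
  intro n m A A₁ s q hs hsm hq hA
  obtain ⟨η, hη, δ, hδ, h1⟩ := hLab n m
  obtain ⟨η₁, hη₁, κ, hκ, h2⟩ := hVit n m s A η δ hs hA hη hδ
  obtain ⟨L, hL, h3⟩ := hScale m A₁ s q η₁ κ hs hsm hq hη₁ hκ
  refine ⟨L, hL, fun ν Ω a P Φ σ hν hP hS ha => ?_⟩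
  have key : ∀ j : ℤ, ∃ l : E n → E n, (∀ y, ‖l y - y‖ ≤ σ j y / 10) ∧
      ∀ x, ∃ S : Finset (E n), S.card ≤ m ∧ ∀ y ∈ ball x (σ (j + 1) x), l y ∈ S := by
    intro j
    obtain ⟨I, hI, x, t, b1, b2, b3⟩ := h2 ν (σ j) (σ (j + 1)) hν (hS.lp j)
      (h3 n ν Ω a P Φ σ hP hS ha j)
    obtain ⟨l, c1, c2⟩ := h1 (σ j) I hI x t (hS.lp j) b1 b2
    refine ⟨l, c1, fun z => ?_⟩
    rcases le_or_gt (σ (j + 1) z) 0 with h0 | h0
    · exact ⟨∅, Nat.zero_le _, fun y hy => by simp [ball_eq_empty.2 h0] at hy⟩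
    · obtain ⟨i, hi⟩ := b3 z h0
      obtain ⟨S, d1, d2⟩ := c2 i
      exact ⟨S, d1, fun y hy => d2 y (hi hy)⟩
  choose l k1 k2 using key
  exact ⟨l, k1, k2⟩

end Vale.Agent.P210
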