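import Vale.Agent.P210.Stm

open Set Filter Topology MeasureTheory Metric
open scoped ENNReal NNReal ContDiff

namespace Vale.Agent.P210

theorem pfLip : LipS := by
  intro n Ω f C _ hC hs h0 h
  have l : LocallyLipschitz f := fun x => by
    by_cases q : x ∈ C
    · obtain ⟨r, r0, M, hM⟩ := h x (hs q)
      refine ⟨M.toNNReal, ball x r, ball_mem_nhds x r0,
        LipschitzOnWith.of_dist_le_mul fun y hy z hz => ?_⟩
      rw [Real.dist_eq, dist_eq_norm]
      exact (hM y hy z hz).trans (mul_le_mul_of_nonneg_right (Real.le_coe_toNNReal M) (norm_nonneg _))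
    · refine ⟨0, Cᶜ, hC.isClosed.isOpen_compl.mem_nhds q,
        LipschitzOnWith.of_dist_le_mul fun y hy z hz => ?_⟩
      rw [h0 y hy, h0 z hz]
      simp
  obtain ⟨K, hK⟩ := (l.locallyLipschitzOn (s := cthickening 1 C)).exists_lipschitzOnWith_of_compact
    hC.cthickening
  obtain ⟨B, hB⟩ := hC.exists_bound_of_continuousOn l.continuous.continuousOn
  have b : ∀ x, |f x| ≤ B.toNNReal := fun x => by
    by_cases q : x ∈ C
    · exact (hB x q).trans (Real.le_coe_toNNReal B)
    · rw [h0 x q, abs_zero]
      exact NNReal.coe_nonneg _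
  have k : ∀ y ∈ C, ∀ z, dist (f y) (f z) ≤ (K + 2 * B.toNNReal : ℝ≥0) * dist y z := fun y hy z => by
    have b0 := B.toNNReal.coe_nonneg
    have d0 := dist_nonneg (x := y) (y := z)
    push_cast
    rcases le_total (dist y z) 1 with q | q
    · have := hK.dist_le_mul y (self_subset_cthickening C hy) z
        (mem_cthickening_of_dist_le z y 1 C hy (dist_comm y z ▸ q))
      nlinarith
    · have := abs_sub (f y) (f z)
      rw [Real.dist_eq]
      nlinarith [b y, b z, mul_nonneg K.coe_nonneg d0]
  refine ⟨K + 2 * B.toNNReal, LipschitzWith.of_dist_le_mul fun y z => ?_⟩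
  by_cases q : y ∈ C
  · exact k y q z
  by_cases q' : z ∈ C
  · rw [dist_comm, dist_comm y]
    exact k z q' y
  · rw [h0 y q, h0 z q', dist_self]
    positivity

end Vale.Agent.P210
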