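import Vale.Agent.P210.Stm

open Set Filter Topology MeasureTheory Metric
open scoped ENNReal NNReal ContDiff

namespace Vale.Agent.P210

namespace LocAux

variable {n : ℕ} {Ω : Set (E n)} {ρ : E n → ℝ} {d : E n → E n → ℝ}

theorem up (h : Met Ω ρ d) (x : E n) (hx : x ∈ Ω) (ε : ℝ) (hε : 0 < ε) :
    ∃ r > 0, ball x r ⊆ Ω ∧ ∀ y ∈ ball x r, ∀ z ∈ ball x r, d y z ≤ (ρ x + ε) * ‖y - z‖ := by
  have hc : ContinuousAt ρ x := h.cont.continuousAt (h.op.mem_nhds hx)
  have h1 : ∀ᶠ y in 𝓝 x, y ∈ Ω ∧ ρ y < ρ x + ε :=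
    Filter.Eventually.and (h.op.mem_nhds hx) (hc.eventually_lt_const (by linarith))
  obtain ⟨r, hr, h2⟩ := Metric.eventually_nhds_iff_ball.1 h1
  refine ⟨r, hr, fun y hy => (h2 y hy).1, fun y hy z hz => ?_⟩
  have hs : segment ℝ y z ⊆ ball x r := (convex_ball x r).segment_subset hy hz
  have h3 := h.seg y z fun u hu => (h2 u (hs hu)).1
  have h4 : ∫⁻ t in Icc (0 : ℝ) 1, ENNReal.ofReal (ρ (y + t • (z - y)) * ‖z - y‖) ≤
      ∫⁻ _ in Icc (0 : ℝ) 1, ENNReal.ofReal ((ρ x + ε) * ‖y - z‖) := by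
    refine setLIntegral_mono' measurableSet_Icc fun t ht => ENNReal.ofReal_le_ofReal ?_
    rw [norm_sub_rev z y]
    refine mul_le_mul_of_nonneg_right (h2 _ (hs ?_)).2.le (norm_nonneg _)
    rw [segment_eq_image']
    exact ⟨t, ht, rfl⟩
  have h5 := h3.trans h4
  rw [setLIntegral_const, Real.volume_Icc, sub_zero, ENNReal.ofReal_one, mul_one] at h5
  have h6 := h.pos x hx
  exact (ENNReal.ofReal_le_ofReal_iff (by positivity)).1 h5

theorem low (h : Met Ω ρ d) (x : E n) (hx : x ∈ Ω) :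
    ∃ r > 0, ∃ c > 0, ∀ y ∈ Ω, c * min ‖y - x‖ r ≤ d x y := by
  have hc : ContinuousAt ρ x := h.cont.continuousAt (h.op.mem_nhds hx)
  have h6 := h.pos x hx
  have h1 : ∀ᶠ y in 𝓝 x, ρ x / 2 < ρ y := hc.eventually_const_lt (by linarith)
  obtain ⟨r, hr, h2⟩ := Metric.eventually_nhds_iff_ball.1 h1
  have hU : UG Ω ρ fun y => ρ x / 2 * min ‖y - x‖ (r / 2) := by
    intro u hu ε hε
    by_cases hb : u ∈ ball x r
    · refine Eventually.of_forall fun y => ?_
      have h3 := h2 u hb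
      have h4 : |min ‖y - x‖ (r / 2) - min ‖u - x‖ (r / 2)| ≤ ‖y - u‖ := by
        refine (abs_min_sub_min_le_max _ _ _ _).trans (max_le ?_ (by simp))
        refine (abs_norm_sub_norm_le _ _).trans (le_of_eq ?_)
        rw [sub_sub_sub_cancel_right]
      rw [← mul_sub, abs_mul, abs_of_pos (half_pos h6)]
      exact mul_le_mul (by linarith) h4 (abs_nonneg _) (by linarith)
    · have h3 : r / 2 < ‖u - x‖ := by
        rw [mem_ball_iff_norm, not_lt] at hb
        linarith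
      have h4 : ContinuousAt (fun y : E n => ‖y - x‖) u := by fun_prop
      filter_upwards [h4.eventually_const_lt h3] with y hy
      have h5 := h.pos u hu
      rw [min_eq_right hy.le, min_eq_right h3.le, sub_self, abs_zero]
      positivity
  refine ⟨r / 2, half_pos hr, ρ x / 2, half_pos h6, fun y hy => ?_⟩
  have h7 := h.lb _ hU x hx y hy
  rwa [sub_self, norm_zero, min_eq_left (half_pos hr).le, mul_zero, sub_zero] at h7

theorem ug (h : Met Ω ρ d) (o : E n) (ho : o ∈ Ω) : UG Ω ρ (d o) := by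
  intro x hx ε hε
  obtain ⟨r, hr, h1, h2⟩ := up h x hx ε hε
  filter_upwards [ball_mem_nhds x hr] with y hy
  have h3 := h2 y hy x (mem_ball_self hr)
  have h4 := h.tri o ho x hx y (h1 hy)
  have h5 := h.tri o ho y (h1 hy) x hx
  have h6 := h.symm x y
  rw [abs_le]
  constructor <;> linarith

theorem co (h : Met Ω ρ d) (o : E n) (ho : o ∈ Ω) : ContinuousOn (d o) Ω := by
  intro x hx
  refine ContinuousAt.continuousWithinAt ?_
  rw [ContinuousAt, tendsto_iff_norm_sub_tendsto_zero]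
  have h1 : Tendsto (fun y : E n => (ρ x + 1) * ‖y - x‖) (𝓝 x) (𝓝 0) := by
    have h2 : Continuous fun y : E n => (ρ x + 1) * ‖y - x‖ := by fun_prop
    simpa using h2.tendsto x
  exact squeeze_zero' (Eventually.of_forall fun _ => norm_nonneg _) (ug h o ho x hx 1 one_pos) h1

end LocAux

theorem pfLoc : LocS := fun _ _ _ _ h =>
  ⟨LocAux.up h, LocAux.low h, LocAux.ug h, LocAux.co h⟩

end Vale.Agent.P210
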