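import Vale.Agent.P210.Stm

open Set Filter Topology MeasureTheory Metric
open scoped ENNReal NNReal ContDiff

namespace Vale.Agent.P210

def MainS : Prop := ∀ n : ℕ, 3 ≤ n → ∃ C : ℝ, ∀ (Ω : Set (E n)) (w : E n → ℝ),
  IsOpen Ω → IsConnected Ω → ContDiffOn ℝ ∞ w Ω → Complete Ω (conf w) →
  (∀ x ∈ Ω, 1 ≤ scal (conf w) x) →
  ∃ (V : Type) (K : AbstractSimplicialComplex V) (f : Ω → space K),
    (∀ s ∈ K.faces, s.card ≤ n / 2 + 1) ∧ Continuous[inferInstance, spaceTop K] f ∧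
    ∀ x y : Ω, f x = f y → rdist Ω (conf w) x y ≤ ENNReal.ofReal C

theorem ineq_of_scal (hScal : ScalS) {n : ℕ} (hn : 3 ≤ n) {Ω : Set (E n)} {w : E n → ℝ}
    (hΩ : IsOpen Ω) (hw : ContDiffOn ℝ ∞ w Ω) (hs : ∀ x ∈ Ω, 1 ≤ scal (conf w) x) :
    ∀ x ∈ Ω, lap w x + ((((n : ℝ) - 2) / 2 - 1 / 4) + 1 / 4) * gsq w x +
      1 / (2 * ((n : ℝ) - 1)) * Real.exp (2 * w x) ≤ 0 := by
  intro x hx
  have h1 := hs x hx
  rw [hScal n Ω w hΩ hw x hx, Real.exp_neg] at h1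
  have hn' : (3 : ℝ) ≤ n := by exact_mod_cast hn
  have he : 0 < Real.exp (2 * w x) := Real.exp_pos _
  set e := Real.exp (2 * w x)
  set X := 2 * lap w x + ((n : ℝ) - 2) * gsq w x with hX
  have h2 : e ≤ -(((n : ℝ) - 1) * X) := by
    have := mul_le_mul_of_nonneg_left h1 he.le
    rwa [mul_one, mul_neg, ← mul_assoc, mul_inv_cancel₀ he.ne', one_mul] at this
  have h3 : (0 : ℝ) < 2 * ((n : ℝ) - 1) := by linarith
  have h4 : 1 / (2 * ((n : ℝ) - 1)) * e ≤ -(X / 2) := by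
    rw [div_mul_eq_mul_div, one_mul, div_le_iff₀ h3]
    linarith
  have h5 : lap w x + ((((n : ℝ) - 2) / 2 - 1 / 4) + 1 / 4) * gsq w x = X / 2 := by
    rw [hX]; ring
  linarith

theorem pfMain (hScal : ScalS) (hMet : MetS) (hLoc : LocS) (hPde : PdeS) (hCore : CoreS)
    (hDiv : DivS) (hApr : AprS) (hSmall : SmallS) (hPot2 : Pot2S) (hSig : SigS) (hLev : LevS)
    (hFinA : FinAS) (hFinB : FinBS) (hNerve : NerveS) : MainS := by
  intro n hn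
  have hn' : (3 : ℝ) ≤ n := by exact_mod_cast hn
  set β : ℝ := ((n : ℝ) - 2) / 2 - 1 / 4 with hβ
  have hβ0 : 0 < β := by rw [hβ]; linarith
  have hc : (0 : ℝ) < 1 / (2 * ((n : ℝ) - 1)) := by
    have : (0 : ℝ) < 2 * ((n : ℝ) - 1) := by linarith
    positivity
  obtain ⟨A, hA, hP⟩ := hPde n β _ hβ0 hc
  have hq1 : (1 : ℝ) < 2 + β := by linarith
  have hq0 : (0 : ℝ) < 2 + β := by linarith
  obtain ⟨C, hC, hCo⟩ := hCore n (2 + β) hq1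
  have hs0 : (0 : ℝ) ≤ (n : ℝ) - (2 + β) := by rw [hβ]; linarith
  have hsm : (n : ℝ) - (2 + β) < ((n / 2 : ℕ) : ℝ) := by
    have h1 : n ≤ 2 * (n / 2) + 1 := by omega
    have h2 : (n : ℝ) ≤ 2 * ((n / 2 : ℕ) : ℝ) + 1 := by exact_mod_cast h1
    rw [hβ]; linarith
  set A₁ : ℝ := A ^ (1 / (2 + β)) with hA₁
  obtain ⟨L, hL, hLe⟩ := hLev n (n / 2) A A₁ _ (2 + β) hs0 hsm hq0 hA
  obtain ⟨θ, hθ⟩ := hFinA n
  refine ⟨2 + C * ((4 * L + 2 * A₁) + (4 * L + 2 * A₁) + 2), ?_⟩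
  intro Ω w hΩ hcon hw hcpl hs
  obtain ⟨hfin, hM⟩ := hMet n Ω w hΩ hcon hw.continuousOn hcpl
  set ρ : E n → ℝ := fun y => Real.exp (w y) with hρ
  set d : E n → E n → ℝ := fun x y => (rdist Ω (conf w) x y).toReal with hd
  have hν := hP Ω w d hM hw (ineq_of_scal hScal hn hΩ hw hs)
  set ν := nu Ω ρ (2 + β) with hνdef
  have hνfin : ∀ x r, ν (ball x r) ≠ ⊤ := by
    intro x r
    rcases le_or_gt r 0 with h | h
    · rw [ball_eq_empty.2 h, measure_empty]; exact ENNReal.zero_ne_top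
    · exact ne_top_of_le_ne_top ENNReal.ofReal_ne_top (hν x r h)
  obtain ⟨ha1, ha2, ha3, ha4, ha5⟩ := hApr n ν _ (2 + β) A hq0 hA hν
  set a := aF ν ((n : ℝ) - (2 + β)) (2 + β) with ha
  have hsm' := hSmall n Ω ρ (2 + β) a hq0 hΩ hM.cont hM.pos ha2 ha5
  obtain ⟨o, ho⟩ := hcon.nonempty
  have hdiv : ¬ Summable (fun i : ℕ => a o i) := by
    obtain ⟨r, hr, M, k₀, h⟩ := hsm' o ho
    exact hDiv n (2 + β) (by omega) hq1 Ω ρ d a hM hνfin ha1 o ho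
      ⟨M, k₀, h o (mem_ball_self hr)⟩
  obtain ⟨P, Φ, hPot⟩ := hPot2 n Ω A₁ a ha2 ha3 ha4 hsm' ⟨o, hdiv⟩
  obtain ⟨σ, hσ⟩ := hSig n Ω A₁ L a P Φ hPot hL
  obtain ⟨l, hl⟩ := hLe ν Ω a P Φ σ hν hPot hσ ha5
  have hcls : ∀ x ∈ Ω, ∀ y ∈ Ω, labF θ Φ L l x = labF θ Φ L l y →
      d x y ≤ C * ((4 * L + 2 * A₁) + (4 * L + 2 * A₁) + 2) := by
    intro x hx y hy hxy
    obtain ⟨k, hk, h1, h2⟩ := hFinB n (n / 2) θ Ω A₁ L a P Φ σ l hL hPot hσ hl x hx y hy hxy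
    refine (hCo Ω ρ d a hM hνfin ha1 x hx y hy k _ _ hk (hPot.sum x hx (k + 1))
      (hPot.sum y hy (k + 1))).trans (mul_le_mul_of_nonneg_left ?_ hC.le)
    linarith
  obtain ⟨K, f, hK, hf, hfib⟩ := hNerve n (n / 2) (ℤ × E n) Ω (labF θ Φ L l)
    (fun U => U ⊆ Ω ∧ (∃ S : Finset (ℤ × E n), S.card ≤ n / 2 + 1 ∧
      ∀ x ∈ U, labF θ Φ L l x ∈ S) ∧ ∀ y ∈ U, ∀ z ∈ U, d y z ≤ 1)
    (by
      rintro U W ⟨h1, ⟨S, h2, h3⟩, h4⟩ hW
      exact ⟨hW.trans h1, ⟨S, h2, fun x hx => h3 x (hW hx)⟩,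
        fun y hy z hz => h4 y (hW hy) z (hW hz)⟩)
    (fun U hU => hU.2.1)
    (by
      intro x hx
      obtain ⟨r₁, hr₁, S, hS, h1⟩ := hθ (n / 2) Ω A₁ L a P Φ σ l hΩ hL hPot hσ hl x hx
      obtain ⟨r₂, hr₂, h2, h3⟩ := (hLoc n Ω ρ d hM).1 x hx 1 one_pos
      have hx0 : 0 < ρ x + 1 := by have := hM.pos x hx; linarith
      have hr₃ : 0 < 1 / (2 * (ρ x + 1)) := by positivity
      refine ⟨min r₁ (min r₂ (1 / (2 * (ρ x + 1)))), lt_min hr₁ (lt_min hr₂ hr₃), ?_, ?_, ?_⟩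
      · exact (ball_subset_ball ((min_le_right _ _).trans (min_le_left _ _))).trans h2
      · exact ⟨S, hS, fun y hy => h1 y (ball_subset_ball (min_le_left _ _) hy)⟩
      · intro y hy z hz
        have hb : min r₁ (min r₂ (1 / (2 * (ρ x + 1)))) ≤ r₂ :=
          (min_le_right _ _).trans (min_le_left _ _)
        have hb' : min r₁ (min r₂ (1 / (2 * (ρ x + 1)))) ≤ 1 / (2 * (ρ x + 1)) :=
          (min_le_right _ _).trans (min_le_right _ _)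
        refine (h3 y (ball_subset_ball hb hy) z (ball_subset_ball hb hz)).trans ?_
        have hyz : ‖y - z‖ ≤ 2 * (1 / (2 * (ρ x + 1))) := by
          have h4 := dist_triangle_right y z x
          have h5 := mem_ball.1 hy
          have h6 := mem_ball.1 hz
          rw [← dist_eq_norm]
          linarith
        calc (ρ x + 1) * ‖y - z‖ ≤ (ρ x + 1) * (2 * (1 / (2 * (ρ x + 1)))) :=
              mul_le_mul_of_nonneg_left hyz hx0.le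
          _ = 1 := by field_simp)
  refine ⟨ℤ × E n, K, f, hK, hf, fun x y hxy => ?_⟩
  obtain ⟨z, z', U, U', hU, hU', hxU, hzU, hyU, hzU', hl'⟩ := hfib x y hxy
  have hz := hU.1 hzU
  have hz' := hU'.1 hzU'
  have h1 := hU.2.2 x hxU z hzU
  have h2 := hU'.2.2 z' hzU' y hyU
  have h3 := hcls z hz z' hz' hl'
  have h4 := hM.tri x x.2 z hz y y.2
  have h5 := hM.tri z hz z' hz' y y.2
  rw [← ENNReal.ofReal_toReal (hfin x x.2 y y.2)]
  refine ENNReal.ofReal_le_ofReal ?_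
  change d x y ≤ _
  linarith

end Vale.Agent.P210
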