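import Vale.Agent.P210.Stm

open Set Filter Topology MeasureTheory Metric
open scoped ENNReal NNReal ContDiff

namespace Vale.Agent.P210

theorem pfMark (hSeg : SegS) (hAv : AvS) : MarkS := by
  intro n q hq
  obtain ⟨C, C0, hC⟩ := hAv n q hq
  refine ⟨C, C0, fun Ω ρ d hM hf x hx k u M lam l0 hu su hs => ?_⟩
  obtain ⟨hm, hi⟩ := hC Ω ρ hM.op hM.cont hM.pos hf x k
  have u0 : ∀ i, 0 ≤ u i := fun i => le_trans (Real.rpow_nonneg
    (div_nonneg ENNReal.toReal_nonneg (Real.rpow_nonneg (zpow_pos two_pos _).le _)) _) (hu i)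
  have M0 : 0 ≤ M := (tsum_nonneg u0).trans hs
  have T0 : 0 < lam * (C * (M + 1)) := by positivity
  have h1 : ∑' i : ℕ, ENNReal.ofReal (C * bF (nu Ω ρ q) (n - q) q x (k - i)) ≤
      ENNReal.ofReal (C * M) := by
    refine (ENNReal.tsum_le_tsum fun i => ENNReal.ofReal_le_ofReal
      (mul_le_mul_of_nonneg_left (hu i) C0.le)).trans ?_
    rw [← ENNReal.ofReal_tsum_of_nonneg (fun i => mul_nonneg C0.le (u0 i)) (su.mul_left C),
      tsum_mul_left]
    exact ENNReal.ofReal_le_ofReal (mul_le_mul_of_nonneg_left hs C0.le)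
  have h2 : {y | y ∈ ball x ((2 : ℝ) ^ k) ∧ ¬ (y ∈ Ω ∧ d x y ≤ lam * (C * (M + 1)))} ⊆
      {y | ENNReal.ofReal (lam * (C * (M + 1))) ≤ sl Ω ρ x y} ∩ ball x ((2 : ℝ) ^ k) := by
    rintro y ⟨y1, y2⟩
    refine ⟨show _ ≤ sl Ω ρ x y from not_lt.1 fun h => y2 ?_, y1⟩
    obtain ⟨a1, a2⟩ := hSeg n Ω ρ d hM x hx y (ne_top_of_lt h)
    exact ⟨a1, ((ENNReal.ofReal_lt_ofReal_iff T0).1 (a2.trans_lt h)).le⟩
  refine (measure_mono h2).trans ?_
  rw [← Measure.restrict_apply' measurableSet_ball]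
  refine (meas_ge_le_lintegral_div hm.aemeasurable (ENNReal.ofReal_pos.2 T0).ne'
    ENNReal.ofReal_ne_top).trans ?_
  refine (ENNReal.div_le_div_right (hi.trans (mul_le_mul_right h1 _)) _).trans ?_
  rw [mul_div_assoc, ← ENNReal.ofReal_div_of_pos T0, ENNReal.div_eq_inv_mul, mul_comm _⁻¹,
    ← ENNReal.ofReal_inv_of_pos l0]
  refine mul_le_mul_right (ENNReal.ofReal_le_ofReal ?_) _
  rw [div_le_iff₀ T0, ← mul_assoc, inv_mul_cancel₀ l0.ne', one_mul]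
  nlinarith

end Vale.Agent.P210
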