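import Vale.Agent.P210.Stm

open Set Filter Topology MeasureTheory Metric
open scoped ENNReal NNReal ContDiff

namespace Vale.Agent.P210

namespace MetPAux

variable {n : ℕ} {Ω : Set (E n)} {w : E n → ℝ}

theorem seg_fin (hT : DTriS) (hS : DSegS) (hw : ContinuousOn w Ω) {x y : E n}
    (h : segment ℝ x y ⊆ Ω) : rdist Ω (conf w) x y ≠ ⊤ := by
  refine ne_top_of_le_ne_top ?_ (((hT n Ω _).2.2.2 x y).trans ((hS n Ω w).2 x y h))
  have m : MapsTo (fun t : ℝ => x + t • (y - x)) (Icc 0 1) Ω := fun t ht =>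
    h (by rw [segment_eq_image']; exact mem_image_of_mem _ ht)
  have c : ContinuousOn (fun t : ℝ => Real.exp (w (x + t • (y - x))) * ‖y - x‖) (Icc 0 1) :=
    ((hw.comp (by fun_prop) m).rexp).mul continuousOn_const
  exact (c.integrableOn_Icc (μ := volume)).lintegral_lt_top.ne

theorem loc (hT : DTriS) (hS : DSegS) (ho : IsOpen Ω) (hw : ContinuousOn w Ω) {y : E n}
    (hy : y ∈ Ω) : ∀ᶠ z in 𝓝 y, z ∈ Ω ∧ rdist Ω (conf w) y z ≠ ⊤ := by
  obtain ⟨r, hr, hb⟩ := Metric.isOpen_iff.1 ho y hy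
  filter_upwards [ball_mem_nhds y hr] with z hz
  exact ⟨hb hz, seg_fin hT hS hw
    (((convex_ball y r).segment_subset (mem_ball_self hr) hz).trans hb)⟩

theorem fin (hT : DTriS) (hS : DSegS) (ho : IsOpen Ω) (hc : IsConnected Ω)
    (hw : ContinuousOn w Ω) {x : E n} (hx : x ∈ Ω) : ∀ y ∈ Ω, rdist Ω (conf w) x y ≠ ⊤ := by
  obtain ⟨t1, t2, t3, -⟩ := hT n Ω (conf w)
  have o1 : IsOpen {y | y ∈ Ω ∧ rdist Ω (conf w) x y ≠ ⊤} := isOpen_iff_mem_nhds.2 fun y hy =>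
    (loc hT hS ho hw hy.1).mono fun z hz =>
      ⟨hz.1, ne_top_of_le_ne_top (ENNReal.add_ne_top.2 ⟨hy.2, hz.2⟩) (t2 x y z)⟩
  have o2 : IsOpen {y | y ∈ Ω ∧ rdist Ω (conf w) x y = ⊤} := isOpen_iff_mem_nhds.2 fun y hy =>
    (loc hT hS ho hw hy.1).mono fun z hz => ⟨hz.1, by_contra fun q =>
      ne_top_of_le_ne_top (ENNReal.add_ne_top.2 ⟨q, t3 y z ▸ hz.2⟩) (t2 x z y) hy.2⟩
  have k := hc.isPreconnected.subset_left_of_subset_union o1 o2
    (disjoint_left.2 fun y h1 h2 => h1.2 h2.2)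
    (fun y hy => (em (rdist Ω (conf w) x y = ⊤)).elim (fun q => Or.inr ⟨hy, q⟩)
      fun q => Or.inl ⟨hy, q⟩)
    ⟨x, hx, hx, by rw [t1]; exact ENNReal.zero_ne_top⟩
  exact fun y hy => (k hy).2

end MetPAux

theorem pfMet (hDTri : DTriS) (hDSeg : DSegS) (hDLb : DLbS) : MetS := by
  intro n Ω w ho hc hw hcp
  have f : ∀ x ∈ Ω, ∀ y ∈ Ω, rdist Ω (conf w) x y ≠ ⊤ := fun x hx =>
    MetPAux.fin hDTri hDSeg ho hc hw hx
  obtain ⟨t1, t2, t3, t4⟩ := hDTri n Ω (conf w)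
  refine ⟨f, ho, hw.rexp, fun x _ => Real.exp_pos _, fun x => by simp [t1],
    fun x y => ENNReal.toReal_nonneg, fun x y => by rw [t3], fun x hx y hy z hz => ?_,
    fun x y h => ?_, fun h hh x hx y hy => ?_, fun u hu hc => ?_⟩
  · rw [← ENNReal.toReal_add (f x hx y hy) (f y hy z hz)]
    exact ENNReal.toReal_mono (ENNReal.add_ne_top.2 ⟨f x hx y hy, f y hy z hz⟩) (t2 x y z)
  · exact ENNReal.ofReal_toReal_le.trans ((t4 x y).trans ((hDSeg n Ω w).2 x y h))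
  · exact (ENNReal.ofReal_le_iff_le_toReal (f x hx y hy)).1 (hDLb n Ω w h ho hw hh x y)
  · obtain ⟨x, hx, h⟩ := hcp u hu fun ε hε => by
      rcases eq_or_ne ε ⊤ with rfl | q
      · exact ⟨0, fun a _ b _ => (f _ (hu a) _ (hu b)).lt_top⟩
      · obtain ⟨N, hN⟩ := hc ε.toReal (ENNReal.toReal_pos hε.ne' q)
        exact ⟨N, fun a ha b hb =>
          (ENNReal.toReal_lt_toReal (f _ (hu a) _ (hu b)) q).1 (hN a ha b hb)⟩
    exact ⟨x, hx, (ENNReal.tendsto_toReal ENNReal.zero_ne_top).comp h⟩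

end Vale.Agent.P210
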