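import Vale.Agent.P210.Stm

open Set Filter Topology MeasureTheory Metric
open scoped ENNReal NNReal ContDiff

namespace Vale.Agent.P210

theorem pfMid (hLoc : LocS) : MidS := by
  intro n Ω ρ d M o ho R R0 y hy hR ε hε
  obtain ⟨L1, -, -, L4⟩ := hLoc n Ω ρ d M
  have hoK : o ∈ KB Ω d o R := ⟨ho, by rw [M.self]; exact R0⟩
  have : Nonempty (KB Ω d o R) := ⟨⟨o, hoK⟩⟩
  obtain ⟨J, hJ⟩ : ∃ J : E n → ℝ, ∀ u, J u = ⨅ z : KB Ω d o R, d z u := ⟨_, fun _ => rfl⟩
  have bd : ∀ u, BddBelow (range fun z : KB Ω d o R => d z u) := fun u =>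
    ⟨0, by rintro _ ⟨z, rfl⟩; exact M.nonneg _ _⟩
  have J0 : ∀ u ∈ KB Ω d o R, J u = 0 := fun u hu => by
    rw [hJ]
    exact le_antisymm ((ciInf_le (bd u) ⟨u, hu⟩).trans_eq (M.self u))
      (le_ciInf fun z => M.nonneg _ _)
  have J1 : ∀ u ∈ Ω, ∀ v ∈ Ω, J v - d u v ≤ J u := fun u hu v hv => by
    rw [hJ u]
    refine le_ciInf fun z => ?_
    have a : J v ≤ d z v := by
      rw [hJ]
      exact ciInf_le (bd v) z
    linarith [M.tri z z.2.1 u hu v hv]
  have key : ∀ u ∈ Ω, ∀ v ∈ Ω, (d o u ≤ R ∧ d o v ≤ R) ∨ (R ≤ d o u ∧ R ≤ d o v) →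
      |min (d o v) R + J v - (min (d o u) R + J u)| ≤ d u v := by
    intro u hu v hv h
    rcases h with ⟨a, b⟩ | ⟨a, b⟩
    · rw [min_eq_left a, min_eq_left b, J0 u ⟨hu, a⟩, J0 v ⟨hv, b⟩, abs_le]
      constructor <;> linarith [M.tri o ho u hu v hv, M.tri o ho v hv u hu, M.symm u v]
    · rw [min_eq_right a, min_eq_right b, abs_le]
      constructor <;> linarith [J1 u hu v hv, J1 v hv u hu, M.symm u v]
  have hU : UG Ω ρ fun u => min (d o u) R + J u := by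
    intro u hu e he
    obtain ⟨r, r0, hr, hd⟩ := L1 u hu e he
    have hc : ContinuousAt (d o) u := (L4 o ho).continuousAt (M.op.mem_nhds hu)
    have hev : ∀ᶠ v in 𝓝 u, (d o u ≤ R ∧ d o v ≤ R) ∨ (R ≤ d o u ∧ R ≤ d o v) := by
      rcases lt_trichotomy (d o u) R with h | h | h
      · exact (hc.eventually (gt_mem_nhds h)).mono fun v hv => Or.inl ⟨h.le, hv.le⟩
      · exact Eventually.of_forall fun v => (le_total (d o v) R).imp (fun a => ⟨h.le, a⟩)
          fun a => ⟨h.ge, a⟩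
      · exact (hc.eventually (lt_mem_nhds h)).mono fun v hv => Or.inr ⟨h.le, hv.le⟩
    filter_upwards [hev, ball_mem_nhds u r0] with v h1 h2
    refine (key u hu v (hr h2) h1).trans ?_
    rw [M.symm]
    exact hd v h2 u (mem_ball_self r0)
  have h1 := M.lb _ hU o ho y hy
  simp only [M.self, J0 o hoK, min_eq_left R0, min_eq_right hR] at h1
  have h2 : (⨅ z : KB Ω d o R, d z y) < d o y - R + ε := by
    rw [← hJ]
    linarith
  obtain ⟨z, hz⟩ := exists_lt_of_ciInf_lt h2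
  exact ⟨z, z.2, hz.le⟩

end Vale.Agent.P210
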