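import Vale.Agent.P210.Stm

open Set Filter Topology MeasureTheory Metric
open scoped ENNReal NNReal ContDiff

namespace Vale.Agent.P210

namespace NerveAux

theorem cont {n : ℕ} {R : E n → ℝ} (h : Lp R) : Continuous R :=
  (LipschitzWith.of_le_add fun x y => by
    rw [dist_eq_norm]
    exact h.lip x y).continuous

open Classical in
/-- bump of a label class -/
noncomputable def bump {n : ℕ} {V : Type} (lab : E n → V) (R : E n → ℝ) (v : V) (x : E n) : ℝ :=
  if {z | lab z = v}.Nonempty then max 0 (R x / 2 - infDist x {z | lab z = v}) else 0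

theorem bump_cont {n : ℕ} {V : Type} (lab : E n → V) {R : E n → ℝ} (h : Continuous R) (v : V) :
    Continuous (bump lab R v) := by
  by_cases q : {z | lab z = v}.Nonempty
  · have e : bump lab R v = fun x => max 0 (R x / 2 - infDist x {z | lab z = v}) :=
      funext fun x => if_pos q
    rw [e]
    exact continuous_const.max ((h.div_const 2).sub (continuous_infDist_pt _))
  · have e : bump lab R v = fun _ => 0 := funext fun x => if_neg q
    rw [e]
    exact continuous_const

theorem bump_nonneg {n : ℕ} {V : Type} (lab : E n → V) (R : E n → ℝ) (v : V) (x : E n) :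
    0 ≤ bump lab R v x := by
  unfold bump
  split_ifs
  · exact le_max_left _ _
  · exact le_rfl

theorem bump_self {n : ℕ} {V : Type} (lab : E n → V) (R : E n → ℝ) (x : E n) (h : 0 < R x) :
    0 < bump lab R (lab x) x := by
  have m : x ∈ {z | lab z = lab x} := rfl
  rw [bump, if_pos ⟨x, m⟩, infDist_zero_of_mem m]
  exact lt_max_of_lt_right (by linarith)

theorem bump_pos {n : ℕ} {V : Type} {lab : E n → V} {R : E n → ℝ} {v : V} {x : E n}
    (h : 0 < bump lab R v x) : ∃ z, lab z = v ∧ dist x z < R x / 2 := by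
  unfold bump at h
  split_ifs at h with q
  · have h1 : infDist x {z | lab z = v} < R x / 2 := by
      rcases lt_max_iff.1 h with h | h
      · exact absurd h (lt_irrefl _)
      · linarith
    obtain ⟨z, z1, z2⟩ := (infDist_lt_iff q).1 h1
    exact ⟨z, z1, z2⟩
  · exact absurd h (lt_irrefl _)

end NerveAux

open NerveAux in
theorem pfNerve (hRad : RadS) (hCell : CellS) : NerveS := by
  intro n m V Ω lab Good h1 h2 h3
  obtain ⟨R, r1, r2, r3⟩ := hRad n Ω Good h1 h3
  have hc : Continuous R := cont r1
  obtain ⟨K, f, k1, k2, k3⟩ := hCell Ω inferInstance V m (fun v x => bump lab R v x)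
    (fun v => (bump_cont lab hc v).comp continuous_subtype_val)
    (fun v x => bump_nonneg lab R v x) (fun x => ⟨lab x, bump_self lab R x (r2 x x.2)⟩)
    (fun x₀ => by
      have p := r2 x₀ x₀.2
      obtain ⟨S, s1, s2⟩ := h2 _ (r3 x₀ (7 / 10 * R x₀) (by linarith) (by linarith))
      refine ⟨S, s1, ?_⟩
      filter_upwards [ball_mem_nhds x₀ (show 0 < R x₀ / 10 by linarith)] with x hx v hv
      obtain ⟨z, z1, z2⟩ := bump_pos hv
      have d : dist (x : E n) x₀ < R x₀ / 10 := hx
      have l := r1.lip x x₀
      rw [← dist_eq_norm] at l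
      have t := dist_triangle z x (x₀ : E n)
      rw [dist_comm z x] at t
      exact z1 ▸ s2 z (mem_ball.2 (by linarith)))
  refine ⟨K, f, k1, k2, fun x y e => ?_⟩
  obtain ⟨v, v1, v2⟩ := k3 x y e
  obtain ⟨z, z1, z2⟩ := bump_pos v1
  obtain ⟨z', z3, z4⟩ := bump_pos v2
  have px := r2 x x.2
  have py := r2 y y.2
  exact ⟨z, z', ball x (R x / 2), ball y (R y / 2), r3 x _ (by linarith) (by linarith),
    r3 y _ (by linarith) (by linarith), mem_ball_self (by linarith), mem_ball'.2 z2,
    mem_ball_self (by linarith), mem_ball'.2 z4, z1.trans z3.symm⟩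

end Vale.Agent.P210
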