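import Vale.Agent.P210.Stm

open Set Filter Topology MeasureTheory Metric
open scoped ENNReal NNReal ContDiff

namespace Vale.Agent.P210

namespace NetPAux

theorem round {n : ℕ} {ε : ℝ} (hε : 0 < ε) (σ : E n → ℝ) (U : Set (E n)) :
    ∃ Z : Set (E n), (∀ a ∈ U, 0 < σ a) → Z ⊆ U ∧
      Z.PairwiseDisjoint (fun z => ball z (ε * σ z)) ∧
      ∀ a ∈ U, ∃ z ∈ Z, ‖z - a‖ < ε * σ z + ε * σ a := by
  by_cases h : ∀ a ∈ U, 0 < σ a
  · obtain ⟨Z, h1, h2, h3⟩ := Vitali.exists_disjoint_subfamily_covering_enlargement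
      (fun z : E n => ball z (ε * σ z)) U (fun _ => 1) 2 one_lt_two (fun _ _ => zero_le_one) 1
      (fun _ _ => le_rfl) (fun a ha => nonempty_ball.2 (mul_pos hε (h a ha)))
    refine ⟨Z, fun _ => ⟨h1, h2, fun a ha => ?_⟩⟩
    obtain ⟨b, hb, ⟨y, hy1, hy2⟩, -⟩ := h3 a ha
    refine ⟨b, hb, ?_⟩
    rw [mem_ball] at hy1 hy2
    have := dist_triangle_left b a y
    rw [← dist_eq_norm]
    linarith
  · exact ⟨∅, fun h' => (h h').elim⟩

/-- the points which are not yet covered -/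
def UU {X : Type} (U0 : Set X) (Zf : Set X → Set X) (B : X → Set X) : ℕ → Set X
  | 0 => U0
  | c + 1 => UU U0 Zf B c \ ⋃ z ∈ Zf (UU U0 Zf B c), B z

theorem UU_anti {X : Type} (U0 : Set X) (Zf : Set X → Set X) (B : X → Set X) :
    Antitone (UU U0 Zf B) :=
  antitone_nat_of_succ_le fun _ => sdiff_subset

end NetPAux

open NetPAux in
theorem pfNet (hPack : PackS) : NetS := by
  intro n
  obtain ⟨N, hN, hP⟩ := hPack n
  refine ⟨N, hN, fun ε h0 h1 σ hσ => ?_⟩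
  choose Zf hZ using round h0 σ
  set U := UU {x | 0 < σ x} Zf (fun z => ball z (ε * σ z / 4)) with hU
  have anti : Antitone U := UU_anti _ _ _
  have pos : ∀ c, ∀ a ∈ U c, 0 < σ a := fun c a ha => anti (Nat.zero_le c) ha
  refine ⟨fun c => Zf (U c), fun c => ⟨fun z hz => pos c z ((hZ _ (pos c)).1 hz),
    (hZ _ (pos c)).2.1⟩, fun x hx => ?_⟩
  by_contra hc
  have hx' : ∀ c, c < N → x ∈ U c := by
    intro c
    induction c with
    | zero => exact fun _ => hx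
    | succ c ih =>
      intro h
      refine ⟨ih (by omega), fun h' => hc ?_⟩
      obtain ⟨z, hz, h2⟩ := mem_iUnion₂.1 h'
      exact ⟨c, by omega, z, hz, h2⟩
  have ex : ∀ c, ∃ z, c < N → z ∈ Zf (U c) ∧ ‖z - x‖ < ε * σ z + ε * σ x := fun c => by
    by_cases h : c < N
    · obtain ⟨z, h2, h3⟩ := (hZ _ (pos c)).2.2 x (hx' c h)
      exact ⟨z, fun _ => ⟨h2, h3⟩⟩
    · exact ⟨x, fun h' => (h h').elim⟩
  choose z hz using ex
  have cmp : ∀ c, c < N → 9 * σ (z c) ≤ 11 * σ x ∧ 9 * σ x ≤ 11 * σ (z c) := fun c h => by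
    have a1 := hσ.lip (z c) x
    have a2 := hσ.lip x (z c)
    rw [norm_sub_rev] at a2
    have a3 := (hz c h).2
    have a4 : ε * σ (z c) ≤ 1 / 10 * σ (z c) := mul_le_mul_of_nonneg_right h1 (hσ.nn _)
    have a5 : ε * σ x ≤ 1 / 10 * σ x := mul_le_mul_of_nonneg_right h1 (hσ.nn _)
    constructor <;> linarith
  obtain ⟨c, c', h2, h3, h4⟩ := hP x (ε * σ x) z (mul_pos h0 hx) fun c h => by
    have a1 := mul_le_mul_of_nonneg_left (cmp c h).1 h0.le
    have a2 := (hz c h).2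
    have a3 := mul_pos h0 hx
    linarith
  have h5 : z c' ∈ U (c + 1) := anti h2 ((hZ _ (pos c')).1 (hz c' h3).1)
  refine h5.2 (mem_iUnion₂.2 ⟨z c, (hz c (h2.trans h3)).1, ?_⟩)
  rw [mem_ball, dist_eq_norm]
  have a1 := mul_le_mul_of_nonneg_left (cmp c (h2.trans h3)).2 h0.le
  have a3 := mul_pos h0 hx
  linarith

end Vale.Agent.P210
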