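import Vale.Agent.P210.Stm

open Set Filter Topology MeasureTheory Metric
open scoped ENNReal NNReal ContDiff

namespace Vale.Agent.P210

namespace OpenAux

theorem abs_min (a b e : ℝ) : |min a e - min b e| ≤ |a - b| := by
  have h1 := le_abs_self (a - b)
  have h2 := neg_abs_le (a - b)
  have h3 := abs_nonneg (a - b)
  rw [abs_le]
  rcases le_total a e with p | p <;> rcases le_total b e with q | q <;>
    simp only [min_eq_left, min_eq_right, p, q] <;> constructor <;> linarith

theorem ug {n : ℕ} {Ω : Set (E n)} {ρ f : E n → ℝ} {R δ c : ℝ} {K : Set (E n)} (ho : IsOpen Ω)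
    (hp : ∀ x ∈ Ω, 0 < ρ x) (hu : UG Ω ρ f) (hf : ContinuousOn f Ω)
    (hK : ∀ x, x ∈ Ω → f x ≤ R → x ∈ K) (hδ : 0 < δ) (hc : 0 < c)
    (hρ : ∀ x, infDist x K ≤ δ → c ≤ ρ x) :
    UG Ω ρ fun y => min (f y) R + c * min (infDist y K) δ := by
  intro u hu0 ε hε
  have ca : ContinuousAt f u := hf.continuousAt (ho.mem_nhds hu0)
  have lip : ∀ y, infDist u K ≤ δ →
      |c * min (infDist y K) δ - c * min (infDist u K) δ| ≤ (ρ u + ε) * ‖y - u‖ := by
    intro y h
    have h1 := abs_min (infDist y K) (infDist u K) δ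
    have h2 : |infDist y K - infDist u K| ≤ ‖y - u‖ := by
      have h3 := (lipschitz_infDist_pt K).dist_le_mul y u
      rwa [Real.dist_eq, NNReal.coe_one, one_mul, dist_eq_norm] at h3
    rw [← mul_sub, abs_mul, abs_of_pos hc]
    exact mul_le_mul (by linarith [hρ u h]) (h1.trans h2) (abs_nonneg _)
      (by linarith [hp u hu0])
  rcases lt_trichotomy (f u) R with h | h | h
  · filter_upwards [hu u hu0 ε hε, ho.mem_nhds hu0, ca.eventually (gt_mem_nhds h)] with y a1 a2 a3
    rw [infDist_zero_of_mem (hK y a2 a3.le), infDist_zero_of_mem (hK u hu0 h.le),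
      min_eq_left a3.le, min_eq_left h.le, add_sub_add_right_eq_sub]
    exact a1
  · filter_upwards [hu u hu0 ε hε, ho.mem_nhds hu0] with y a1 a2
    rcases le_total (f y) R with a3 | a3
    · rw [infDist_zero_of_mem (hK y a2 a3), infDist_zero_of_mem (hK u hu0 h.le),
        min_eq_left a3, min_eq_left h.le, add_sub_add_right_eq_sub]
      exact a1
    · rw [min_eq_right a3, min_eq_right h.ge, add_sub_add_left_eq_sub]
      exact lip y (by rw [infDist_zero_of_mem (hK u hu0 h.le)]; exact hδ.le)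
  · rcases le_or_gt (infDist u K) δ with g | g
    · filter_upwards [ca.eventually (lt_mem_nhds h)] with y a3
      rw [min_eq_right a3.le, min_eq_right h.le, add_sub_add_left_eq_sub]
      exact lip y g
    · filter_upwards [ca.eventually (lt_mem_nhds h),
        (continuous_infDist_pt K).continuousAt.eventually (lt_mem_nhds g)] with y a3 a4
      rw [min_eq_right a3.le, min_eq_right h.le, min_eq_right a4.le, min_eq_right g.le, sub_self,
        abs_zero]
      exact mul_nonneg (by linarith [hp u hu0]) (norm_nonneg _)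

end OpenAux

theorem pfOpen (hLoc : LocS) : OpenS := by
  intro n Ω ρ d hm o ho R hR hK
  obtain ⟨-, -, l3, l4⟩ := hLoc n Ω ρ d hm
  have oK : o ∈ KB Ω d o R := ⟨ho, by rw [hm.self]; exact hR⟩
  obtain ⟨δ, hδ, hs⟩ := hK.exists_cthickening_subset_open hm.op fun x hx => hx.1
  have sub : {y | infDist y (KB Ω d o R) ≤ δ} ⊆ cthickening δ (KB Ω d o R) := by
    intro y hy
    obtain ⟨z, hz, e⟩ := hK.exists_infDist_eq_dist ⟨o, oK⟩ y
    exact mem_cthickening_of_dist_le y z δ _ hz (e ▸ hy)
  have cl : IsClosed {y | infDist y (KB Ω d o R) ≤ δ} :=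
    isClosed_le (continuous_infDist_pt _) continuous_const
  have cN : IsCompact {y | infDist y (KB Ω d o R) ≤ δ} :=
    hK.cthickening.of_isClosed_subset cl sub
  obtain ⟨z, hz, hmin⟩ := cN.exists_isMinOn
    ⟨o, show infDist o (KB Ω d o R) ≤ δ by rw [infDist_zero_of_mem oK]; exact hδ.le⟩
    (hm.cont.mono (sub.trans hs))
  have hc : 0 < ρ z := hm.pos z (hs (sub hz))
  have hu := OpenAux.ug (K := KB Ω d o R) (R := R) hm.op hm.pos (l3 o ho) (l4 o ho)
    (fun x a b => ⟨a, b⟩) hδ hc fun x hx => hmin hx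
  have pc : 0 < ρ z * δ := mul_pos hc hδ
  refine ⟨R + ρ z * δ / 2, by linarith, ?_⟩
  have e : KB Ω d o (R + ρ z * δ / 2) =
      {y | infDist y (KB Ω d o R) ≤ δ} ∩ d o ⁻¹' Iic (R + ρ z * δ / 2) := by
    ext y
    refine ⟨fun h => ⟨?_, h.2⟩, fun h => ⟨hs (sub h.1), h.2⟩⟩
    by_contra g
    have g1 : δ < infDist y (KB Ω d o R) := not_le.1 g
    have g2 : R < d o y := by
      by_contra g3
      rw [infDist_zero_of_mem (show y ∈ KB Ω d o R from ⟨h.1, not_lt.1 g3⟩)] at g1
      linarith
    have g4 := hm.lb _ hu o ho y h.1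
    rw [infDist_zero_of_mem oK, hm.self, min_eq_left hR, min_eq_left hδ.le, min_eq_right g2.le,
      min_eq_right g1.le] at g4
    have g5 : d o y ≤ R + ρ z * δ / 2 := h.2
    linarith
  rw [e]
  exact cN.of_isClosed_subset
    (((l4 o ho).mono (sub.trans hs)).preimage_isClosed_of_isClosed cl isClosed_Iic)
    inter_subset_left

end Vale.Agent.P210
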