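import Vale.Agent.P210.Stm

open Set Filter Topology MeasureTheory Metric
open scoped ENNReal NNReal ContDiff

namespace Vale.Agent.P210

namespace PdeAux

theorem fk_lim (q t : ℝ) :
    Tendsto (fun j : ℕ => Fk q ((j : ℝ) + 1) t) atTop (𝓝 (Real.exp (q * t))) := by
  have h : Tendsto (fun j : ℕ => Real.exp (q * t) / ((j : ℝ) + 1)) atTop (𝓝 0) :=
    tendsto_const_nhds.div_atTop (tendsto_natCast_atTop_atTop.atTop_add tendsto_const_nhds)
  have k := (tendsto_const_nhds (x := Real.exp (q * t))).div (h.const_add 1) (by norm_num)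
  rw [add_zero, div_one] at k
  exact k

theorem fk_cont (q k : ℝ) (hk : 0 < k) : Continuous (Fk q k) := by
  unfold Fk
  exact (by fun_prop : Continuous fun t => Real.exp (q * t)).div (by fun_prop)
    fun t => by positivity

end PdeAux

open PdeAux in
theorem pfPde (hPdeK : PdeKS) (hProper : ProperS) : PdeS := by
  intro n β c hβ hc
  obtain ⟨A, hA, B, hB, h⟩ := hPdeK n β c hβ hc
  refine ⟨A, hA, fun Ω w d hM hw hp x r hr => ?_⟩
  rcases Ω.eq_empty_or_nonempty with rfl | ⟨o, ho⟩
  · simp [nu]
  have mΩ : MeasurableSet Ω := hM.op.measurableSet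
  have mK : ∀ R, MeasurableSet (KB Ω d o R) := fun R => (hProper n Ω _ d hM o ho R).measurableSet
  have mS : MeasurableSet (ball x r ∩ Ω) := measurableSet_ball.inter mΩ
  rw [nu, withDensity_apply _ measurableSet_ball, Measure.restrict_restrict measurableSet_ball]
  have am : ∀ j : ℕ, AEMeasurable ((KB Ω d o ((j : ℝ) + 1)).indicator
      fun y => ENNReal.ofReal (Fk (2 + β) ((j : ℝ) + 1) (w y))) (volume.restrict (ball x r ∩ Ω)) :=
    fun j => (((fk_cont _ _ (by positivity)).comp_continuousOn
      (hw.continuousOn.mono inter_subset_right)).aemeasurable mS).ennreal_ofReal.indicator (mK _)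
  have lim : Tendsto (fun j : ℕ => ENNReal.ofReal (A * r ^ ((n : ℝ) - (2 + β)) +
      B * ((j : ℝ) + 1) * r ^ n / ((j : ℝ) + 1) ^ 2)) atTop
      (𝓝 (ENNReal.ofReal (A * r ^ ((n : ℝ) - (2 + β))))) := by
    have k : Tendsto (fun j : ℕ => B * r ^ n / ((j : ℝ) + 1)) atTop (𝓝 0) :=
      tendsto_const_nhds.div_atTop (tendsto_natCast_atTop_atTop.atTop_add tendsto_const_nhds)
    have k2 := k.const_add (A * r ^ ((n : ℝ) - (2 + β)))
    rw [add_zero] at k2
    refine ENNReal.tendsto_ofReal (k2.congr fun j => ?_)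
    have : (j : ℝ) + 1 ≠ 0 := by positivity
    field_simp
  refine le_trans ?_ ((lintegral_liminf_le' am).trans
    ((liminf_le_liminf (Eventually.of_forall fun j => ?_)).trans_eq lim.liminf_eq))
  · refine le_of_eq (setLIntegral_congr_fun mS fun y hy => ?_)
    refine (Tendsto.liminf_eq ?_).symm
    rw [← Real.exp_mul, mul_comm]
    refine (ENNReal.tendsto_ofReal (fk_lim (2 + β) (w y))).congr' ?_
    filter_upwards [(tendsto_natCast_atTop_atTop (R := ℝ)).eventually_ge_atTop (d o y)] with j hj
    rw [indicator_of_mem (show y ∈ KB Ω d o ((j : ℝ) + 1) from ⟨hy.2, by linarith⟩)]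
  · rw [lintegral_indicator (mK _), Measure.restrict_restrict (mK _)]
    refine le_trans (lintegral_mono_set ?_)
      (h Ω w d hM hw hp o ho x r _ _ hr (by positivity) (by positivity))
    exact fun y hy => ⟨hy.2.1, hy.1⟩

end Vale.Agent.P210
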