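import Vale.Agent.P210.Stm

open Set Filter Topology MeasureTheory Metric
open scoped ENNReal NNReal ContDiff

namespace Vale.Agent.P210

namespace PdeKAux

/-- The truncated weight. -/
noncomputable def GG (β k t : ℝ) : ℝ := Real.exp (β * t) / (1 + Real.exp ((2 + β) * t) / k)

theorem den_pos {q k : ℝ} (hk : 0 < k) (t : ℝ) : 0 < 1 + Real.exp (q * t) / k := by positivity

theorem GG_nonneg {β k : ℝ} (hk : 0 < k) (t : ℝ) : 0 ≤ GG β k t :=
  div_nonneg (Real.exp_pos _).le (den_pos hk t).le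

theorem GG_diff {β k : ℝ} (hk : 0 < k) : ContDiff ℝ 1 (GG β k) := by
  unfold GG
  refine ContDiff.div (by fun_prop) (by fun_prop) fun t => (den_pos hk t).ne'

theorem GG_deriv {β k : ℝ} (hβ : 0 < β) (hk : 0 < k) (t : ℝ) :
    deriv (GG β k) t ≤ β * GG β k t := by
  have h1 : HasDerivAt (fun t => Real.exp (β * t)) (Real.exp (β * t) * (β * 1)) t :=
    ((hasDerivAt_id t).const_mul β).exp
  have h2 : HasDerivAt (fun t => 1 + Real.exp ((2 + β) * t) / k)
      (Real.exp ((2 + β) * t) * ((2 + β) * 1) / k) t :=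
    ((((hasDerivAt_id t).const_mul (2 + β)).exp).div_const k).const_add 1
  have hD := den_pos (q := 2 + β) hk t
  have h3 : deriv (GG β k) t = _ := (h1.fun_div h2 hD.ne').deriv
  rw [h3, GG, div_le_iff₀ (by positivity)]
  have h4 : 0 ≤ Real.exp (β * t) * (Real.exp ((2 + β) * t) * ((2 + β) * 1) / k) := by positivity
  have h5 : β * (Real.exp (β * t) / (1 + Real.exp ((2 + β) * t) / k)) *
      (1 + Real.exp ((2 + β) * t) / k) ^ 2 =
      Real.exp (β * t) * (β * 1) * (1 + Real.exp ((2 + β) * t) / k) := by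
    field_simp
  rw [h5]
  linarith

theorem GG_mul (β k t : ℝ) : GG β k t * Real.exp (2 * t) = Fk (2 + β) k t := by
  rw [GG, Fk, div_mul_eq_mul_div, ← Real.exp_add]
  congr 2
  ring

theorem Fk_le {q k : ℝ} (hk : 0 < k) (t : ℝ) : Fk q k t ≤ k := by
  rw [Fk, div_le_iff₀ (den_pos hk t), mul_add, mul_one, mul_div_cancel₀ _ hk.ne']
  linarith

theorem GG_le {β k : ℝ} (hk : 0 < k) (t : ℝ) : GG β k t ≤ Real.exp t ^ β := by
  rw [← Real.exp_mul, mul_comm t β]
  refine div_le_self (Real.exp_pos _).le ?_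
  have : 0 ≤ Real.exp ((2 + β) * t) / k := by positivity
  linarith

/-- The pointwise inequality. -/
theorem ptw {β c P g e z N r R k : ℝ} {m : ℕ} (hβ : 0 < β) (hm : β ≤ m) (hc : 0 < c) (hP : 0 ≤ P)
    (hg : 0 ≤ g) (he : 0 < e) (hz0 : 0 ≤ z) (hz1 : z ≤ 1) (hN0 : 0 ≤ N) (hr : 0 < r) (hR : 0 < R)
    (hN : N ≤ 1 / r + e / R) (hge : g ≤ e ^ β) (hk : g * e ^ 2 ≤ k) :
    P * (g * z ^ m * N ^ 2) ≤ c / 2 * (g * e ^ 2 * z ^ (m + 2)) +
      (2 * P * √(4 * P / c) ^ β * r ^ (-(2 + β)) + 2 * P * k / R ^ 2) := by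
  have hzm : 0 ≤ z ^ m := pow_nonneg hz0 m
  have hgz : 0 ≤ g * z ^ m := mul_nonneg hg hzm
  have h1 : N ^ 2 ≤ 2 * (1 / r) ^ 2 + 2 * (e / R) ^ 2 := by
    have := pow_le_pow_left₀ hN0 hN 2
    nlinarith [sq_nonneg (1 / r - e / R)]
  have h2 : P * (g * z ^ m * (2 * (e / R) ^ 2)) ≤ 2 * P * k / R ^ 2 := by
    have a1 : g * e ^ 2 * z ^ m ≤ k :=
      (mul_le_of_le_one_right (by positivity) (pow_le_one₀ hz0 hz1)).trans hk
    calc P * (g * z ^ m * (2 * (e / R) ^ 2)) = 2 * P * (g * e ^ 2 * z ^ m) / R ^ 2 := by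
          field_simp
      _ ≤ _ := by gcongr
  have h3 : P * (g * z ^ m * (2 * (1 / r) ^ 2)) ≤ c / 2 * (g * e ^ 2 * z ^ (m + 2)) +
      2 * P * √(4 * P / c) ^ β * r ^ (-(2 + β)) := by
    have b0 : 0 ≤ c / 2 * (g * e ^ 2 * z ^ (m + 2)) := by positivity
    have b1 : 0 ≤ 2 * P * √(4 * P / c) ^ β * r ^ (-(2 + β)) := by positivity
    rcases le_total (4 * P / c) ((e * z * r) ^ 2) with h | h
    · have a1 : P * (2 * (1 / r) ^ 2) ≤ c / 2 * (e ^ 2 * z ^ 2) := by
        rw [div_le_iff₀ hc] at h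
        have a2 : P * (2 * (1 / r) ^ 2) = 2 * P / r ^ 2 := by field_simp
        rw [a2, div_le_iff₀ (by positivity)]
        nlinarith
      have a3 := mul_le_mul_of_nonneg_left a1 hgz
      have a4 : c / 2 * (g * e ^ 2 * z ^ (m + 2)) = g * z ^ m * (c / 2 * (e ^ 2 * z ^ 2)) := by ring
      rw [a4] at b0 ⊢
      nlinarith
    · have a1 : e * z ≤ √(4 * P / c) / r := by
        rw [le_div_iff₀ hr]
        exact Real.le_sqrt_of_sq_le h
      have a2 : z ^ m ≤ z ^ β := by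
        rw [← Real.rpow_natCast]
        exact Real.rpow_le_rpow_of_exponent_ge' hz0 hz1 hβ.le hm
      have a3 : g * z ^ m ≤ √(4 * P / c) ^ β * r ^ (-β) := by
        calc g * z ^ m ≤ e ^ β * z ^ β := mul_le_mul hge a2 hzm (by positivity)
          _ = (e * z) ^ β := (Real.mul_rpow he.le hz0).symm
          _ ≤ (√(4 * P / c) / r) ^ β := Real.rpow_le_rpow (by positivity) a1 hβ.le
          _ = _ := by
            rw [Real.div_rpow (Real.sqrt_nonneg _) hr.le, Real.rpow_neg hr.le, div_eq_mul_inv]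
      have a4 : r ^ (-(2 + β)) = (1 / r) ^ 2 * r ^ (-β) := by
        rw [neg_add, Real.rpow_add hr, Real.rpow_neg hr.le, Real.rpow_two, one_div, inv_pow]
      have a5 := mul_le_mul_of_nonneg_left a3 (show 0 ≤ 2 * P * (1 / r) ^ 2 by positivity)
      rw [a4]
      nlinarith
  have h4 := mul_le_mul_of_nonneg_left (mul_le_mul_of_nonneg_left h1 hgz) hP
  nlinarith

end PdeKAux

open PdeKAux in
theorem pfPdeK (hCacc : CaccS) (hCut : CutS) : PdeKS := by
  intro n β c hβ hc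
  set m : ℕ := ⌈β⌉₊ with hmd
  have hm : β ≤ m := Nat.le_ceil β
  have hm0 : m ≠ 0 := (Nat.ceil_pos.2 hβ).ne'
  set P : ℝ := ((m + 2 : ℕ) : ℝ) ^ 2 with hPd
  have hP : 0 < P := by positivity
  set V : ℝ := (volume (ball (0 : E n) 1)).toReal with hVd
  have hVe : volume (ball (0 : E n) 1) = ENNReal.ofReal V :=
    (ENNReal.ofReal_toReal measure_ball_lt_top.ne).symm
  have hV : 0 < V := ENNReal.toReal_pos (measure_ball_pos _ _ one_pos).ne' measure_ball_lt_top.ne
  refine ⟨2 / c * (2 * P * √(4 * P / c) ^ β) * 2 ^ n * V, by positivity,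
    2 / c * (2 * P) * 2 ^ n * V, by positivity, ?_⟩
  intro Ω w d hM hw hpde o ho x r R k hr hR hk
  obtain ⟨ζ, K, hL, hcs, hts, h01, h1, h0, hD⟩ := hCut n Ω _ d hM o ho x r R hr hR
  have hC := hCacc n Ω w ζ (GG β k) β c K (m + 2) hM.op hw hc.le hpde (GG_diff hk) (GG_nonneg hk)
    (GG_deriv hβ hk) hL hcs hts (fun y => (h01 y).1) (by omega)
  rw [Nat.add_sub_cancel] at hC
  set S : ℝ := 2 * P * √(4 * P / c) ^ β * r ^ (-(2 + β)) + 2 * P * k / R ^ 2 with hS
  have hS0 : 0 ≤ S := by positivity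
  set u : E n → ℝ := fun y => GG β k (w y) * Real.exp (2 * w y) * ζ y ^ (m + 2) with hu
  have hu0 : ∀ y, 0 ≤ c / 2 * u y := fun y =>
    mul_nonneg (by positivity) (mul_nonneg (mul_nonneg (GG_nonneg hk _) (Real.exp_pos _).le)
      (pow_nonneg (h01 y).1 _))
  have hind : ∀ a : ℝ≥0∞, ∫⁻ y in Ω, (ball x (2 * r)).indicator (fun _ => a) y ≤
      a * volume (ball x (2 * r)) := fun a => by
    refine (setLIntegral_le_lintegral _ _).trans_eq ?_
    rw [lintegral_indicator_const measurableSet_ball]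
  set J := ∫⁻ y in Ω, ENNReal.ofReal (c / 2 * u y) with hJ
  have hJfin : J ≠ ⊤ := by
    refine ne_top_of_le_ne_top (ENNReal.mul_ne_top (a := ENNReal.ofReal (c / 2 * k))
      ENNReal.ofReal_ne_top measure_ball_lt_top.ne) (le_trans (lintegral_mono fun y => ?_) (hind _))
    by_cases hy : y ∈ ball x (2 * r)
    · rw [indicator_of_mem hy]
      refine ENNReal.ofReal_le_ofReal (mul_le_mul_of_nonneg_left ?_ (by positivity))
      refine (mul_le_of_le_one_right (mul_nonneg (GG_nonneg hk _) (Real.exp_pos _).le)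
        (pow_le_one₀ (h01 y).1 (h01 y).2)).trans ?_
      rw [GG_mul]
      exact Fk_le hk _
    · simp [hu, h0 y hy]
  have hlo : J + J ≤ ∫⁻ y in Ω, ENNReal.ofReal (c * u y) := by
    refine (le_lintegral_add _ _).trans_eq (lintegral_congr fun y => ?_)
    rw [← ENNReal.ofReal_add (hu0 y) (hu0 y)]
    congr 1
    ring
  have hhi : ∫⁻ y in Ω, ENNReal.ofReal (P * (GG β k (w y) * ζ y ^ m * ‖fderiv ℝ ζ y‖ ^ 2)) ≤
      J + ENNReal.ofReal S * volume (ball x (2 * r)) := by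
    refine le_trans ?_ (add_le_add le_rfl (hind (ENNReal.ofReal S)))
    rw [hJ, ← lintegral_add_right _ (measurable_const.indicator measurableSet_ball)]
    refine setLIntegral_mono' hM.op.measurableSet fun y hy => ?_
    by_cases hb : y ∈ ball x (2 * r)
    · rw [indicator_of_mem hb, ← ENNReal.ofReal_add (hu0 y) hS0]
      refine ENNReal.ofReal_le_ofReal ?_
      have e2 : Real.exp (2 * w y) = Real.exp (w y) ^ 2 := by
        rw [← Real.exp_nat_mul]; norm_num
      have := ptw (k := k) hβ hm hc hP.le (GG_nonneg hk (w y)) (Real.exp_pos (w y)) (h01 y).1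
        (h01 y).2 (norm_nonneg _) hr hR (hD y hy) (GG_le hk _)
        (by rw [← e2, GG_mul]; exact Fk_le hk _)
      rw [← e2] at this
      exact this
    · simp [h0 y hb, hm0]
  have hJle : J ≤ ENNReal.ofReal S * volume (ball x (2 * r)) :=
    (ENNReal.add_le_add_iff_left hJfin).1 (hlo.trans (hC.trans hhi))
  have hsub : ball x r ∩ KB Ω d o R ⊆ Ω ∩ ζ ⁻¹' {1} := fun y hy => ⟨hy.2.1, h1 y hy⟩
  have hmeas : MeasurableSet (Ω ∩ ζ ⁻¹' {1}) :=
    hM.op.measurableSet.inter (hL.continuous.measurable (measurableSet_singleton 1))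
  have hF : ∫⁻ y in ball x r ∩ KB Ω d o R, ENNReal.ofReal (Fk (2 + β) k (w y)) ≤
      ENNReal.ofReal (2 / c) * J := by
    rw [hJ, ← lintegral_const_mul' _ _ ENNReal.ofReal_ne_top]
    refine (lintegral_mono_set hsub).trans (le_trans (setLIntegral_mono' hmeas fun y hy => ?_)
      (lintegral_mono_set inter_subset_left))
    have hy1 : ζ y = 1 := hy.2
    rw [← ENNReal.ofReal_mul (by positivity)]
    refine ENNReal.ofReal_le_ofReal (le_of_eq ?_)
    simp only [hu, hy1, one_pow, mul_one, GG_mul]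
    field_simp
  refine hF.trans ((mul_le_mul_right hJle _).trans_eq ?_)
  rw [Measure.addHaar_ball_of_pos _ _ (by positivity : 0 < 2 * r), finrank_euclideanSpace_fin, hVe,
    ← ENNReal.ofReal_mul (by positivity), ← ENNReal.ofReal_mul hS0,
    ← ENNReal.ofReal_mul (by positivity)]
  congr 1
  rw [sub_eq_add_neg, Real.rpow_add hr, Real.rpow_natCast, hS, mul_pow]
  ring

end Vale.Agent.P210
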