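import Vale.Agent.P210.Stm

open Set Filter Topology MeasureTheory Metric
open scoped ENNReal NNReal ContDiff

namespace Vale.Agent.P210

theorem pfPos : PosS := by
  intro n Ω A L a P Φ σ hL hP hS x hx
  have h1 : ((⌊Φ x / L - 3⌋ + 1 + 1 : ℤ) : ℝ) * L < Φ x := by
    have h := Int.floor_le (Φ x / L - 3)
    rw [← lt_div_iff₀ hL]
    push_cast
    linarith
  obtain ⟨k, hk⟩ := ((hP.lim x hx).eventually_const_lt h1).exists
  exact (zpow_pos two_pos k).trans_le (hS.low _ x k hk.le)

end Vale.Agent.P210
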