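import Vale.Agent.P210.Stm

open Set Filter Topology MeasureTheory Metric
open scoped ENNReal NNReal ContDiff

namespace Vale.Agent.P210

namespace Pot1Aux

theorem exc (f : ℤ → ℝ) : ∃ c : ℤ → ℝ, ∀ k, c k - c (k + 1) = f (k + 1) := by
  refine ⟨fun k => ∑ i ∈ Finset.range (-k).toNat, f (-i) -
    ∑ i ∈ Finset.range k.toNat, f (i + 1), fun k => ?_⟩
  rcases le_or_gt 0 k with h | h
  · obtain ⟨m, rfl⟩ := Int.eq_ofNat_of_zero_le h
    have e1 : (-(m : ℤ)).toNat = 0 := by omega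
    have e2 : (-((m : ℤ) + 1)).toNat = 0 := by omega
    have e3 : ((m : ℤ) + 1).toNat = m + 1 := by omega
    simp only [e1, e2, e3, Int.toNat_natCast, Finset.sum_range_succ]
    ring
  · obtain ⟨m, rfl⟩ : ∃ m : ℕ, k = -((m : ℤ) + 1) := ⟨(-k - 1).toNat, by omega⟩
    have e5 : -((m : ℤ) + 1) + 1 = -m := by ring
    have e1 : (-(-((m : ℤ) + 1))).toNat = m + 1 := by omega
    have e2 : (-((m : ℤ) + 1)).toNat = 0 := by omega
    have e3 : (-(-(m : ℤ))).toNat = m := by omega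
    have e4 : (-(m : ℤ)).toNat = 0 := by omega
    simp only [e5, e1, e2, e3, e4, Finset.sum_range_succ]
    ring

theorem geo (B : ℝ) (k : ℤ) :
    HasSum (fun j : ℕ => B / (2 : ℝ) ^ (k + 1 + j)) (B / (2 : ℝ) ^ k) := by
  have h := hasSum_geometric_two' (B / (2 : ℝ) ^ k)
  have e : (fun j : ℕ => B / (2 : ℝ) ^ (k + 1 + j)) = fun j : ℕ => B / (2 : ℝ) ^ k / 2 / 2 ^ j := by
    funext j
    rw [zpow_add₀ two_ne_zero, zpow_add₀ two_ne_zero, zpow_one, zpow_natCast, div_div, div_div,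
      mul_assoc]
  rw [e]
  exact h

end Pot1Aux

open Pot1Aux in
theorem pfPot1 : Pot1S := by
  intro n A a h
  obtain ⟨c, hc⟩ := exc (a 0)
  have sm : ∀ x y k, Summable fun j : ℕ => a x (k + 1 + j) - a y (k + 1 + j) := fun x y k =>
    Summable.of_norm_bounded (geo (A * ‖x - y‖) k).summable fun j => h x y _
  refine ⟨fun x k => ∑' j : ℕ, (a x (k + 1 + j) - a 0 (k + 1 + j)) + c k, fun x k => ?_,
    fun x y k => ?_⟩
  · have e := (sm x 0 k).tsum_eq_zero_add
    have e2 : ∀ j : ℕ, k + 1 + ((j + 1 : ℕ) : ℤ) = k + 1 + 1 + j := fun j => by push_cast; ring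
    simp only [e2, Nat.cast_zero, add_zero] at e
    have := hc k
    beta_reduce
    linarith
  · beta_reduce
    rw [add_sub_add_right_eq_sub, ← (sm x 0 k).tsum_sub (sm y 0 k)]
    rw [← Real.norm_eq_abs]
    refine tsum_of_norm_bounded (geo (A * ‖x - y‖) k) fun j => ?_
    rw [sub_sub_sub_cancel_right]
    exact h x y _

end Vale.Agent.P210
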