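import Vale.Agent.P210.Stm

open Set Filter Topology MeasureTheory Metric
open scoped ENNReal NNReal ContDiff

namespace Vale.Agent.P210

namespace Pot2Aux

theorem cont {n : ℕ} {f : E n → ℝ} {A c : ℝ} (hA : 0 ≤ A) (hc : 0 < c)
    (h : ∀ x y, |f x - f y| ≤ A * ‖x - y‖ / c) : Continuous f :=
  (LipschitzWith.of_dist_le' (K := A / c) fun x y => by
    rw [Real.dist_eq, dist_eq_norm, div_mul_eq_mul_div]
    exact h x y).continuous

theorem bd {f : ℤ → ℝ} {A M : ℝ} {k₀ : ℤ} (hA : 0 ≤ A) (h1 : ∀ k, f k ≤ A)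
    (h2 : ∀ k ≤ k₀, f k ≤ M * (2 : ℝ) ^ k) (i : ℕ) :
    f (-i) ≤ (|M| + A * 2 ^ k₀.natAbs) * (1 / 2) ^ i := by
  have p : (0 : ℝ) < (1 / 2) ^ i := by positivity
  have q : 0 ≤ A * 2 ^ k₀.natAbs * (1 / 2) ^ i := by positivity
  rcases le_or_gt (-(i : ℤ)) k₀ with h | h
  · have e : (2 : ℝ) ^ (-(i : ℤ)) = (1 / 2) ^ i := by
      rw [zpow_neg, zpow_natCast, one_div, inv_pow]
    have := h2 _ h
    rw [e] at this
    nlinarith [le_abs_self M]
  · have e : (1 : ℝ) ≤ 2 ^ k₀.natAbs * (1 / 2) ^ i := by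
      rw [one_div, inv_pow, ← div_eq_mul_inv, one_le_div (by positivity)]
      exact pow_le_pow_right₀ (by norm_num) (by omega)
    have := mul_le_mul_of_nonneg_left e hA
    nlinarith [h1 (-i), mul_nonneg (abs_nonneg M) p.le]

end Pot2Aux

open Pot2Aux in
theorem pfPot2 (hPot1 : Pot1S) (hBot : BotS) (hSum : SumS) : Pot2S := by
  intro n Ω A a a0 a1 lip loc div
  obtain ⟨P, st, lp⟩ := hPot1 n A a lip
  have hA : 0 ≤ A := (a0 0 0).trans (a1 0 0)
  have geo : ∀ c : ℝ, Summable fun i : ℕ => c * (1 / 2 : ℝ) ^ i := fun c =>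
    summable_geometric_two.mul_left c
  have sm : ∀ x ∈ Ω, Summable fun i : ℕ => a x (-i) := fun x hx => by
    obtain ⟨r, hr, M, k₀, h⟩ := loc x hx
    exact Summable.of_nonneg_of_le (fun i => a0 _ _) (bd hA (a1 x) (h x (mem_ball_self hr))) (geo _)
  refine ⟨P, fun x => P x 0 + ∑' i : ℕ, a x (-i), a0, a1, st, lp, hBot n A a P a0 lip st div,
    fun x hx => (hSum (a x) (P x) (st x) (sm x hx)).1,
    fun x hx => (hSum (a x) (P x) (st x) (sm x hx)).2, fun x hx => ?_⟩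
  obtain ⟨r, hr, M, k₀, h⟩ := loc x hx
  have c1 : Continuous fun x => P x 0 := cont hA (zpow_pos two_pos _) fun x y => lp x y 0
  have c2 : ContinuousOn (fun x => ∑' i : ℕ, a x (-i)) (ball x r) :=
    continuousOn_tsum (fun i => (cont hA (zpow_pos two_pos _) fun x y => lip x y _).continuousOn)
      (geo _) fun i y hy => by
        rw [Real.norm_eq_abs, abs_of_nonneg (a0 _ _)]
        exact bd hA (a1 y) (h y hy) i
  exact (c1.continuousAt.add (c2.continuousAt (ball_mem_nhds x hr))).continuousWithinAt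

end Vale.Agent.P210
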