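import Vale.Agent.P210.Stm

open Set Filter Topology MeasureTheory Metric
open scoped ENNReal NNReal ContDiff

namespace Vale.Agent.P210

namespace ProperAux

theorem mono {n : ℕ} {Ω : Set (E n)} {d : E n → E n → ℝ} {o : E n} (hc : ContinuousOn (d o) Ω)
    {R R' : ℝ} (h : R' ≤ R) (hK : IsCompact (KB Ω d o R)) : IsCompact (KB Ω d o R') := by
  have e : KB Ω d o R' = KB Ω d o R ∩ d o ⁻¹' Iic R' := by
    ext x
    exact ⟨fun hx => ⟨⟨hx.1, hx.2.trans h⟩, hx.2⟩, fun hx => ⟨hx.1.1, hx.2⟩⟩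
  rw [e]
  exact hK.of_isClosed_subset ((hc.mono fun x hx => hx.1).preimage_isClosed_of_isClosed
    hK.isClosed isClosed_Iic) inter_subset_left

end ProperAux

theorem pfProper (hLoc : LocS) (hOpen : OpenS) (hClosed : ClosedS) : ProperS := by
  intro n Ω ρ d hM o ho R
  obtain ⟨-, h2, -, h4⟩ := hLoc n Ω ρ d hM
  have hc := h4 o ho
  have h0 : IsCompact (KB Ω d o 0) := by
    obtain ⟨r, hr, c, hc0, h⟩ := h2 o ho
    refine Set.Finite.isCompact ((Set.finite_singleton o).subset fun y hy => ?_)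
    have a := (h y hy.1).trans hy.2
    have b : min ‖y - o‖ r ≤ 0 := by
      by_contra hn
      exact absurd a (not_le.2 (mul_pos hc0 (not_le.1 hn)))
    rcases min_le_iff.1 b with b | b
    · exact sub_eq_zero.1 (norm_le_zero_iff.1 b)
    · exact absurd b (not_le.2 hr)
  by_contra hR
  have hb : BddAbove {t : ℝ | IsCompact (KB Ω d o t)} :=
    ⟨R, fun t ht => le_of_not_gt fun h => hR (ProperAux.mono hc h.le ht)⟩
  have hT0 : 0 ≤ sSup {t : ℝ | IsCompact (KB Ω d o t)} := le_csSup hb h0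
  have hT : IsCompact (KB Ω d o (sSup {t : ℝ | IsCompact (KB Ω d o t)})) := by
    rcases hT0.eq_or_lt with e | e
    · rw [← e]; exact h0
    · refine hClosed n Ω ρ d hM o ho _ e fun R' h => ?_
      obtain ⟨t, ht, h'⟩ := exists_lt_of_lt_csSup ⟨0, h0⟩ h
      exact ProperAux.mono hc h'.le ht
  obtain ⟨R', h1, h3⟩ := hOpen n Ω ρ d hM o ho _ hT0 hT
  exact absurd (le_csSup hb h3) (not_le.2 h1)

end Vale.Agent.P210
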