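import Vale.Agent.P210.Stm

open Set Filter Topology MeasureTheory Metric
open scoped ENNReal NNReal ContDiff

namespace Vale.Agent.P210

namespace RadPAux

end RadPAux

theorem pfRad : RadS := by
  intro n Ω Good hm hΩ
  obtain ⟨A, hA⟩ : ∃ A : E n → Set ℝ, ∀ x r, r ∈ A x ↔ r = 0 ∨ (0 < r ∧ r ≤ 1 ∧ Good (ball x r)) :=
    ⟨fun x => {r | r = 0 ∨ (0 < r ∧ r ≤ 1 ∧ Good (ball x r))}, fun _ _ => Iff.rfl⟩
  have h0 : ∀ x, (0 : ℝ) ∈ A x := fun x => (hA x 0).2 (Or.inl rfl)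
  have hb : ∀ x, BddAbove (A x) := fun x => ⟨1, fun r hr => by
    rcases (hA x r).1 hr with h | h
    · exact h.le.trans zero_le_one
    · exact h.2.1⟩
  have hl : ∀ x y, sSup (A x) - sSup (A y) ≤ ‖x - y‖ := fun x y => by
    rw [sub_le_iff_le_add]
    refine csSup_le ⟨0, h0 x⟩ fun r hr => ?_
    have h1 := le_csSup (hb y) (h0 y)
    have h2 := norm_nonneg (x - y)
    by_cases k : r ≤ ‖x - y‖
    · linarith
    rcases (hA x r).1 hr with h | h
    · linarith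
    have h3 : r - ‖x - y‖ ∈ A y := (hA y _).2 (Or.inr ⟨by linarith, by linarith,
      hm _ _ h.2.2 (ball_subset_ball' (by rw [dist_comm, dist_eq_norm]; linarith))⟩)
    have h4 := le_csSup (hb y) h3
    linarith
  refine ⟨fun x => sSup (A x), ⟨fun x => le_csSup (hb x) (h0 x), fun x y =>
    sub_le_iff_le_add'.1 (hl x y)⟩, fun x hx => ?_, fun x r hr h => ?_⟩
  · obtain ⟨r, hr, h⟩ := hΩ x hx
    exact (lt_min hr one_pos).trans_le (le_csSup (hb x) ((hA x _).2 (Or.inr ⟨lt_min hr one_pos,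
      min_le_right _ _, hm _ _ h (ball_subset_ball (min_le_left _ _))⟩)))
  · obtain ⟨s, hs, h1⟩ := exists_lt_of_lt_csSup ⟨0, h0 x⟩ h
    rcases (hA x s).1 hs with k | k
    · linarith
    · exact hm _ _ k.2.2 (ball_subset_ball h1.le)

end Vale.Agent.P210
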