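import Vale.Agent.P210.Stm

open Set Filter Topology MeasureTheory Metric
open scoped ENNReal NNReal ContDiff

namespace Vale.Agent.P210

namespace ScaleAux

theorem num (m : ℕ) (s q κ u v S a : ℝ) (hs : 0 ≤ s) (hq : 0 < q) (hκ : 0 < κ) (hu : 0 < u)
    (hS : 0 < S) (h1 : S ≤ v) (h2 : v ≤ 2 * S)
    (ha : (κ * 4 ^ m) ^ (1 / q) * u ^ ((m - s) / q) ≤ a) :
    κ * (2 * (u * v) / S) ^ m * S ^ s ≤ a ^ q * (u * v) ^ s := by
  have hv : 0 < v := lt_of_lt_of_le hS h1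
  have hk : 0 < κ * 4 ^ m := by positivity
  have e1 : ((κ * 4 ^ m) ^ (1 / q) * u ^ ((m - s) / q)) ^ q = κ * 4 ^ m * u ^ ((m : ℝ) - s) := by
    rw [Real.mul_rpow (by positivity) (by positivity), ← Real.rpow_mul hk.le,
      ← Real.rpow_mul hu.le, one_div_mul_cancel hq.ne', div_mul_cancel₀ _ hq.ne', Real.rpow_one]
  have a1 : κ * 4 ^ m * u ^ ((m : ℝ) - s) ≤ a ^ q := by
    rw [← e1]
    exact Real.rpow_le_rpow (by positivity) ha hq.le
  have e2 : u ^ ((m : ℝ) - s) * u ^ s = u ^ m := by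
    rw [← Real.rpow_add hu, sub_add_cancel, Real.rpow_natCast]
  have a2 : S ^ s ≤ v ^ s := Real.rpow_le_rpow hS.le h1 hs
  have a3 : 2 * (u * v) / S ≤ 4 * u := by
    rw [div_le_iff₀ hS]
    nlinarith
  have a4 : (2 * (u * v) / S) ^ m ≤ (4 * u) ^ m := pow_le_pow_left₀ (by positivity) a3 m
  calc κ * (2 * (u * v) / S) ^ m * S ^ s ≤ κ * (4 * u) ^ m * v ^ s := by gcongr
    _ = κ * 4 ^ m * u ^ ((m : ℝ) - s) * (u * v) ^ s := by
      rw [Real.mul_rpow hu.le hv.le, mul_pow, ← e2]; ring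
    _ ≤ a ^ q * (u * v) ^ s := by gcongr

end ScaleAux

theorem pfScale (hGeo : GeoS) : ScaleS := by
  intro m A s q η κ hs hsm hq hη hκ
  obtain ⟨N, hN⟩ : ∃ N : ℕ, 4 / η < 2 ^ N := pow_unbounded_of_one_lt _ one_lt_two
  obtain ⟨L0, hL0, hG⟩ := hGeo A ((m - s) / q) ((κ * 4 ^ m) ^ (1 / q)) N
    (div_pos (sub_pos.2 hsm) hq) (by positivity)
  refine ⟨L0 + |A|, by positivity, ?_⟩
  intro n ν Ω a P Φ σ hP hσ hν j x hx
  have hS : 0 < σ j x := lt_of_lt_of_le hx (hσ.anti j x)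
  obtain ⟨K, hK1, hK2⟩ : ∃ K : ℤ, σ j x < (2 : ℝ) ^ K ∧ (2 : ℝ) ^ K ≤ 2 * σ j x := by
    refine ⟨Int.log 2 (σ j x) + 1, ?_, ?_⟩
    · simpa using Int.lt_zpow_succ_log_self (b := 2) (by norm_num) (σ j x)
    · have := Int.zpow_log_le_self (b := 2) (by norm_num) hS
      rw [zpow_add_one₀ two_ne_zero]
      push_cast at this
      linarith
  have hPK : P x K < j * (L0 + |A|) := by
    by_contra h
    exact absurd (hσ.low j x K (not_lt.1 h)) (not_le.2 hK1)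
  obtain ⟨y, k, hy1, hy2⟩ := hσ.wit (j + 1) x hx
  have h2k : (0 : ℝ) < 2 ^ k := by positivity
  have hn := norm_nonneg (x - y)
  have hl : |P x k - P y k| ≤ |A| := by
    refine (hP.lip x y k).trans ?_
    rw [div_le_iff₀ h2k]
    have h1 : ‖x - y‖ ≤ 2 ^ k := by linarith
    exact (mul_le_mul_of_nonneg_right (le_abs_self A) hn).trans
      (mul_le_mul_of_nonneg_left h1 (abs_nonneg A))
  have hd : L0 ≤ P x k - P x K := by
    have := (abs_le.1 hl).1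
    push_cast at hy1
    linarith
  obtain ⟨i, hi1, hi2, hi3⟩ := hG (a x) (P x) k K (hP.step x) (hP.a0 x) (hP.a1 x) hd
  have e1 : (2 : ℝ) ^ i = 2 ^ (i - K) * 2 ^ K := by
    rw [← zpow_add₀ two_ne_zero, sub_add_cancel]
  have e2 : (2 : ℝ) ^ (i + 1) = 2 * (2 ^ (i - K) * 2 ^ K) := by
    rw [zpow_add_one₀ two_ne_zero, ← e1, mul_comm]
  refine ⟨2 ^ (i + 1), by positivity, ?_, ?_, ?_⟩
  · have h1 : (2 : ℝ) ^ (k + 1) ≤ 2 ^ (i + 1) := zpow_le_zpow_right₀ one_le_two (by omega)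
    rw [zpow_add_one₀ two_ne_zero] at h1
    linarith
  · have h1 : (2 : ℝ) ^ (i + N) ≤ 2 ^ K := zpow_le_zpow_right₀ one_le_two hi2
    rw [zpow_add₀ two_ne_zero, zpow_natCast] at h1
    rw [zpow_add_one₀ two_ne_zero]
    rw [div_lt_iff₀ hη] at hN
    have h2 : (0 : ℝ) < 2 ^ i := by positivity
    have h3 : 2 ^ i * 4 ≤ (2 : ℝ) ^ i * (2 ^ N * η) := mul_le_mul_of_nonneg_left hN.le h2.le
    have h4 : (2 : ℝ) ^ i * 2 ^ N * η ≤ 2 * σ j x * η :=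
      mul_le_mul_of_nonneg_right (h1.trans hK2) hη.le
    linarith
  · refine le_trans (ENNReal.ofReal_le_ofReal ?_) (hν x i)
    rw [e2, e1]
    exact ScaleAux.num m s q κ _ _ _ _ hs hq hκ (by positivity) hS hK1.le hK2 hi3

end Vale.Agent.P210
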