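import Vale.Agent.P210.Stm

open Set Filter Topology MeasureTheory Metric
open scoped ENNReal NNReal ContDiff

namespace Vale.Agent.P210

namespace SegAux

lemma claimA {n : ℕ} {Ω : Set (E n)} {ρ : E n → ℝ} {d : E n → E n → ℝ} (hM : Met Ω ρ d)
    (x y : E n) {t : ℝ} (ht : t ∈ Icc (0 : ℝ) 1)
    (hs : ∀ s ∈ Icc (0 : ℝ) t, x + s • (y - x) ∈ Ω) :
    ENNReal.ofReal (d x (x + t • (y - x))) ≤ sl Ω ρ x y := by
  rcases ht.1.eq_or_lt with h0 | h0
  · rw [← h0, zero_smul, add_zero, hM.self, ENNReal.ofReal_zero]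
    exact zero_le
  have hmem : ∀ s ∈ Icc (0 : ℝ) 1, s * t ∈ Icc (0 : ℝ) t := fun s hs' =>
    ⟨mul_nonneg hs'.1 h0.le, mul_le_of_le_one_left h0.le hs'.2⟩
  have hpt : ∀ s : ℝ, x + s • (x + t • (y - x) - x) = x + (s * t) • (y - x) := fun s => by
    rw [add_sub_cancel_left, smul_smul]
  have hseg : segment ℝ x (x + t • (y - x)) ⊆ Ω := by
    rw [segment_eq_image']
    rintro _ ⟨s, hs', rfl⟩
    show x + s • (x + t • (y - x) - x) ∈ Ω
    rw [hpt]
    exact hs _ (hmem s hs')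
  refine (hM.seg x _ hseg).trans ?_
  have hd : ∀ s ∈ Icc (0 : ℝ) 1, HasDerivWithinAt (fun s : ℝ => s * t) t (Icc (0 : ℝ) 1) s :=
    fun s _ => by simpa using ((hasDerivAt_id s).mul_const t).hasDerivWithinAt
  have hinj : InjOn (fun s : ℝ => s * t) (Icc (0 : ℝ) 1) := fun a _ b _ h =>
    mul_right_cancel₀ h0.ne' h
  have key := lintegral_image_eq_lintegral_abs_deriv_mul measurableSet_Icc hd hinj
    (fun u : ℝ => ENNReal.ofReal (Ω.indicator ρ (x + u • (y - x)) * ‖y - x‖))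
  have hsub : (fun s : ℝ => s * t) '' Icc (0 : ℝ) 1 ⊆ Icc (0 : ℝ) 1 := by
    rintro _ ⟨s, hs', rfl⟩
    exact ⟨(hmem s hs').1, (hmem s hs').2.trans ht.2⟩
  refine le_trans (le_of_eq ?_) (lintegral_mono_set hsub)
  rw [key]
  refine setLIntegral_congr_fun measurableSet_Icc fun s hs' => ?_
  show _ = ENNReal.ofReal |t| *
    ENNReal.ofReal (Ω.indicator ρ (x + (s * t) • (y - x)) * ‖y - x‖)
  rw [← ENNReal.ofReal_mul (abs_nonneg t), indicator_of_mem (hs _ (hmem s hs')), hpt,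
    add_sub_cancel_left, norm_smul, Real.norm_eq_abs]
  congr 1
  ring

end SegAux

theorem pfSeg (hLoc : LocS) (hProper : ProperS) : SegS := by
  intro n Ω ρ d hM x hx y hfin
  have hK : IsClosed (KB Ω d x (sl Ω ρ x y).toReal) := (hProper n Ω ρ d hM x hx _).isClosed
  have hγ : Continuous fun t : ℝ => x + t • (y - x) := by fun_prop
  have hin : ∀ t ∈ Icc (0 : ℝ) 1, (∀ s ∈ Icc (0 : ℝ) t, x + s • (y - x) ∈ Ω) →
      x + t • (y - x) ∈ KB Ω d x (sl Ω ρ x y).toReal := fun t ht hs =>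
    ⟨hs t ⟨ht.1, le_rfl⟩,
      (ENNReal.ofReal_le_iff_le_toReal hfin).1 (SegAux.claimA hM x y ht hs)⟩
  have hall : Icc (0 : ℝ) 1 ⊆
      (fun t : ℝ => x + t • (y - x)) ⁻¹' KB Ω d x (sl Ω ρ x y).toReal := by
    refine IsClosed.Icc_subset_of_forall_mem_nhdsGT_of_Icc_subset
      ((hK.preimage hγ).inter isClosed_Icc) ?_ fun t ht hsub => ?_
    · refine hin 0 ⟨le_rfl, zero_le_one⟩ fun s hs => ?_
      rw [le_antisymm hs.2 hs.1, zero_smul, add_zero]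
      exact hx
    · have h1 : (fun t : ℝ => x + t • (y - x)) ⁻¹' Ω ∈ 𝓝 t :=
        hγ.continuousAt.preimage_mem_nhds (hM.op.mem_nhds (hsub ⟨ht.1, le_rfl⟩).1)
      obtain ⟨ε, hε, hb⟩ := Metric.mem_nhds_iff.1 h1
      have h2 : Ioo t (min (t + ε) 1) ∈ 𝓝[>] t :=
        Ioo_mem_nhdsGT (lt_min (lt_add_of_pos_right t hε) ht.2)
      refine mem_of_superset h2 fun u hu => ?_
      have hu2 := lt_min_iff.1 hu.2
      refine hin u ⟨ht.1.trans hu.1.le, hu2.2.le⟩ fun s hs => ?_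
      rcases le_total s t with h | h
      · exact (hsub ⟨hs.1, h⟩).1
      · refine hb ?_
        rw [mem_ball, Real.dist_eq, abs_of_nonneg (sub_nonneg.2 h)]
        linarith [hs.2, hu2.1]
  have hΩ : ∀ s ∈ Icc (0 : ℝ) 1, x + s • (y - x) ∈ Ω := fun s hs => (hall hs).1
  have e : x + (1 : ℝ) • (y - x) = y := by rw [one_smul, add_sub_cancel]
  have h1 := SegAux.claimA hM x y ⟨zero_le_one, le_rfl⟩ hΩ
  have h2 := hΩ 1 ⟨zero_le_one, le_rfl⟩
  rw [e] at h1 h2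
  exact ⟨h2, h1⟩

end Vale.Agent.P210
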