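import Vale.Agent.P210.Stm

open Set Filter Topology MeasureTheory Metric
open scoped ENNReal NNReal ContDiff

namespace Vale.Agent.P210

namespace SigPAux

variable {n : ℕ}

/-- admissible radii at level `c` -/
def S (P : E n → ℤ → ℝ) (c : ℝ) (x : E n) : Set ℝ :=
  insert 0 {t | ∃ y, ∃ k : ℤ, c ≤ P y k ∧ t = (2 : ℝ) ^ k - ‖x - y‖}

lemma ne (P : E n → ℤ → ℝ) (c : ℝ) (x : E n) : (S P c x).Nonempty := insert_nonempty _ _

lemma bdd {Ω : Set (E n)} {A : ℝ} {a P : E n → ℤ → ℝ} {Φ : E n → ℝ} (h : Pot Ω A a P Φ)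
    (c : ℝ) (x : E n) : BddAbove (S P c x) := by
  have hA : 0 ≤ A := (h.a0 x 0).trans (h.a1 x 0)
  obtain ⟨K, hK⟩ := eventually_atTop.1 ((h.bot x).eventually (eventually_lt_atBot (c - A)))
  refine ⟨(2 : ℝ) ^ K, ?_⟩
  have hp : (0 : ℝ) < 2 ^ K := by positivity
  rintro t (rfl | ⟨y, k, h1, rfl⟩)
  · exact hp.le
  · have hk : (0 : ℝ) < 2 ^ k := by positivity
    by_contra hc
    have h0 := norm_nonneg (x - y)
    have h2 : ‖x - y‖ ≤ 2 ^ k := by linarith [not_le.1 hc]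
    have h3 : A * ‖x - y‖ / 2 ^ k ≤ A := by
      rw [div_le_iff₀ hk]
      exact mul_le_mul_of_nonneg_left h2 hA
    have h4 := (abs_le.1 ((h.lip x y k).trans h3)).1
    have h5 : k ≤ K := by
      by_contra h5
      have := hK k (not_le.1 h5).le
      linarith
    have h6 : (2 : ℝ) ^ k ≤ 2 ^ K := zpow_le_zpow_right₀ (by norm_num) h5
    exact hc (by linarith)

end SigPAux

open SigPAux in
theorem pfSig : SigS := by
  intro n Ω A L a P Φ h hL
  have nn : ∀ c x, 0 ≤ sSup (S P c x) := fun c x => le_csSup (bdd h c x) (mem_insert _ _)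
  have mem : ∀ c x y (k : ℤ), c ≤ P y k → (2 : ℝ) ^ k - ‖x - y‖ ≤ sSup (S P c x) :=
    fun c x y k e => le_csSup (bdd h c x) (mem_insert_of_mem _ ⟨y, k, e, rfl⟩)
  refine ⟨fun j x => sSup (S P (j * L) x), fun j => ⟨nn _, fun x x' => ?_⟩, fun j x => ?_,
    fun j x k e => ?_, fun j x e => ?_⟩
  · refine csSup_le (ne _ _ _) ?_
    rintro t (rfl | ⟨y, k, h1, rfl⟩)
    · exact add_nonneg (nn _ _) (norm_nonneg _)
    · have h2 := mem _ x' y k h1
      have h3 : ‖x' - y‖ ≤ ‖x' - x‖ + ‖x - y‖ := norm_sub_le_norm_sub_add_norm_sub _ _ _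
      rw [norm_sub_rev x' x] at h3
      linarith
  · refine csSup_le (ne _ _ _) ?_
    rintro t (rfl | ⟨y, k, h1, rfl⟩)
    · exact nn _ _
    · refine mem _ x y k (le_trans ?_ h1)
      push_cast
      linarith
  · simpa using mem _ x x k e
  · obtain ⟨t, ht, h2⟩ := exists_lt_of_lt_csSup (ne P (j * L) x) (half_lt_self e)
    rcases ht with rfl | ⟨y, k, h1, rfl⟩
    · exact absurd h2 (not_lt.2 (half_pos e).le)
    · exact ⟨y, k, h1, h2⟩

end Vale.Agent.P210
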