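import Vale.Agent.P210.Stm

open Set Filter Topology MeasureTheory Metric
open scoped ENNReal NNReal ContDiff

namespace Vale.Agent.P210

namespace SmallAux

theorem vol {n : ℕ} {Ω : Set (E n)} {ρ : E n → ℝ} {q M R : ℝ} (hq : 0 < q) (hR : 0 < R)
    (x : E n) (h : ∀ y ∈ ball x R, 0 ≤ ρ y ∧ ρ y ≤ M) :
    nu Ω ρ q (ball x R) ≤
      ENNReal.ofReal (M ^ q * (R ^ n * (volume (ball (0 : E n) 1)).toReal)) := by
  have M0 : 0 ≤ M := (h x (mem_ball_self hR)).1.trans (h x (mem_ball_self hR)).2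
  rw [nu, withDensity_apply _ measurableSet_ball, ENNReal.ofReal_mul (by positivity),
    ENNReal.ofReal_mul (by positivity), ENNReal.ofReal_toReal measure_ball_lt_top.ne]
  refine (setLIntegral_mono' measurableSet_ball fun y hy => ENNReal.ofReal_le_ofReal
    (Real.rpow_le_rpow (h y hy).1 (h y hy).2 hq.le)).trans ?_
  rw [setLIntegral_const]
  gcongr
  refine (Measure.restrict_le_self _).trans_eq ?_
  rw [Measure.addHaar_ball_of_pos _ _ hR, finrank_euclideanSpace_fin]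

theorem root {a t B q : ℝ} {n : ℕ} (hq : 0 < q) (ha : 0 ≤ a) (ht : 0 < t) (hB : 0 ≤ B)
    (h : a ^ q * t ^ ((n : ℝ) - q) ≤ B * t ^ n) : a ≤ B ^ (1 / q) * t := by
  rw [← Real.rpow_le_rpow_iff ha (by positivity) hq, Real.mul_rpow (by positivity) ht.le,
    ← Real.rpow_mul hB, one_div_mul_cancel hq.ne', Real.rpow_one]
  refine le_of_mul_le_mul_right (h.trans_eq ?_) (Real.rpow_pos_of_pos ht _)
  rw [mul_assoc, ← Real.rpow_add ht, add_sub_cancel, Real.rpow_natCast]

end SmallAux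

theorem pfSmall : SmallS := by
  intro n Ω ρ q a hq hΩ hρ hp ha h x₀ hx₀
  obtain ⟨ε, ε0, hε⟩ := nhds_basis_closedBall.mem_iff.1 (hΩ.mem_nhds hx₀)
  obtain ⟨M, hM⟩ := (isCompact_closedBall x₀ ε).exists_bound_of_continuousOn (hρ.mono hε)
  have M0 : 0 ≤ M := (norm_nonneg _).trans (hM x₀ (mem_closedBall_self ε0.le))
  obtain ⟨m, hm, -⟩ := exists_mem_Ico_zpow (half_pos ε0) (one_lt_two (α := ℝ))
  refine ⟨ε / 2, half_pos ε0, (M ^ q * (2 ^ n * (volume (ball (0 : E n) 1)).toReal)) ^ (1 / q),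
    m - 1, fun x hx k hk => SmallAux.root (n := n) hq (ha x k) (by positivity) (by positivity) ?_⟩
  have h1 : (2 : ℝ) ^ (k + 1) ≤ ε / 2 :=
    (zpow_le_zpow_right₀ one_le_two (by omega)).trans hm
  have h2 := (h x k).trans (SmallAux.vol (M := M) hq (by positivity) x fun y hy => by
    have m1 : y ∈ closedBall x₀ ε := by
      rw [mem_ball] at hx hy
      rw [mem_closedBall]
      linarith [dist_triangle y x x₀]
    exact ⟨(hp y (hε m1)).le, (le_abs_self _).trans (hM y m1)⟩)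
  rw [ENNReal.ofReal_le_ofReal_iff (by positivity), zpow_add_one₀ two_ne_zero, mul_pow] at h2
  exact h2.trans_eq (by ring)

end Vale.Agent.P210
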