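import Vale.Agent.P210.Stm

open Set Filter Topology MeasureTheory Metric
open scoped ENNReal NNReal ContDiff

namespace Vale.Agent.P210

namespace StepAux

theorem sub {n : ℕ} {σ : E n → ℝ} {ε u : ℝ} {z z' y : E n} (h0 : 0 < ε) (h1 : ε ≤ 1 / 10)
    (hσ : Lp σ) (u1 : u ≤ 1 / 2) (a : y ∈ ball z (u * σ z)) (b : y ∈ ball z' (ε * σ z')) :
    ball z' (ε * σ z') ⊆ ball z ((u + 4 * ε) * σ z) := by
  intro w hw
  rw [mem_ball] at a b hw ⊢
  have c := hσ.lip z' z
  rw [← dist_eq_norm] at c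
  have d := dist_triangle_left z' z y
  have e := dist_triangle w z' z
  have f := hσ.nn z
  have g := hσ.nn z'
  have k : σ z' ≤ 2 * σ z := by nlinarith
  nlinarith [mul_le_mul_of_nonneg_left k h0.le]

end StepAux

theorem pfStep (hStep1 : Step1S) : StepS := by
  intro n ε σ I hI x t wt Z h0 h1 hσ ht hZ
  classical
  have H := fun (z : E n) (hz : z ∈ Z) =>
    hStep1 n ε σ I hI x t wt z h0 h1 hσ ht (hZ.pos z hz)
  choose! r hr using H
  refine ⟨r, fun z hz => ⟨(hr z hz).1, (hr z hz).2.1⟩, fun z u u0 u1 => ?_⟩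
  set U := ball z ((u + 4 * ε) * σ z) with hU
  let Z' := {z' // z' ∈ Z ∧ ball z' (ε * σ z') ⊆ U}
  have k1 : ∀ i, (x ⁻¹' ball z (u * σ z)).indicator (fun i =>
      if Hit Z r x t i then wt i * ENNReal.ofReal (σ (x i) / t i) else wt i) i ≤
      (x ⁻¹' U).indicator wt i + ∑' z' : Z', {i | |‖x i - z'.1‖ - r z'.1| ≤ t i}.indicator
        (fun i => wt i * ENNReal.ofReal (σ (x i) / t i)) i := fun i => by
    by_cases hi : i ∈ x ⁻¹' ball z (u * σ z)
    · rw [indicator_of_mem hi]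
      split_ifs with h
      · obtain ⟨z', hz', hh⟩ := h
        refine le_add_left (le_trans ?_ (ENNReal.le_tsum
          (⟨z', hz', StepAux.sub h0 h1 hσ u1 hi ((hr z' hz').2.2.1 i hh)⟩ : Z')))
        exact (indicator_of_mem (s := {i | |‖x i - z'‖ - r z'| ≤ t i}) hh
          (fun i => wt i * ENNReal.ofReal (σ (x i) / t i))).ge
      · refine le_add_right (indicator_of_mem (s := x ⁻¹' U) ?_ _).ge
        exact ball_subset_ball (mul_le_mul_of_nonneg_right (by linarith) (hσ.nn z)) hi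
    · rw [indicator_of_notMem hi]
      exact zero_le
  have k2 : ∀ i, ∑' z' : Z', (x ⁻¹' ball z'.1 (ε * σ z'.1)).indicator wt i ≤
      (x ⁻¹' U).indicator wt i := fun i => by
    by_cases h : ∃ z' : Z', i ∈ x ⁻¹' ball z'.1 (ε * σ z'.1)
    · obtain ⟨z', hz'⟩ := h
      rw [tsum_eq_single z' fun b hb => indicator_of_notMem
        (s := x ⁻¹' ball b.1 (ε * σ b.1)) (fun hb' =>
        disjoint_left.1 (hZ.disj b.2.1 z'.2.1 fun e => hb (Subtype.ext e)) hb' hz') wt,
        indicator_of_mem hz', indicator_of_mem (s := x ⁻¹' U) (z'.2.2 hz')]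
    · rw [ENNReal.tsum_eq_zero.2 fun z' => indicator_of_notMem (fun a => h ⟨z', a⟩) _]
      exact zero_le
  refine (ENNReal.tsum_le_tsum k1).trans ?_
  rw [ENNReal.tsum_add, ENNReal.tsum_comm, ENNReal.ofReal_add zero_le_one (by positivity),
    ENNReal.ofReal_one, add_mul, one_mul]
  refine add_le_add le_rfl ((ENNReal.tsum_le_tsum fun z' : Z' => (hr _ z'.2.1).2.2.2).trans ?_)
  rw [ENNReal.tsum_mul_left]
  refine mul_le_mul_right ?_ _
  unfold Wt
  rw [ENNReal.tsum_comm]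
  exact ENNReal.tsum_le_tsum k2

end Vale.Agent.P210
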