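import Vale.Agent.P210.Stm

open Set Filter Topology MeasureTheory Metric
open scoped ENNReal NNReal ContDiff

namespace Vale.Agent.P210

namespace Step1Aux

theorem win {ε s s' D r t : ℝ} (h0 : 0 < ε) (h1 : ε ≤ 1 / 10) (hs : 0 < s) (hD : 0 ≤ D)
    (hl : s' ≤ s + D) (ht : t ≤ ε / 10 * s') (hr : r ≤ ε * s / 2) (h : |D - r| ≤ t) :
    D < ε * s := by
  have a1 := (abs_le.1 h).2
  have a2 : ε / 10 * s' ≤ ε / 10 * (s + D) := mul_le_mul_of_nonneg_left hl (by positivity)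
  have a3 : ε * D ≤ 1 / 10 * D := mul_le_mul_of_nonneg_right h1 hD
  have a4 : 0 < ε * s := mul_pos h0 hs
  nlinarith

theorem term {w : ℝ≥0∞} {s s' t : ℝ} (ht : 0 < t) (h0 : 0 ≤ s') (h : s' ≤ 2 * s) :
    w * ENNReal.ofReal (s' / t) * ENNReal.ofReal (2 * t) ≤ ENNReal.ofReal (4 * s) * w := by
  rw [mul_assoc, ← ENNReal.ofReal_mul (div_nonneg h0 ht.le), mul_comm]
  refine mul_le_mul_left (ENNReal.ofReal_le_ofReal ?_) w
  have : s' / t * (2 * t) = 2 * s' := by field_simp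
  rw [this]
  linarith

end Step1Aux

open Step1Aux

theorem pfStep1 (hAvg : AvgS) : Step1S := by
  intro n ε σ I hI x t wt z h0 h1 hσ ht hz
  have a4 : 0 < ε * σ z := mul_pos h0 hz
  obtain ⟨r, ⟨hr1, hr2⟩, hav⟩ := hAvg I hI (fun i => ‖x i - z‖) t
    ((x ⁻¹' ball z (ε * σ z)).indicator fun i => wt i * ENNReal.ofReal (σ (x i) / t i))
    (ε * σ z / 4) (ε * σ z / 2) (by linarith) fun i => (ht i).1.le
  have hw : ∀ i, |‖x i - z‖ - r| ≤ t i → x i ∈ ball z (ε * σ z) := fun i hi =>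
    mem_ball_iff_norm.2 (win h0 h1 hz (norm_nonneg _) (hσ.lip _ _) (ht i).2 hr2 hi)
  refine ⟨r, hr1, hr2, hw, ?_⟩
  have e1 : ∀ i, {i | |‖x i - z‖ - r| ≤ t i}.indicator
      (fun i => wt i * ENNReal.ofReal (σ (x i) / t i)) i =
      {i | |‖x i - z‖ - r| ≤ t i}.indicator ((x ⁻¹' ball z (ε * σ z)).indicator
        fun i => wt i * ENNReal.ofReal (σ (x i) / t i)) i := by
    intro i
    by_cases hi : i ∈ {i | |‖x i - z‖ - r| ≤ t i}
    · have hi' : i ∈ x ⁻¹' ball z (ε * σ z) := hw i hi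
      rw [indicator_of_mem hi, indicator_of_mem hi, indicator_of_mem hi']
    · rw [indicator_of_notMem hi, indicator_of_notMem hi]
  have e2 : ∑' i, (x ⁻¹' ball z (ε * σ z)).indicator
      (fun i => wt i * ENNReal.ofReal (σ (x i) / t i)) i * ENNReal.ofReal (2 * t i) ≤
      ENNReal.ofReal (4 * σ z) * Wt x wt (ball z (ε * σ z)) := by
    unfold Wt
    rw [← ENNReal.tsum_mul_left]
    refine ENNReal.tsum_le_tsum fun i => ?_
    by_cases hi : i ∈ x ⁻¹' ball z (ε * σ z)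
    · rw [indicator_of_mem hi, indicator_of_mem hi]
      refine term (ht i).1 (hσ.nn _) ?_
      have b1 := hσ.lip (x i) z
      have b2 : ‖x i - z‖ < ε * σ z := mem_ball_iff_norm.1 hi
      have b3 : ε * σ z ≤ 1 / 10 * σ z := mul_le_mul_of_nonneg_right h1 hz.le
      linarith
    · rw [indicator_of_notMem hi, zero_mul]
      exact bot_le
  have e3 : ENNReal.ofReal (4 * σ z) =
      ENNReal.ofReal (16 / ε) * ENNReal.ofReal (ε * σ z / 2 - ε * σ z / 4) := by
    rw [← ENNReal.ofReal_mul (by positivity)]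
    refine congrArg _ ?_
    field_simp
    ring
  have e4 := hav.trans e2
  rw [e3, mul_right_comm] at e4
  rw [tsum_congr e1]
  exact (ENNReal.mul_le_mul_iff_left (ENNReal.ofReal_pos.2 (by linarith)).ne'
    ENNReal.ofReal_ne_top).1 e4

end Vale.Agent.P210
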