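import Vale.Agent.P210.Stm

open Set Filter Topology MeasureTheory Metric
open scoped ENNReal NNReal ContDiff

namespace Vale.Agent.P210

namespace SumPAux

lemma shift (f : ℤ → ℝ) (k : ℤ) :
    (fun i : ℕ => f (k + 1 - ((i + 1 : ℕ) : ℤ))) = fun i : ℕ => f (k - i) := by
  funext i
  congr 1
  push_cast
  ring

lemma step (f : ℤ → ℝ) (k : ℤ) (a : ℝ) :
    HasSum (fun i : ℕ => f (k - i)) a ↔ HasSum (fun i : ℕ => f (k + 1 - i)) (a + f (k + 1)) := by
  rw [← shift f k, hasSum_nat_add_iff (f := fun i : ℕ => f (k + 1 - i)) 1]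
  simp

lemma part (f p : ℤ → ℝ) (h : ∀ k, p k - p (k + 1) = f (k + 1)) (N : ℕ) :
    p 0 + ∑ i ∈ Finset.range N, f (-i) = p (-N) := by
  induction N with
  | zero => simp
  | succ N ih =>
    have e := h (-((N + 1 : ℕ) : ℤ))
    rw [show -((N + 1 : ℕ) : ℤ) + 1 = -N by push_cast; ring] at e
    rw [Finset.sum_range_succ, ← add_assoc, ih]
    linarith

end SumPAux

theorem pfSum : SumS := by
  intro f p h hs
  refine ⟨fun k => ?_, ?_⟩
  · induction k using Int.induction_on with
    | zero => simpa using hs.hasSum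
    | succ k ih =>
      have e := (SumPAux.step f k _).1 ih
      rw [← h k] at e
      rwa [show p 0 + ∑' i : ℕ, f (-i) - p (k + 1) =
        p 0 + ∑' i : ℕ, f (-i) - p k + (p k - p (k + 1)) by ring]
    | pred k ih =>
      refine (SumPAux.step f _ _).2 ?_
      have e := h (-(k : ℤ) - 1)
      rw [sub_add_cancel] at e ⊢
      rwa [show p 0 + ∑' i : ℕ, f (-i) - p (-(k : ℤ) - 1) + f (-k) =
        p 0 + ∑' i : ℕ, f (-i) - p (-k) by linarith]
  · have t1 : Tendsto (fun N : ℕ => p (-N)) atTop (𝓝 (p 0 + ∑' i : ℕ, f (-i))) := by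
      have := hs.hasSum.tendsto_sum_nat.const_add (p 0)
      simpa only [SumPAux.part f p h] using this
    have t2 : Tendsto (fun k : ℤ => (-k).toNat) atBot atTop :=
      tendsto_atTop.2 fun b => (eventually_le_atBot (-(b : ℤ))).mono fun k hk => by omega
    refine (t1.comp t2).congr' ((eventually_le_atBot 0).mono fun k hk => ?_)
    show p (-((-k).toNat : ℤ)) = p k
    congr 1
    omega

end Vale.Agent.P210
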