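import Vale.Agent.P210.Stm

open Set Filter Topology MeasureTheory Metric
open scoped ENNReal NNReal ContDiff

namespace Vale.Agent.P210

namespace VitAux

theorem alg {m : ℕ} {s A δ τ a b : ℝ} (hs : 0 ≤ s) (hA : 0 < A) (hδ : 0 < δ) (hτ : 0 ≤ τ)
    (ha : 0 < a) (hb : 0 < b) (hab : a ≤ 2 * b) :
    (9 * τ / b) ^ m ≤ δ / (A * a ^ s) * (9 ^ m * 2 ^ s * A / δ * (τ / b) ^ m * b ^ s) := by
  have h1 : a ^ s ≤ 2 ^ s * b ^ s := by
    rw [← Real.mul_rpow (by norm_num) hb.le]
    exact Real.rpow_le_rpow ha.le hab hs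
  have h2 : 0 < a ^ s := Real.rpow_pos_of_pos ha s
  have e : δ / (A * a ^ s) * (9 ^ m * 2 ^ s * A / δ * (τ / b) ^ m * b ^ s)
      = 9 ^ m * (τ / b) ^ m * (2 ^ s * b ^ s / a ^ s) := by
    field_simp
  rw [e, mul_div_assoc, mul_pow]
  exact le_mul_of_one_le_right (by positivity) ((one_le_div h2).2 h1)

theorem sum_le {n : ℕ} {I : Type} [Countable I] (ν : Measure (E n)) (x : I → E n) (r : I → ℝ)
    (wt : I → ℝ≥0∞) (U W : Set (E n)) (c : ℝ≥0∞)
    (hd : Pairwise (Function.onFun Disjoint fun i => ball (x i) (r i)))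
    (h : ∀ i, x i ∈ U → ball (x i) (r i) ⊆ W ∧ wt i ≤ c * ν (ball (x i) (r i))) :
    Wt x wt U ≤ c * ν W := by
  classical
  set D : I → Set (E n) := fun i => if x i ∈ U then ball (x i) (r i) else ∅ with hD
  have s1 : ∀ i, D i ⊆ ball (x i) (r i) := fun i => by
    simp only [hD]
    split_ifs
    exacts [Subset.rfl, empty_subset _]
  have m1 : ∀ i, MeasurableSet (D i) := fun i => by
    simp only [hD]
    split_ifs
    exacts [measurableSet_ball, MeasurableSet.empty]
  have d1 : Pairwise (Function.onFun Disjoint D) := fun i j hij => (hd hij).mono (s1 i) (s1 j)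
  have s2 : (⋃ i, D i) ⊆ W := iUnion_subset fun i => by
    simp only [hD]
    split_ifs with hi
    exacts [(h i hi).1, empty_subset _]
  refine le_trans ?_ (mul_le_mul_right (measure_mono s2) c)
  rw [measure_iUnion d1 m1, ← ENNReal.tsum_mul_left]
  refine ENNReal.tsum_le_tsum fun i => ?_
  by_cases hi : x i ∈ U
  · rw [indicator_of_mem (show i ∈ x ⁻¹' U from hi)]
    simp only [hD, if_pos hi]
    exact (h i hi).2
  · rw [indicator_of_notMem (show i ∉ x ⁻¹' U from hi)]
    exact zero_le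

end VitAux

open VitAux in
theorem pfVit : VitS := by
  intro n m s A η δ hs hA hη hδ
  refine ⟨min (η / 9) (1 / 3), by positivity, 9 ^ m * 2 ^ s * A / δ, by positivity, ?_⟩
  intro ν σ σ' hν hσ hτ
  choose! τ t0 t1 t2 t3 using hτ
  have a1 : ∀ x, 0 < σ' x → τ x ≤ η / 9 * σ x := fun x hx =>
    (t2 x hx).trans (mul_le_mul_of_nonneg_right (min_le_left _ _) (hσ.nn x))
  have a2 : ∀ x, 0 < σ' x → τ x ≤ 1 / 3 * σ x := fun x hx =>
    (t2 x hx).trans (mul_le_mul_of_nonneg_right (min_le_right _ _) (hσ.nn x))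
  have a3 : ∀ x, 0 < σ' x → 0 < σ x := fun x hx => by linarith [t0 x hx, a2 x hx]
  obtain ⟨u, hu, hd, hc⟩ := Vitali.exists_disjoint_subfamily_covering_enlargement
    (fun x => ball x (τ x)) {x | 0 < σ' x} (fun x => τ x / σ x) 2 one_lt_two
    (fun x hx => div_nonneg (t0 x hx).le (hσ.nn x)) 1
    (fun x hx => (div_le_one (a3 x hx)).2 (by linarith [a2 x hx, a3 x hx]))
    (fun x hx => nonempty_ball.2 (t0 x hx))
  have cu : Countable u :=
    (hd.countable_of_isOpen (fun _ _ => isOpen_ball) fun x hx => nonempty_ball.2 (t0 x (hu hx)))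
  refine ⟨u, cu, Subtype.val, fun i => 9 * τ i, fun i => ?_, fun z => ?_, fun a ha => ?_⟩
  · have := t0 i (hu i.2)
    have := a1 i (hu i.2)
    exact ⟨by linarith, by linarith⟩
  · rcases (hσ.nn z).eq_or_lt with hz | hz
    · simp [← hz, Wt]
    have hp : 0 < A * σ z ^ s := by positivity
    refine (sum_le ν Subtype.val (fun i : u => τ i) _ _ (ball z (σ z))
      (ENNReal.ofReal (δ / (A * σ z ^ s))) (hd.subtype _ _) fun i hi => ?_).trans ?_
    · have b1 : ‖(i : E n) - z‖ < σ z / 2 := by rwa [mem_ball, dist_eq_norm] at hi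
      have b2 := hσ.lip z i
      have b3 := hσ.lip i z
      have b4 := a2 i (hu i.2)
      rw [norm_sub_rev] at b2
      refine ⟨ball_subset_ball' (by rw [dist_eq_norm]; linarith), ?_⟩
      refine le_trans ?_ (mul_le_mul_right (t3 i (hu i.2)) _)
      rw [← ENNReal.ofReal_mul (by positivity)]
      exact ENNReal.ofReal_le_ofReal
        (alg hs hA hδ (t0 i (hu i.2)).le hz (a3 i (hu i.2)) (by linarith))
    · refine (mul_le_mul_right (hν z _ hz) _).trans (le_of_eq ?_)
      rw [← ENNReal.ofReal_mul (by positivity), div_mul_cancel₀ _ hp.ne']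
  · obtain ⟨b, hb, ⟨y, y1, y2⟩, h2⟩ := hc a ha
    refine ⟨⟨b, hb⟩, ball_subset_ball' ?_⟩
    have c1 : dist a b < τ a + τ b :=
      (dist_triangle_left a b y).trans_lt (add_lt_add (mem_ball.1 y1) (mem_ball.1 y2))
    have c2 := hσ.lip a b
    rw [← dist_eq_norm] at c2
    have c3 := a2 a ha
    have c4 := a2 b (hu hb)
    have c5 := a3 b (hu hb)
    have c6 := t0 b (hu hb)
    have c7 := t1 a ha
    have c8 : τ a ≤ 4 * τ b := by
      rw [← mul_div_assoc, div_le_div_iff₀ (a3 a ha) c5] at h2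
      refine le_of_mul_le_mul_right (h2.trans ?_) c5
      nlinarith
    show σ' a + dist a b ≤ 9 * τ b
    linarith

end Vale.Agent.P210
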