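import Vale.Agent.P210.Scal
import Vale.Agent.P210.DTri
import Vale.Agent.P210.DSeg
import Vale.Agent.P210.DLb
import Vale.Agent.P210.MetP
import Vale.Agent.P210.Loc
import Vale.Agent.P210.Open
import Vale.Agent.P210.Mid
import Vale.Agent.P210.Closed
import Vale.Agent.P210.Proper
import Vale.Agent.P210.Ibp
import Vale.Agent.P210.Lip
import Vale.Agent.P210.Cacc
import Vale.Agent.P210.Cut
import Vale.Agent.P210.PdeK
import Vale.Agent.P210.Pde
import Vale.Agent.P210.Seg
import Vale.Agent.P210.Hol
import Vale.Agent.P210.Dil
import Vale.Agent.P210.Av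
import Vale.Agent.P210.Mark
import Vale.Agent.P210.Core
import Vale.Agent.P210.Div
import Vale.Agent.P210.Apr
import Vale.Agent.P210.Small
import Vale.Agent.P210.Pot1
import Vale.Agent.P210.Bot
import Vale.Agent.P210.SumP
import Vale.Agent.P210.Pot2
import Vale.Agent.P210.SigP
import Vale.Agent.P210.Geo
import Vale.Agent.P210.Scale
import Vale.Agent.P210.Vit
import Vale.Agent.P210.Pack
import Vale.Agent.P210.NetP
import Vale.Agent.P210.Avg
import Vale.Agent.P210.Step1
import Vale.Agent.P210.Step
import Vale.Agent.P210.Iter
import Vale.Agent.P210.Label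
import Vale.Agent.P210.Lab
import Vale.Agent.P210.LevP
import Vale.Agent.P210.Pos
import Vale.Agent.P210.FinA1
import Vale.Agent.P210.FinA2
import Vale.Agent.P210.FinA
import Vale.Agent.P210.FinB
import Vale.Agent.P210.RadP
import Vale.Agent.P210.CellP
import Vale.Agent.P210.Nerve
import Vale.Agent.P210.Main

namespace Vale.Agent.P210

theorem thScal : ScalS := pfScal

theorem thDTri : DTriS := pfDTri

theorem thDSeg : DSegS := pfDSeg

theorem thDLb : DLbS := pfDLb thDSeg

theorem thMet : MetS := pfMet thDTri thDSeg thDLb

theorem thLoc : LocS := pfLoc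

theorem thOpen : OpenS := pfOpen thLoc

theorem thMid : MidS := pfMid thLoc

theorem thClosed : ClosedS := pfClosed thLoc thMid

theorem thProper : ProperS := pfProper thLoc thOpen thClosed

theorem thIbp : IbpS := pfIbp

theorem thLip : LipS := pfLip

theorem thCacc : CaccS := pfCacc thIbp thLip

theorem thCut : CutS := pfCut thLoc thProper thLip

theorem thPdeK : PdeKS := pfPdeK thCacc thCut

theorem thPde : PdeS := pfPde thPdeK thProper

theorem thSeg : SegS := pfSeg thLoc thProper

theorem thHol : HolS := pfHol

theorem thDil : DilS := pfDil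

theorem thAv : AvS := pfAv thHol thDil

theorem thMark : MarkS := pfMark thSeg thAv

theorem thCore : CoreS := pfCore thMark

theorem thDiv : DivS := pfDiv thMark thProper

theorem thApr : AprS := pfApr

theorem thSmall : SmallS := pfSmall

theorem thPot1 : Pot1S := pfPot1

theorem thBot : BotS := pfBot

theorem thSum : SumS := pfSum

theorem thPot2 : Pot2S := pfPot2 thPot1 thBot thSum

theorem thSig : SigS := pfSig

theorem thGeo : GeoS := pfGeo

theorem thScale : ScaleS := pfScale thGeo

theorem thVit : VitS := pfVit

theorem thPack : PackS := pfPack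

theorem thNet : NetS := pfNet thPack

theorem thAvg : AvgS := pfAvg

theorem thStep1 : Step1S := pfStep1 thAvg

theorem thStep : StepS := pfStep thStep1

theorem thIter : IterS := pfIter thStep

theorem thLabel : LabelS := pfLabel

theorem thLab : LabS := pfLab thNet thIter thLabel

theorem thLev : LevS := pfLev thLab thVit thScale

theorem thPos : PosS := pfPos

theorem thFinA1 : FinA1S := pfFinA1 thPos

theorem thFinA2 : FinA2S := pfFinA2 thPos

theorem thFinA : FinAS := pfFinA thFinA1 thFinA2

theorem thFinB : FinBS := pfFinB thPos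

theorem thRad : RadS := pfRad

theorem thCell : CellS := pfCell

theorem thNerve : NerveS := pfNerve thRad thCell

theorem thMain : MainS :=
  pfMain thScal thMet thLoc thPde thCore thDiv thApr thSmall thPot2 thSig thLev thFinA thFinB
    thNerve

end Vale.Agent.P210
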