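import Vale.Agent.P210.Stm

open Set Filter Topology MeasureTheory Metric
open scoped ENNReal NNReal ContDiff

namespace Vale.Agent.P210

namespace AvAux

theorem cover (φ : ℝ → ℝ≥0∞) : ∫⁻ t in Icc (0 : ℝ) 1, φ t ≤
    ∑' i : ℕ, ∫⁻ t in Ioc ((1 / 2 : ℝ) ^ (i + 1)) ((1 / 2) ^ i), φ t := by
  rw [← setLIntegral_congr (Ioc_ae_eq_Icc (a := (0 : ℝ)) (b := 1))]
  refine (lintegral_mono_set fun t ht => ?_).trans (lintegral_iUnion_le _ _)
  obtain ⟨i, h1, h2⟩ := exists_nat_pow_near_of_lt_one ht.1 ht.2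
    (show (0 : ℝ) < 1 / 2 by norm_num) (by norm_num)
  exact mem_iUnion.2 ⟨i, h1, h2⟩

theorem meas {n : ℕ} {Ω : Set (E n)} {ρ : E n → ℝ} (h : IsOpen Ω) (hc : ContinuousOn ρ Ω) :
    Measurable (Ω.indicator ρ) := by
  classical
  have := hc.measurable_piecewise (g := fun _ => (0 : ℝ)) continuousOn_const h.measurableSet
  rw [← piecewise_eq_indicator]
  exact this

theorem zp (k : ℤ) (i : ℕ) : (2 : ℝ) ^ (k - i) = (1 / 2) ^ i * 2 ^ k := by
  rw [zpow_sub₀ two_ne_zero, zpow_natCast, one_div, inv_pow, div_eq_inv_mul]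

end AvAux

open AvAux in
theorem pfAv (hHol : HolS) (hDil : DilS) : AvS := by
  intro n q hq
  obtain ⟨C, hC, H⟩ := hHol n q hq
  refine ⟨C, hC, fun Ω ρ ho hc hp hf x k => ?_⟩
  have hg := meas ho hc
  have hR : (0 : ℝ) < 2 ^ k := by positivity
  have m0 : Measurable fun p : E n × ℝ => Ω.indicator ρ (x + p.2 • (p.1 - x)) :=
    hg.comp (by fun_prop)
  refine ⟨?_, ?_⟩
  · have m1 : Measurable fun p : E n × ℝ =>
        ENNReal.ofReal (Ω.indicator ρ (x + p.2 • (p.1 - x)) * ‖p.1 - x‖) :=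
      (m0.mul (by fun_prop)).ennreal_ofReal
    exact m1.lintegral_prod_right'
  have m2 : Measurable fun p : E n × ℝ =>
      ENNReal.ofReal (Ω.indicator ρ (x + p.2 • (p.1 - x))) * ENNReal.ofReal ((2 : ℝ) ^ k) :=
    m0.ennreal_ofReal.mul_const _
  have s1 : ∫⁻ y in ball x ((2 : ℝ) ^ k), sl Ω ρ x y ≤
      ∫⁻ y in ball x ((2 : ℝ) ^ k), ∫⁻ t in Icc (0 : ℝ) 1,
        ENNReal.ofReal (Ω.indicator ρ (x + t • (y - x))) * ENNReal.ofReal ((2 : ℝ) ^ k) := by
    refine setLIntegral_mono' measurableSet_ball fun y hy => lintegral_mono fun t => ?_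
    beta_reduce
    rw [ENNReal.ofReal_mul' (norm_nonneg _)]
    exact mul_le_mul_right (ENNReal.ofReal_le_ofReal (mem_ball_iff_norm.1 hy).le) _
  rw [lintegral_lintegral_swap m2.aemeasurable] at s1
  refine s1.trans ((cover _).trans ?_)
  rw [← ENNReal.tsum_mul_left]
  refine ENNReal.tsum_le_tsum fun i => ?_
  have hi : (0 : ℝ) < (1 / 2) ^ i := by positivity
  have s2 : ∀ t ∈ Ioc ((1 / 2 : ℝ) ^ (i + 1)) ((1 / 2) ^ i),
      ∫⁻ y in ball x ((2 : ℝ) ^ k),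
        ENNReal.ofReal (Ω.indicator ρ (x + t • (y - x))) * ENNReal.ofReal ((2 : ℝ) ^ k) ≤
      volume (ball x ((2 : ℝ) ^ k)) * ENNReal.ofReal
        (C * bF (nu Ω ρ q) (n - q) q x (k - i) / (2 : ℝ) ^ (k - i)) *
          ENNReal.ofReal ((2 : ℝ) ^ k) := by
    intro t ht
    have t0 : 0 < t := lt_trans (by positivity) ht.1
    rw [lintegral_mul_const' _ _ ENNReal.ofReal_ne_top]
    refine mul_le_mul_left ?_ _
    refine hDil n (fun y => ENNReal.ofReal (Ω.indicator ρ y)) x t _ _ hg.ennreal_ofReal t0 hR ?_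
    refine H Ω ρ ho hc hp hf x (k - i) _ ?_ ?_
    · have := mul_le_mul_of_nonneg_right ht.1.le hR.le
      rw [pow_succ] at this
      rw [zp]
      linarith
    · rw [zp]
      exact mul_le_mul_of_nonneg_right ht.2 hR.le
  refine (setLIntegral_mono' measurableSet_Ioc s2).trans ?_
  have l0 : (0 : ℝ) ≤ (1 / 2) ^ i - (1 / 2) ^ (i + 1) := by
    rw [pow_succ]
    linarith
  rw [setLIntegral_const, Real.volume_Ioc, mul_assoc, mul_assoc]
  refine mul_le_mul_right ?_ _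
  rw [← ENNReal.ofReal_mul' l0, ← ENNReal.ofReal_mul' (mul_nonneg hR.le l0)]
  refine ENNReal.ofReal_le_ofReal ?_
  have b0 : 0 ≤ bF (nu Ω ρ q) (n - q) q x (k - i) := by
    unfold bF
    positivity
  have e : C * bF (nu Ω ρ q) (n - q) q x (k - i) / (2 : ℝ) ^ (k - i) *
      ((2 : ℝ) ^ k * ((1 / 2) ^ i - (1 / 2) ^ (i + 1))) =
      C * bF (nu Ω ρ q) (n - q) q x (k - i) / 2 := by
    rw [zp, pow_succ]
    field_simp
    ring
  rw [e]
  have := mul_nonneg hC.le b0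
  linarith

end Vale.Agent.P210
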