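import Vale.Agent.P210.Stm

open Set Filter Topology MeasureTheory Metric
open scoped ENNReal NNReal ContDiff

namespace Vale.Agent.P210

namespace LabelAux

variable {n : ℕ}

theorem tri (x y z : E n) : ‖x - z‖ ≤ ‖y - x‖ + ‖y - z‖ := by
  rw [norm_sub_rev y x]
  exact norm_sub_le_norm_sub_add_norm_sub x y z

theorem uniq {σ : E n → ℝ} {ε : ℝ} {Z : Set (E n)} (h : Net σ ε Z) (x : E n) :
    ∃ w, ∀ z ∈ Z, x ∈ ball z (ε * σ z) → z = w := by
  by_cases h1 : ∃ w ∈ Z, x ∈ ball w (ε * σ w)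
  · obtain ⟨w, hw, hx⟩ := h1
    refine ⟨w, fun z hz hz' => ?_⟩
    by_contra hne
    exact Set.disjoint_left.1 (h.disj hz hw hne) hz' hx
  · exact ⟨x, fun z hz hz' => (h1 ⟨z, hz, hz'⟩).elim⟩

end LabelAux

theorem pfLabel : LabelS := by
  classical
  intro n N m ε σ I x t Z r e0 e1 hσ ht hZ hc hr hm
  have key : ∀ y, ∃ w, (w = y ∧ ¬ 0 < σ y) ∨ ∃ c < N, w ∈ Z c ∧ ‖y - w‖ < r c w ∧
      ∀ c' < c, ∀ z ∈ Z c', ¬ ‖y - z‖ < r c' z := fun y => by
    by_cases h : 0 < σ y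
    · have h1 : ∃ c, c < N ∧ ∃ z ∈ Z c, ‖y - z‖ < r c z := by
        obtain ⟨c, c1, z, hz, hy⟩ := hc y h
        exact ⟨c, c1, z, hz, (mem_ball_iff_norm.1 hy).trans_le (hr c c1 z hz).1⟩
      obtain ⟨c1, w, hw, hy⟩ := Nat.find_spec h1
      exact ⟨w, Or.inr ⟨_, c1, hw, hy, fun c' hc' z hz hz' =>
        Nat.find_min h1 hc' ⟨hc'.trans c1, z, hz, hz'⟩⟩⟩
    · exact ⟨y, Or.inl ⟨rfl, h⟩⟩
  choose l hl using key
  refine ⟨l, fun y => ?_, fun i => ?_⟩
  · have s0 := hσ.nn y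
    rcases hl y with h | ⟨c, c1, hw, hy, -⟩
    · rw [h.1, sub_self, norm_zero]
      positivity
    · have h1 := (hr c c1 _ hw).2
      have h2 := hσ.lip (l y) y
      have h3 := mul_le_mul_of_nonneg_right e1 (hσ.nn (l y))
      rw [norm_sub_rev] at hy
      linarith
  · obtain ⟨t0, t1⟩ := ht i
    have s0 := hσ.nn (x i)
    have s1 := mul_le_mul_of_nonneg_right e1 s0
    choose ζ hζ using fun c => LabelAux.uniq (hZ c) (x i)
    have h0 : ∃ c, N ≤ c ∨ ∃ z ∈ Z c, ‖x i - z‖ + t i ≤ r c z := ⟨N, Or.inl le_rfl⟩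
    refine ⟨(insert (Nat.find h0)
      ((Finset.range N).filter fun c => Hit (Z c) (r c) x t i)).image ζ,
      Finset.card_image_le.trans ((Finset.card_insert_le _ _).trans (hm i)), fun y hy => ?_⟩
    have hy' := mem_ball_iff_norm.1 hy
    rcases hl y with h | ⟨c, c1, hw, hyw, hmin⟩
    · have h2 := hσ.lip (x i) y
      rw [norm_sub_rev] at h2
      exact (h.2 (by linarith)).elim
    · have h1 := LabelAux.tri (x i) y (l y)
      have h2 := (hr c c1 _ hw).2
      have h3 := mul_le_mul_of_nonneg_left (hσ.lip (x i) (l y)) e0.le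
      have h4 := mul_le_mul_of_nonneg_right e1 (norm_nonneg (x i - l y))
      have h5 := mul_nonneg e0.le (hσ.nn (l y))
      have h6 : l y = ζ c := hζ c _ hw (mem_ball_iff_norm.2 (by linarith))
      refine Finset.mem_image.2 ⟨c, ?_, h6.symm⟩
      rcases lt_trichotomy c (Nat.find h0) with h | h | h
      · refine Finset.mem_insert_of_mem (Finset.mem_filter.2 ⟨Finset.mem_range.2 c1, l y, hw, ?_⟩)
        have h7 : r c (l y) < ‖x i - l y‖ + t i :=
          not_le.1 fun h8 => Nat.find_min h0 h (Or.inr ⟨_, hw, h8⟩)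
        exact abs_le.2 ⟨by linarith, by linarith⟩
      · exact h ▸ Finset.mem_insert_self _ _
      · rcases Nat.find_spec h0 with h7 | ⟨z, hz, h7⟩
        · omega
        · refine (hmin _ h z hz ?_).elim
          have h8 := norm_sub_le_norm_sub_add_norm_sub y (x i) z
          linarith

end Vale.Agent.P210
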