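import Vale.Agent.P210.Stm

open Set Filter Topology MeasureTheory Metric
open scoped ENNReal NNReal ContDiff

namespace Vale.Agent.P210

namespace ScalAux

variable {n : ℕ}

/-- The Christoffel pattern of a conformally flat metric. -/
def G (D : Fin n → ℝ) (k i j : Fin n) : ℝ :=
  (if k = i then 1 else 0) * D j + (if k = j then 1 else 0) * D i - (if i = j then 1 else 0) * D k

theorem G_kk (D : Fin n → ℝ) (k l : Fin n) : G D k k l = D l := by
  unfold G
  split_ifs with h1 h2 <;> simp_all

theorem G_kik (D : Fin n → ℝ) (k i : Fin n) : G D k i k = D i := by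
  unfold G
  by_cases h : k = i
  · subst h; simp
  · simp [h, Ne.symm h]

theorem G_ii (D : Fin n → ℝ) (l i : Fin n) :
    G D l i i = (if l = i then 2 * D i else 0) - D l := by
  unfold G
  by_cases h : l = i
  · subst h; simp; ring
  · simp [h]

theorem sum_a (D : Fin n → ℝ) (i : Fin n) :
    ∑ l, D l * G D l i i = 2 * D i ^ 2 - ∑ l, D l ^ 2 := by
  have : ∀ l, D l * G D l i i = (if l = i then 2 * D i ^ 2 else 0) - D l ^ 2 := fun l => by
    rw [G_ii]
    by_cases h : l = i
    · subst h; simp; ring
    · simp [h]; ring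
  simp only [this, Finset.sum_sub_distrib, Finset.sum_ite_eq', Finset.mem_univ, if_true]

theorem sum_b (D : Fin n → ℝ) (i k : Fin n) : ∑ l, G D k i l * G D l i k =
    (if k = i then 2 * D i ^ 2 - ∑ l, D l ^ 2 else 0) + D i ^ 2 - D k ^ 2 := by
  by_cases h : k = i
  · subst h
    simp only [G_kk, sum_a, if_true]
    ring
  · have : ∀ l, G D k i l * G D l i k =
        (if l = k then D i ^ 2 else 0) - (if l = i then D k ^ 2 else 0) := fun l => by
      unfold G
      by_cases h1 : l = k
      · subst h1; simp [h, Ne.symm h]; ring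
      · by_cases h2 : l = i
        · subst h2; simp [h, Ne.symm h]; ring
        · simp [h, Ne.symm h, h1, h2, Ne.symm h1, Ne.symm h2]
    simp only [this, Finset.sum_sub_distrib, Finset.sum_ite_eq', Finset.mem_univ, if_true, h,
      if_false, zero_add]

theorem alg (D : Fin n → ℝ) (H : Fin n → Fin n → ℝ) :
    ∑ i, ∑ k, (G (H k) k i i - G (H i) k i k +
      ∑ l, (G D k k l * G D l i i - G D k i l * G D l i k)) =
    -(((n : ℝ) - 1) * (2 * ∑ i, H i i + ((n : ℝ) - 2) * ∑ i, D i ^ 2)) := by
  have h1 : ∀ i k, G (H k) k i i = (if k = i then 2 * H i i else 0) - H k k := fun i k => by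
    rw [G_ii]
    by_cases h : k = i
    · subst h; rfl
    · simp [h]
  simp only [h1, G_kik, G_kk, Finset.sum_sub_distrib, sum_a, sum_b, Finset.sum_add_distrib,
    Finset.sum_ite_eq', Finset.mem_univ, if_true, Finset.sum_const, Finset.card_univ,
    Fintype.card_fin, nsmul_eq_mul, mul_sub, ← Finset.mul_sum]
  ring

theorem inv_conf (w : E n → ℝ) (y : E n) :
    (conf w y)⁻¹ = Real.exp (-(2 * w y)) • (1 : Matrix (Fin n) (Fin n) ℝ) := by
  refine Matrix.inv_eq_left_inv ?_
  rw [conf, Matrix.smul_mul, Matrix.one_mul, smul_smul, ← Real.exp_add, neg_add_cancel,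
    Real.exp_zero, one_smul]

theorem pd_conf {w : E n → ℝ} {y : E n} (h : DifferentiableAt ℝ w y) (i j l : Fin n) :
    pd i (fun y => conf w y j l) y =
      (if j = l then 1 else 0) * (2 * Real.exp (2 * w y) * pd i w y) := by
  have e : (fun y => conf w y j l) = fun y => Real.exp (2 * w y) * (if j = l then 1 else 0) := by
    funext y
    simp [conf, Matrix.one_apply]
  have h1 := ((h.hasFDerivAt.const_mul 2).exp.mul_const (if j = l then (1 : ℝ) else 0)).fderiv
  unfold pd
  rw [e, h1]
  simp only [ContinuousLinearMap.smul_apply, smul_eq_mul]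
  ring

theorem chr_conf {w : E n → ℝ} {y : E n} (h : DifferentiableAt ℝ w y) (k i j : Fin n) :
    chr (conf w) k i j y = G (fun m => pd m w y) k i j := by
  have e : Real.exp (-(2 * w y)) * Real.exp (2 * w y) = 1 := by
    rw [← Real.exp_add, neg_add_cancel, Real.exp_zero]
  unfold chr
  rw [inv_conf, Finset.sum_eq_single k]
  · simp only [pd_conf h, Matrix.smul_apply, Matrix.one_apply_eq, smul_eq_mul, G, eq_comm (a := k)]
    linear_combination ((if j = k then 1 else 0) * pd i w y + (if i = k then 1 else 0) * pd j w y -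
      (if i = j then 1 else 0) * pd k w y) * e
  · intro l _ hl
    simp [Matrix.one_apply, Ne.symm hl]
  · simp

theorem pd_chr {Ω : Set (E n)} {w : E n → ℝ} (hΩ : IsOpen Ω) (hw : ContDiffOn ℝ ∞ w Ω) {x : E n}
    (hx : x ∈ Ω) (m k i j : Fin n) :
    pd m (chr (conf w) k i j) x = G (fun a => pd m (pd a w) x) k i j := by
  have hd : ∀ a, DifferentiableAt ℝ (pd a w) x := fun a => by
    have h1 : ContDiffAt ℝ 1 (fderiv ℝ w) x :=
      (hw.contDiffAt (hΩ.mem_nhds hx)).fderiv_right
        (WithTop.coe_le_coe.2 (le_top (a := (2 : ℕ∞))))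
    exact (h1.differentiableAt one_ne_zero).clm_apply (differentiableAt_const _)
  have e : chr (conf w) k i j =ᶠ[𝓝 x] fun y => (if k = i then 1 else 0) * pd j w y +
      (if k = j then 1 else 0) * pd i w y - (if i = j then 1 else 0) * pd k w y := by
    filter_upwards [hΩ.mem_nhds hx] with y hy
    exact chr_conf ((hw.contDiffAt (hΩ.mem_nhds hy)).differentiableAt (by simp)) k i j
  have h2 : HasFDerivAt (fun y => (if k = i then 1 else 0) * pd j w y +
      (if k = j then 1 else 0) * pd i w y - (if i = j then 1 else 0) * pd k w y) _ x :=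
    (((hd j).hasFDerivAt.const_mul (if k = i then (1 : ℝ) else 0)).add
      ((hd i).hasFDerivAt.const_mul (if k = j then (1 : ℝ) else 0))).sub
      ((hd k).hasFDerivAt.const_mul (if i = j then (1 : ℝ) else 0))
  rw [pd, e.fderiv_eq, h2.fderiv]
  rfl

end ScalAux

open ScalAux in
theorem pfScal : ScalS := by
  intro n Ω w hΩ hw x hx
  have hd : DifferentiableAt ℝ w x :=
    (hw.contDiffAt (hΩ.mem_nhds hx)).differentiableAt (by simp)
  have h1 : scal (conf w) x = Real.exp (-(2 * w x)) * ∑ i, ric (conf w) i i x := by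
    unfold scal
    rw [inv_conf, Finset.mul_sum]
    refine Finset.sum_congr rfl fun i _ => ?_
    rw [Finset.sum_eq_single i]
    · simp
    · intro l _ hl
      simp [Matrix.one_apply, Ne.symm hl]
    · simp
  have h2 := alg (fun m => pd m w x) fun m a => pd m (pd a w) x
  rw [h1]
  unfold ric lap gsq
  simp only [pd_chr hΩ hw hx, chr_conf hd]
  rw [h2]
  ring

end Vale.Agent.P210
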