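import Vale.Agent.P210.Defs

open Set Filter Topology MeasureTheory Metric
open scoped ENNReal NNReal ContDiff

namespace Vale.Agent.P210
noncomputable section

variable {n : ℕ}

def lap (w : E n → ℝ) (x : E n) : ℝ := ∑ i, pd i (pd i w) x

def gsq (w : E n → ℝ) (x : E n) : ℝ := ∑ i, (pd i w x) ^ 2

def UG (Ω : Set (E n)) (ρ h : E n → ℝ) : Prop :=
  ∀ x ∈ Ω, ∀ ε > 0, ∀ᶠ y in 𝓝 x, |h y - h x| ≤ (ρ x + ε) * ‖y - x‖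

structure Met (Ω : Set (E n)) (ρ : E n → ℝ) (d : E n → E n → ℝ) : Prop where
  op : IsOpen Ω
  cont : ContinuousOn ρ Ω
  pos : ∀ x ∈ Ω, 0 < ρ x
  self : ∀ x, d x x = 0
  nonneg : ∀ x y, 0 ≤ d x y
  symm : ∀ x y, d x y = d y x
  tri : ∀ x ∈ Ω, ∀ y ∈ Ω, ∀ z ∈ Ω, d x z ≤ d x y + d y z
  seg : ∀ x y, segment ℝ x y ⊆ Ω → ENNReal.ofReal (d x y) ≤
    ∫⁻ t in Icc (0 : ℝ) 1, ENNReal.ofReal (ρ (x + t • (y - x)) * ‖y - x‖)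
  lb : ∀ h, UG Ω ρ h → ∀ x ∈ Ω, ∀ y ∈ Ω, h y - h x ≤ d x y
  cpl : ∀ u : ℕ → E n, (∀ k, u k ∈ Ω) →
    (∀ ε > 0, ∃ N, ∀ a ≥ N, ∀ b ≥ N, d (u a) (u b) < ε) →
    ∃ x ∈ Ω, Tendsto (fun k => d (u k) x) atTop (𝓝 0)

def KB (Ω : Set (E n)) (d : E n → E n → ℝ) (o : E n) (R : ℝ) : Set (E n) :=
  {x | x ∈ Ω ∧ d o x ≤ R}

def nu (Ω : Set (E n)) (ρ : E n → ℝ) (q : ℝ) : Measure (E n) :=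
  (volume.restrict Ω).withDensity (fun y => ENNReal.ofReal (ρ y ^ q))

def sl (Ω : Set (E n)) (ρ : E n → ℝ) (x y : E n) : ℝ≥0∞ :=
  ∫⁻ t in Icc (0 : ℝ) 1, ENNReal.ofReal (Ω.indicator ρ (x + t • (y - x)) * ‖y - x‖)

def bF (ν : Measure (E n)) (s q : ℝ) (y : E n) (k : ℤ) : ℝ :=
  ((ν (ball y ((2 : ℝ) ^ k))).toReal / ((2 : ℝ) ^ k) ^ s) ^ (1 / q)

def aF (ν : Measure (E n)) (s q : ℝ) (x : E n) (k : ℤ) : ℝ :=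
  ⨆ y : E n, bF ν s q y k * max 0 (1 - ‖x - y‖ / (2 : ℝ) ^ k)

def Fk (q k t : ℝ) : ℝ := Real.exp (q * t) / (1 + Real.exp (q * t) / k)

structure Pot (Ω : Set (E n)) (A : ℝ) (a P : E n → ℤ → ℝ) (Φ : E n → ℝ) : Prop where
  a0 : ∀ x k, 0 ≤ a x k
  a1 : ∀ x k, a x k ≤ A
  step : ∀ x k, P x k - P x (k + 1) = a x (k + 1)
  lip : ∀ x y k, |P x k - P y k| ≤ A * ‖x - y‖ / (2 : ℝ) ^ k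
  bot : ∀ x, Tendsto (P x) atTop atBot
  sum : ∀ x ∈ Ω, ∀ k : ℤ, HasSum (fun i : ℕ => a x (k - i)) (Φ x - P x k)
  lim : ∀ x ∈ Ω, Tendsto (P x) atBot (𝓝 (Φ x))
  cont : ContinuousOn Φ Ω

structure Lp (σ : E n → ℝ) : Prop where
  nn : ∀ x, 0 ≤ σ x
  lip : ∀ x y, σ x ≤ σ y + ‖x - y‖

structure Sig (P : E n → ℤ → ℝ) (L : ℝ) (σ : ℤ → E n → ℝ) : Prop where
  lp : ∀ j, Lp (σ j)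
  anti : ∀ j x, σ (j + 1) x ≤ σ j x
  low : ∀ (j : ℤ) x (k : ℤ), j * L ≤ P x k → (2 : ℝ) ^ k ≤ σ j x
  wit : ∀ (j : ℤ) x, 0 < σ j x →
    ∃ y, ∃ k : ℤ, j * L ≤ P y k ∧ σ j x / 2 < (2 : ℝ) ^ k - ‖x - y‖

def Wt {I : Type} (x : I → E n) (wt : I → ℝ≥0∞) (U : Set (E n)) : ℝ≥0∞ :=
  ∑' i, (x ⁻¹' U).indicator wt i

def Hit {I : Type} (Z : Set (E n)) (r : E n → ℝ) (x : I → E n) (t : I → ℝ) (i : I) : Prop :=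
  ∃ z ∈ Z, |‖x i - z‖ - r z| ≤ t i

structure Net (σ : E n → ℝ) (ε : ℝ) (Z : Set (E n)) : Prop where
  pos : ∀ z ∈ Z, 0 < σ z
  disj : Z.PairwiseDisjoint (fun z => ball z (ε * σ z))

def Rad (σ : E n → ℝ) (ε : ℝ) (Z : Set (E n)) (r : E n → ℝ) : Prop :=
  ∀ z ∈ Z, ε * σ z / 4 ≤ r z ∧ r z ≤ ε * σ z / 2

structure Lev (m : ℕ) (σ : ℤ → E n → ℝ) (l : ℤ → E n → E n) : Prop where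
  near : ∀ j y, ‖l j y - y‖ ≤ σ j y / 10
  few : ∀ j x, ∃ S : Finset (E n), S.card ≤ m ∧ ∀ y ∈ ball x (σ (j + 1) x), l j y ∈ S

open Classical in
def labF (θ Φ : E n → ℝ) (L : ℝ) (l : ℤ → E n → E n) (x : E n) : ℤ × E n :=
  if θ (l (⌊Φ x / L - 3⌋ + 1) x) ≤ Int.fract (Φ x / L - 3) then
    (⌊Φ x / L - 3⌋ + 1, l (⌊Φ x / L - 3⌋ + 1) x)
  else (⌊Φ x / L - 3⌋, l ⌊Φ x / L - 3⌋ (l (⌊Φ x / L - 3⌋ + 1) x))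

def ScalS : Prop := ∀ (n : ℕ) (Ω : Set (E n)) (w : E n → ℝ), IsOpen Ω → ContDiffOn ℝ ∞ w Ω →
  ∀ x ∈ Ω, scal (conf w) x =
    -(Real.exp (-(2 * w x)) * (((n : ℝ) - 1) * (2 * lap w x + ((n : ℝ) - 2) * gsq w x)))

def DTriS : Prop := ∀ (n : ℕ) (Ω : Set (E n)) (g : E n → Matrix (Fin n) (Fin n) ℝ),
  (∀ x, rdist Ω g x x = 0) ∧ (∀ x y z, rdist Ω g x z ≤ rdist Ω g x y + rdist Ω g y z) ∧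
  (∀ x y, rdist Ω g x y = rdist Ω g y x) ∧ ∀ x y, rdist Ω g x y ≤ arc Ω g x y

def DSegS : Prop := ∀ (n : ℕ) (Ω : Set (E n)) (w : E n → ℝ),
  (∀ γ : ℝ → E n, len (conf w) γ =
    ∫⁻ t in Icc (0 : ℝ) 1, ENNReal.ofReal (Real.exp (w (γ t)) * ‖deriv γ t‖)) ∧
  ∀ x y, segment ℝ x y ⊆ Ω → arc Ω (conf w) x y ≤
    ∫⁻ t in Icc (0 : ℝ) 1, ENNReal.ofReal (Real.exp (w (x + t • (y - x))) * ‖y - x‖)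

def DLbS : Prop := ∀ (n : ℕ) (Ω : Set (E n)) (w h : E n → ℝ), IsOpen Ω → ContinuousOn w Ω →
  UG Ω (fun y => Real.exp (w y)) h → ∀ x y, ENNReal.ofReal (h y - h x) ≤ rdist Ω (conf w) x y

def MetS : Prop := ∀ (n : ℕ) (Ω : Set (E n)) (w : E n → ℝ), IsOpen Ω → IsConnected Ω →
  ContinuousOn w Ω → Complete Ω (conf w) →
  (∀ x ∈ Ω, ∀ y ∈ Ω, rdist Ω (conf w) x y ≠ ⊤) ∧
  Met Ω (fun y => Real.exp (w y)) (fun x y => (rdist Ω (conf w) x y).toReal)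

def LocS : Prop := ∀ (n : ℕ) (Ω : Set (E n)) (ρ : E n → ℝ) (d : E n → E n → ℝ), Met Ω ρ d →
  (∀ x ∈ Ω, ∀ ε > 0, ∃ r > 0, ball x r ⊆ Ω ∧
    ∀ y ∈ ball x r, ∀ z ∈ ball x r, d y z ≤ (ρ x + ε) * ‖y - z‖) ∧
  (∀ x ∈ Ω, ∃ r > 0, ∃ c > 0, ∀ y ∈ Ω, c * min ‖y - x‖ r ≤ d x y) ∧
  (∀ o ∈ Ω, UG Ω ρ (d o)) ∧ ∀ o ∈ Ω, ContinuousOn (d o) Ω

def OpenS : Prop := ∀ (n : ℕ) (Ω : Set (E n)) (ρ : E n → ℝ) (d : E n → E n → ℝ), Met Ω ρ d →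
  ∀ o ∈ Ω, ∀ R, 0 ≤ R → IsCompact (KB Ω d o R) → ∃ R' > R, IsCompact (KB Ω d o R')

def MidS : Prop := ∀ (n : ℕ) (Ω : Set (E n)) (ρ : E n → ℝ) (d : E n → E n → ℝ), Met Ω ρ d →
  ∀ o ∈ Ω, ∀ R, 0 ≤ R → ∀ y ∈ Ω, R ≤ d o y → ∀ ε > 0, ∃ z ∈ KB Ω d o R, d z y ≤ d o y - R + ε

def ClosedS : Prop := ∀ (n : ℕ) (Ω : Set (E n)) (ρ : E n → ℝ) (d : E n → E n → ℝ), Met Ω ρ d →
  ∀ o ∈ Ω, ∀ R, 0 < R → (∀ R' < R, IsCompact (KB Ω d o R')) → IsCompact (KB Ω d o R)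

def ProperS : Prop := ∀ (n : ℕ) (Ω : Set (E n)) (ρ : E n → ℝ) (d : E n → E n → ℝ), Met Ω ρ d →
  ∀ o ∈ Ω, ∀ R, IsCompact (KB Ω d o R)

def IbpS : Prop := ∀ (n : ℕ) (Ω : Set (E n)) (w ψ : E n → ℝ) (K : ℝ≥0), IsOpen Ω →
  ContDiffOn ℝ ∞ w Ω → LipschitzWith K ψ → HasCompactSupport ψ → tsupport ψ ⊆ Ω →
  Integrable (fun x => ψ x * lap w x) ∧ Integrable (fun x => ∑ i, pd i ψ x * pd i w x) ∧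
  ∫ x, ψ x * lap w x = -∫ x, ∑ i, pd i ψ x * pd i w x

def LipS : Prop := ∀ (n : ℕ) (Ω : Set (E n)) (f : E n → ℝ) (C : Set (E n)), IsOpen Ω →
  IsCompact C → C ⊆ Ω → (∀ x, x ∉ C → f x = 0) →
  (∀ x ∈ Ω, ∃ r > 0, ∃ M : ℝ, ∀ y ∈ ball x r, ∀ z ∈ ball x r, |f y - f z| ≤ M * ‖y - z‖) →
  ∃ K : ℝ≥0, LipschitzWith K f

def CaccS : Prop := ∀ (n : ℕ) (Ω : Set (E n)) (w ζ : E n → ℝ) (G : ℝ → ℝ) (β c : ℝ) (K : ℝ≥0)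
  (p : ℕ), IsOpen Ω → ContDiffOn ℝ ∞ w Ω → 0 ≤ c →
  (∀ x ∈ Ω, lap w x + (β + 1 / 4) * gsq w x + c * Real.exp (2 * w x) ≤ 0) →
  ContDiff ℝ 1 G → (∀ t, 0 ≤ G t) → (∀ t, deriv G t ≤ β * G t) →
  LipschitzWith K ζ → HasCompactSupport ζ → tsupport ζ ⊆ Ω → (∀ x, 0 ≤ ζ x) → 2 ≤ p →
  ∫⁻ x in Ω, ENNReal.ofReal (c * (G (w x) * Real.exp (2 * w x) * ζ x ^ p)) ≤
    ∫⁻ x in Ω, ENNReal.ofReal ((p : ℝ) ^ 2 * (G (w x) * ζ x ^ (p - 2) * ‖fderiv ℝ ζ x‖ ^ 2))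

def CutS : Prop := ∀ (n : ℕ) (Ω : Set (E n)) (ρ : E n → ℝ) (d : E n → E n → ℝ), Met Ω ρ d →
  ∀ o ∈ Ω, ∀ (x : E n) (r R : ℝ), 0 < r → 0 < R → ∃ (ζ : E n → ℝ) (K : ℝ≥0),
    LipschitzWith K ζ ∧ HasCompactSupport ζ ∧ tsupport ζ ⊆ Ω ∧ (∀ y, 0 ≤ ζ y ∧ ζ y ≤ 1) ∧
    (∀ y ∈ ball x r ∩ KB Ω d o R, ζ y = 1) ∧ (∀ y, y ∉ ball x (2 * r) → ζ y = 0) ∧
    ∀ y ∈ Ω, ‖fderiv ℝ ζ y‖ ≤ 1 / r + ρ y / R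

def PdeKS : Prop := ∀ (n : ℕ) (β c : ℝ), 0 < β → 0 < c → ∃ A > 0, ∃ B > 0,
  ∀ (Ω : Set (E n)) (w : E n → ℝ) (d : E n → E n → ℝ), Met Ω (fun y => Real.exp (w y)) d →
  ContDiffOn ℝ ∞ w Ω →
  (∀ x ∈ Ω, lap w x + (β + 1 / 4) * gsq w x + c * Real.exp (2 * w x) ≤ 0) →
  ∀ o ∈ Ω, ∀ (x : E n) (r R k : ℝ), 0 < r → 0 < R → 0 < k →
    ∫⁻ y in ball x r ∩ KB Ω d o R, ENNReal.ofReal (Fk (2 + β) k (w y)) ≤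
      ENNReal.ofReal (A * r ^ ((n : ℝ) - (2 + β)) + B * k * r ^ n / R ^ 2)

def PdeS : Prop := ∀ (n : ℕ) (β c : ℝ), 0 < β → 0 < c → ∃ A > 0,
  ∀ (Ω : Set (E n)) (w : E n → ℝ) (d : E n → E n → ℝ), Met Ω (fun y => Real.exp (w y)) d →
  ContDiffOn ℝ ∞ w Ω →
  (∀ x ∈ Ω, lap w x + (β + 1 / 4) * gsq w x + c * Real.exp (2 * w x) ≤ 0) →
  ∀ (x : E n) (r : ℝ), 0 < r → nu Ω (fun y => Real.exp (w y)) (2 + β) (ball x r) ≤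
    ENNReal.ofReal (A * r ^ ((n : ℝ) - (2 + β)))

def SegS : Prop := ∀ (n : ℕ) (Ω : Set (E n)) (ρ : E n → ℝ) (d : E n → E n → ℝ), Met Ω ρ d →
  ∀ x ∈ Ω, ∀ y, sl Ω ρ x y ≠ ⊤ → y ∈ Ω ∧ ENNReal.ofReal (d x y) ≤ sl Ω ρ x y

def HolS : Prop := ∀ (n : ℕ) (q : ℝ), 1 < q → ∃ C > 0, ∀ (Ω : Set (E n)) (ρ : E n → ℝ),
  IsOpen Ω → ContinuousOn ρ Ω → (∀ x ∈ Ω, 0 < ρ x) → (∀ x r, nu Ω ρ q (ball x r) ≠ ⊤) →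
  ∀ (x : E n) (j : ℤ) (r : ℝ), (2 : ℝ) ^ j / 2 ≤ r → r ≤ (2 : ℝ) ^ j →
    ∫⁻ y in ball x r, ENNReal.ofReal (Ω.indicator ρ y) ≤
      volume (ball x r) * ENNReal.ofReal (C * bF (nu Ω ρ q) (n - q) q x j / (2 : ℝ) ^ j)

def AvS : Prop := ∀ (n : ℕ) (q : ℝ), 1 < q → ∃ C > 0, ∀ (Ω : Set (E n)) (ρ : E n → ℝ),
  IsOpen Ω → ContinuousOn ρ Ω → (∀ x ∈ Ω, 0 < ρ x) → (∀ x r, nu Ω ρ q (ball x r) ≠ ⊤) →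
  ∀ (x : E n) (k : ℤ), Measurable (sl Ω ρ x) ∧ ∫⁻ y in ball x ((2 : ℝ) ^ k), sl Ω ρ x y ≤
    volume (ball x ((2 : ℝ) ^ k)) *
      ∑' i : ℕ, ENNReal.ofReal (C * bF (nu Ω ρ q) (n - q) q x (k - i))

def MarkS : Prop := ∀ (n : ℕ) (q : ℝ), 1 < q → ∃ C > 0,
  ∀ (Ω : Set (E n)) (ρ : E n → ℝ) (d : E n → E n → ℝ), Met Ω ρ d →
  (∀ x r, nu Ω ρ q (ball x r) ≠ ⊤) → ∀ x ∈ Ω, ∀ (k : ℤ) (u : ℕ → ℝ) (M lam : ℝ), 0 < lam →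
  (∀ i : ℕ, bF (nu Ω ρ q) (n - q) q x (k - i) ≤ u i) → Summable u → ∑' i, u i ≤ M →
  volume {y | y ∈ ball x ((2 : ℝ) ^ k) ∧ ¬ (y ∈ Ω ∧ d x y ≤ lam * (C * (M + 1)))} ≤
    volume (ball x ((2 : ℝ) ^ k)) / ENNReal.ofReal lam

def CoreS : Prop := ∀ (n : ℕ) (q : ℝ), 1 < q → ∃ C > 0,
  ∀ (Ω : Set (E n)) (ρ : E n → ℝ) (d : E n → E n → ℝ) (a : E n → ℤ → ℝ), Met Ω ρ d →
  (∀ x r, nu Ω ρ q (ball x r) ≠ ⊤) → (∀ x k, bF (nu Ω ρ q) (n - q) q x k ≤ a x k) →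
  ∀ x ∈ Ω, ∀ y ∈ Ω, ∀ (k : ℤ) (M₁ M₂ : ℝ), ‖x - y‖ ≤ (2 : ℝ) ^ k →
  HasSum (fun i : ℕ => a x (k + 1 - i)) M₁ → HasSum (fun i : ℕ => a y (k + 1 - i)) M₂ →
  d x y ≤ C * (M₁ + M₂ + 2)

def DivS : Prop := ∀ (n : ℕ) (q : ℝ), 0 < n → 1 < q →
  ∀ (Ω : Set (E n)) (ρ : E n → ℝ) (d : E n → E n → ℝ) (a : E n → ℤ → ℝ), Met Ω ρ d →
  (∀ x r, nu Ω ρ q (ball x r) ≠ ⊤) → (∀ x k, bF (nu Ω ρ q) (n - q) q x k ≤ a x k) →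
  ∀ o ∈ Ω, (∃ (M : ℝ) (k₀ : ℤ), ∀ k ≤ k₀, a o k ≤ M * (2 : ℝ) ^ k) →
  ¬ Summable (fun i : ℕ => a o i)

def AprS : Prop := ∀ (n : ℕ) (ν : Measure (E n)) (s q A : ℝ), 0 < q → 0 < A →
  (∀ x r, 0 < r → ν (ball x r) ≤ ENNReal.ofReal (A * r ^ s)) →
  (∀ x k, bF ν s q x k ≤ aF ν s q x k) ∧ (∀ x k, 0 ≤ aF ν s q x k) ∧
  (∀ x k, aF ν s q x k ≤ A ^ (1 / q)) ∧
  (∀ x y k, |aF ν s q x k - aF ν s q y k| ≤ A ^ (1 / q) * ‖x - y‖ / (2 : ℝ) ^ k) ∧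
  ∀ x k, ENNReal.ofReal (aF ν s q x k ^ q * ((2 : ℝ) ^ k) ^ s) ≤ ν (ball x ((2 : ℝ) ^ (k + 1)))

def SmallS : Prop := ∀ (n : ℕ) (Ω : Set (E n)) (ρ : E n → ℝ) (q : ℝ) (a : E n → ℤ → ℝ),
  0 < q → IsOpen Ω → ContinuousOn ρ Ω → (∀ x ∈ Ω, 0 < ρ x) → (∀ x k, 0 ≤ a x k) →
  (∀ x k, ENNReal.ofReal (a x k ^ q * ((2 : ℝ) ^ k) ^ ((n : ℝ) - q)) ≤
    nu Ω ρ q (ball x ((2 : ℝ) ^ (k + 1)))) →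
  ∀ x₀ ∈ Ω, ∃ r > 0, ∃ (M : ℝ) (k₀ : ℤ), ∀ x ∈ ball x₀ r, ∀ k ≤ k₀, a x k ≤ M * (2 : ℝ) ^ k

def Pot1S : Prop := ∀ (n : ℕ) (A : ℝ) (a : E n → ℤ → ℝ),
  (∀ x y k, |a x k - a y k| ≤ A * ‖x - y‖ / (2 : ℝ) ^ k) →
  ∃ P : E n → ℤ → ℝ, (∀ x k, P x k - P x (k + 1) = a x (k + 1)) ∧
    ∀ x y k, |P x k - P y k| ≤ A * ‖x - y‖ / (2 : ℝ) ^ k

def Pot2S : Prop := ∀ (n : ℕ) (Ω : Set (E n)) (A : ℝ) (a : E n → ℤ → ℝ),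
  (∀ x k, 0 ≤ a x k) → (∀ x k, a x k ≤ A) →
  (∀ x y k, |a x k - a y k| ≤ A * ‖x - y‖ / (2 : ℝ) ^ k) →
  (∀ x₀ ∈ Ω, ∃ r > 0, ∃ (M : ℝ) (k₀ : ℤ), ∀ x ∈ ball x₀ r, ∀ k ≤ k₀, a x k ≤ M * (2 : ℝ) ^ k) →
  (∃ o, ¬ Summable (fun i : ℕ => a o i)) → ∃ P Φ, Pot Ω A a P Φ

def SigS : Prop := ∀ (n : ℕ) (Ω : Set (E n)) (A L : ℝ) (a P : E n → ℤ → ℝ) (Φ : E n → ℝ),
  Pot Ω A a P Φ → 0 < L → ∃ σ, Sig P L σ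

def ScaleS : Prop := ∀ (m : ℕ) (A s q η κ : ℝ), 0 ≤ s → s < m → 0 < q → 0 < η → 0 < κ →
  ∃ L > 0, ∀ (n : ℕ) (ν : Measure (E n)) (Ω : Set (E n)) (a P : E n → ℤ → ℝ) (Φ : E n → ℝ)
    (σ : ℤ → E n → ℝ), Pot Ω A a P Φ → Sig P L σ →
    (∀ x k, ENNReal.ofReal (a x k ^ q * ((2 : ℝ) ^ k) ^ s) ≤ ν (ball x ((2 : ℝ) ^ (k + 1)))) →
    ∀ j x, 0 < σ (j + 1) x → ∃ τ > 0, σ (j + 1) x ≤ τ ∧ τ ≤ η * σ j x ∧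
      ENNReal.ofReal (κ * (τ / σ j x) ^ m * σ j x ^ s) ≤ ν (ball x τ)

def VitS : Prop := ∀ (n m : ℕ) (s A η δ : ℝ), 0 ≤ s → 0 < A → 0 < η → 0 < δ →
  ∃ η₁ > 0, ∃ κ > 0, ∀ (ν : Measure (E n)) (σ σ' : E n → ℝ),
    (∀ x r, 0 < r → ν (ball x r) ≤ ENNReal.ofReal (A * r ^ s)) → Lp σ →
    (∀ x, 0 < σ' x → ∃ τ > 0, σ' x ≤ τ ∧ τ ≤ η₁ * σ x ∧
      ENNReal.ofReal (κ * (τ / σ x) ^ m * σ x ^ s) ≤ ν (ball x τ)) →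
    ∃ (I : Type) (_ : Countable I) (x : I → E n) (t : I → ℝ),
      (∀ i, 0 < t i ∧ t i ≤ η * σ (x i)) ∧
      (∀ z, Wt x (fun i => ENNReal.ofReal ((t i / σ (x i)) ^ m)) (ball z (σ z / 2)) ≤
        ENNReal.ofReal δ) ∧
      ∀ y, 0 < σ' y → ∃ i, ball y (σ' y) ⊆ ball (x i) (t i)

def PackS : Prop := ∀ n : ℕ, ∃ N : ℕ, 0 < N ∧ ∀ (x : E n) (r : ℝ) (z : ℕ → E n), 0 < r →
  (∀ c < N, ‖z c - x‖ ≤ 3 * r) → ∃ c c', c < c' ∧ c' < N ∧ ‖z c' - z c‖ < r / 5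

def NetS : Prop := ∀ n : ℕ, ∃ N : ℕ, 0 < N ∧ ∀ ε : ℝ, 0 < ε → ε ≤ 1 / 10 → ∀ σ : E n → ℝ, Lp σ →
  ∃ Z : ℕ → Set (E n), (∀ c, Net σ ε (Z c)) ∧
    ∀ x, 0 < σ x → ∃ c < N, ∃ z ∈ Z c, x ∈ ball z (ε * σ z / 4)

def AvgS : Prop := ∀ (I : Type) (_ : Countable I) (d t : I → ℝ) (c : I → ℝ≥0∞) (a b : ℝ),
  a < b → (∀ i, 0 ≤ t i) → ∃ r ∈ Icc a b,
    (∑' i, {i | |d i - r| ≤ t i}.indicator c i) * ENNReal.ofReal (b - a) ≤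
      ∑' i, c i * ENNReal.ofReal (2 * t i)

def Step1S : Prop := ∀ (n : ℕ) (ε : ℝ) (σ : E n → ℝ) (I : Type) (_ : Countable I) (x : I → E n)
  (t : I → ℝ) (wt : I → ℝ≥0∞) (z : E n), 0 < ε → ε ≤ 1 / 10 → Lp σ →
  (∀ i, 0 < t i ∧ t i ≤ ε / 10 * σ (x i)) → 0 < σ z →
  ∃ r : ℝ, ε * σ z / 4 ≤ r ∧ r ≤ ε * σ z / 2 ∧
    (∀ i, |‖x i - z‖ - r| ≤ t i → x i ∈ ball z (ε * σ z)) ∧
    ∑' i, {i | |‖x i - z‖ - r| ≤ t i}.indicator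
      (fun i => wt i * ENNReal.ofReal (σ (x i) / t i)) i ≤
      ENNReal.ofReal (16 / ε) * Wt x wt (ball z (ε * σ z))

open Classical in
def StepS : Prop := ∀ (n : ℕ) (ε : ℝ) (σ : E n → ℝ) (I : Type) (_ : Countable I) (x : I → E n)
  (t : I → ℝ) (wt : I → ℝ≥0∞) (Z : Set (E n)), 0 < ε → ε ≤ 1 / 10 → Lp σ →
  (∀ i, 0 < t i ∧ t i ≤ ε / 10 * σ (x i)) → Net σ ε Z →
  ∃ r, Rad σ ε Z r ∧ ∀ (z : E n) (u : ℝ), 0 ≤ u → u ≤ 1 / 2 →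
    Wt x (fun i => if Hit Z r x t i then wt i * ENNReal.ofReal (σ (x i) / t i) else wt i)
      (ball z (u * σ z)) ≤ ENNReal.ofReal (1 + 16 / ε) * Wt x wt (ball z ((u + 4 * ε) * σ z))

open Classical in
def IterS : Prop := ∀ (n N : ℕ) (ε : ℝ) (σ : E n → ℝ) (I : Type) (_ : Countable I)
  (x : I → E n) (t : I → ℝ) (wt : I → ℝ≥0∞) (Z : ℕ → Set (E n)), 0 < ε → ε ≤ 1 / 10 →
  4 * ε * N < 1 / 2 → Lp σ → (∀ i, 0 < t i ∧ t i ≤ ε / 10 * σ (x i)) → (∀ c, Net σ ε (Z c)) →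
  ∃ r : ℕ → E n → ℝ, (∀ c < N, Rad σ ε (Z c) (r c)) ∧ ∀ i,
    wt i * ENNReal.ofReal (σ (x i) / t i) ^
      ((Finset.range N).filter (fun c => Hit (Z c) (r c) x t i)).card ≤
      ENNReal.ofReal (1 + 16 / ε) ^ N * Wt x wt (ball (x i) (σ (x i) / 2))

open Classical in
def LabelS : Prop := ∀ (n N m : ℕ) (ε : ℝ) (σ : E n → ℝ) (I : Type) (x : I → E n) (t : I → ℝ)
  (Z : ℕ → Set (E n)) (r : ℕ → E n → ℝ), 0 < ε → ε ≤ 1 / 10 → Lp σ →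
  (∀ i, 0 < t i ∧ t i ≤ ε / 10 * σ (x i)) → (∀ c, Net σ ε (Z c)) →
  (∀ y, 0 < σ y → ∃ c < N, ∃ z ∈ Z c, y ∈ ball z (ε * σ z / 4)) →
  (∀ c < N, Rad σ ε (Z c) (r c)) →
  (∀ i, ((Finset.range N).filter (fun c => Hit (Z c) (r c) x t i)).card < m) →
  ∃ l : E n → E n, (∀ y, ‖l y - y‖ ≤ σ y / 10) ∧
    ∀ i, ∃ S : Finset (E n), S.card ≤ m ∧ ∀ y ∈ ball (x i) (t i), l y ∈ S

def LabS : Prop := ∀ n m : ℕ, ∃ η > 0, ∃ δ > 0, ∀ (σ : E n → ℝ) (I : Type) (_ : Countable I)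
  (x : I → E n) (t : I → ℝ), Lp σ → (∀ i, 0 < t i ∧ t i ≤ η * σ (x i)) →
  (∀ z, Wt x (fun i => ENNReal.ofReal ((t i / σ (x i)) ^ m)) (ball z (σ z / 2)) ≤
    ENNReal.ofReal δ) →
  ∃ l : E n → E n, (∀ y, ‖l y - y‖ ≤ σ y / 10) ∧
    ∀ i, ∃ S : Finset (E n), S.card ≤ m ∧ ∀ y ∈ ball (x i) (t i), l y ∈ S

def LevS : Prop := ∀ (n m : ℕ) (A A₁ s q : ℝ), 0 ≤ s → s < m → 0 < q → 0 < A →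
  ∃ L > 0, ∀ (ν : Measure (E n)) (Ω : Set (E n)) (a P : E n → ℤ → ℝ) (Φ : E n → ℝ)
    (σ : ℤ → E n → ℝ), (∀ x r, 0 < r → ν (ball x r) ≤ ENNReal.ofReal (A * r ^ s)) →
    Pot Ω A₁ a P Φ → Sig P L σ →
    (∀ x k, ENNReal.ofReal (a x k ^ q * ((2 : ℝ) ^ k) ^ s) ≤ ν (ball x ((2 : ℝ) ^ (k + 1)))) →
    ∃ l, Lev m σ l

def FinAS : Prop := ∀ n : ℕ, ∃ θ : E n → ℝ, ∀ (m : ℕ) (Ω : Set (E n)) (A L : ℝ)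
  (a P : E n → ℤ → ℝ) (Φ : E n → ℝ) (σ : ℤ → E n → ℝ) (l : ℤ → E n → E n), IsOpen Ω → 0 < L →
  Pot Ω A a P Φ → Sig P L σ → Lev m σ l →
  ∀ x₀ ∈ Ω, ∃ r > 0, ∃ S : Finset (ℤ × E n), S.card ≤ m + 1 ∧
    ∀ x ∈ ball x₀ r, labF θ Φ L l x ∈ S

def FinBS : Prop := ∀ (n m : ℕ) (θ : E n → ℝ) (Ω : Set (E n)) (A L : ℝ)
  (a P : E n → ℤ → ℝ) (Φ : E n → ℝ) (σ : ℤ → E n → ℝ) (l : ℤ → E n → E n), 0 < L →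
  Pot Ω A a P Φ → Sig P L σ → Lev m σ l →
  ∀ x ∈ Ω, ∀ y ∈ Ω, labF θ Φ L l x = labF θ Φ L l y → ∃ k : ℤ, ‖x - y‖ ≤ (2 : ℝ) ^ k ∧
    Φ x - P x (k + 1) ≤ 4 * L + 2 * A ∧ Φ y - P y (k + 1) ≤ 4 * L + 2 * A

def RadS : Prop := ∀ (n : ℕ) (Ω : Set (E n)) (Good : Set (E n) → Prop),
  (∀ U W, Good U → W ⊆ U → Good W) → (∀ x ∈ Ω, ∃ r > 0, Good (ball x r)) →
  ∃ R : E n → ℝ, Lp R ∧ (∀ x ∈ Ω, 0 < R x) ∧ ∀ x r, 0 < r → r < R x → Good (ball x r)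

def CellS : Prop := ∀ (X : Type) (_ : TopologicalSpace X) (V : Type) (m : ℕ) (g : V → X → ℝ),
  (∀ v, Continuous (g v)) → (∀ v x, 0 ≤ g v x) → (∀ x, ∃ v, 0 < g v x) →
  (∀ x₀, ∃ S : Finset V, S.card ≤ m + 1 ∧ ∀ᶠ x in 𝓝 x₀, ∀ v, 0 < g v x → v ∈ S) →
  ∃ (K : AbstractSimplicialComplex V) (f : X → space K), (∀ s ∈ K.faces, s.card ≤ m + 1) ∧
    Continuous[inferInstance, spaceTop K] f ∧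
    ∀ x y, f x = f y → ∃ v, 0 < g v x ∧ 0 < g v y

def NerveS : Prop := ∀ (n m : ℕ) (V : Type) (Ω : Set (E n)) (lab : E n → V)
  (Good : Set (E n) → Prop), (∀ U W, Good U → W ⊆ U → Good W) →
  (∀ U, Good U → ∃ S : Finset V, S.card ≤ m + 1 ∧ ∀ x ∈ U, lab x ∈ S) →
  (∀ x ∈ Ω, ∃ r > 0, Good (ball x r)) →
  ∃ (K : AbstractSimplicialComplex V) (f : Ω → space K), (∀ s ∈ K.faces, s.card ≤ m + 1) ∧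
    Continuous[inferInstance, spaceTop K] f ∧
    ∀ x y : Ω, f x = f y → ∃ z z' U U', Good U ∧ Good U' ∧ (x : E n) ∈ U ∧ z ∈ U ∧
      (y : E n) ∈ U' ∧ z' ∈ U' ∧ lab z = lab z'

def DilS : Prop := ∀ (n : ℕ) (f : E n → ℝ≥0∞) (x : E n) (t R : ℝ) (M : ℝ≥0∞), Measurable f →
  0 < t → 0 < R → ∫⁻ y in ball x (t * R), f y ≤ volume (ball x (t * R)) * M →
  ∫⁻ y in ball x R, f (x + t • (y - x)) ≤ volume (ball x R) * M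

def BotS : Prop := ∀ (n : ℕ) (A : ℝ) (a P : E n → ℤ → ℝ), (∀ x k, 0 ≤ a x k) →
  (∀ x y k, |a x k - a y k| ≤ A * ‖x - y‖ / (2 : ℝ) ^ k) →
  (∀ x k, P x k - P x (k + 1) = a x (k + 1)) →
  (∃ o, ¬ Summable (fun i : ℕ => a o i)) → ∀ x, Tendsto (P x) atTop atBot

def SumS : Prop := ∀ f p : ℤ → ℝ, (∀ k, p k - p (k + 1) = f (k + 1)) →
  Summable (fun i : ℕ => f (-i)) →
  (∀ k : ℤ, HasSum (fun i : ℕ => f (k - i)) (p 0 + (∑' i : ℕ, f (-i)) - p k)) ∧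
    Tendsto p atBot (𝓝 (p 0 + ∑' i : ℕ, f (-i)))

def GeoS : Prop := ∀ (A γ κ : ℝ) (N : ℕ), 0 < γ → 0 < κ → ∃ L > 0, ∀ (f p : ℤ → ℝ) (k K : ℤ),
  (∀ k, p k - p (k + 1) = f (k + 1)) → (∀ k, 0 ≤ f k) → (∀ k, f k ≤ A) → L ≤ p k - p K →
  ∃ i, k < i ∧ i + N ≤ K ∧ κ * ((2 : ℝ) ^ (i - K)) ^ γ ≤ f i

def PosS : Prop := ∀ (n : ℕ) (Ω : Set (E n)) (A L : ℝ) (a P : E n → ℤ → ℝ) (Φ : E n → ℝ)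
  (σ : ℤ → E n → ℝ), 0 < L → Pot Ω A a P Φ → Sig P L σ → ∀ x ∈ Ω,
  0 < σ (⌊Φ x / L - 3⌋ + 1 + 1) x

def FinA1S : Prop := ∀ (n m : ℕ) (θ : E n → ℝ) (Ω : Set (E n)) (A L : ℝ)
  (a P : E n → ℤ → ℝ) (Φ : E n → ℝ) (σ : ℤ → E n → ℝ) (l : ℤ → E n → E n),
  Function.Injective θ → IsOpen Ω → 0 < L → Pot Ω A a P Φ → Sig P L σ → Lev m σ l →
  ∀ x₀ ∈ Ω, Int.fract (Φ x₀ / L - 3) ≠ 0 → ∃ S : Finset (ℤ × E n), S.card ≤ m + 1 ∧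
    ∀ᶠ x in 𝓝 x₀, labF θ Φ L l x ∈ S

def FinA2S : Prop := ∀ (n m : ℕ) (θ : E n → ℝ) (Ω : Set (E n)) (A L : ℝ)
  (a P : E n → ℤ → ℝ) (Φ : E n → ℝ) (σ : ℤ → E n → ℝ) (l : ℤ → E n → E n),
  (∀ y, 0 < θ y ∧ θ y < 1) → IsOpen Ω → 0 < L → Pot Ω A a P Φ → Sig P L σ → Lev m σ l →
  ∀ x₀ ∈ Ω, Int.fract (Φ x₀ / L - 3) = 0 → ∃ S : Finset (ℤ × E n), S.card ≤ m + 1 ∧
    ∀ᶠ x in 𝓝 x₀, labF θ Φ L l x ∈ S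

end
end Vale.Agent.P210
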